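import Vale.Agent.P074.GapL2

/-!
# Optimality of cell maps and estimates for the distance between finitely supported targets
-/

open MeasureTheory Set Metric Filter Topology
open scoped ENNReal NNReal

set_option linter.unusedSectionVars false
set_option linter.unusedSimpArgs false
set_option linter.unusedVariables false

namespace Vale.Agent.P074

variable {d : ℕ} {I : Type} [Fintype I]

section Opt

variable {K : Set (E d)} {w : I → E d} {a : I → ℝ}

/-- The cell map is optimal for its own image. -/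
theorem isOptimalMap_cell [Nonempty I] (hK : IsCompact K) (hi : (interior K).Nonempty)
    (hw : Function.Injective w) (a : I → ℝ) :
    IsOptimalMap K ((unifOn K).map (cellMap K w a)) (cellMap K w a) := by
  classical
  have hKc := hK.isClosed
  have hKm := hKc.measurableSet
  have hfin : volume K ≠ ∞ := hK.measure_lt_top.ne
  have hpos : volume K ≠ 0 := by
    have : 0 < volume (interior K) := isOpen_interior.measure_pos _ hi
    exact (this.trans_le (measure_mono interior_subset)).ne'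
  have hρp : IsProbabilityMeasure (unifOn K) := unifOn_isProbability hK hi
  set ρ := unifOn K with hρ
  set T := cellMap K w a with hTd
  have hT : Measurable T := cellMap_measurable hKc w a
  refine ⟨hT, rfl, ?_⟩
  intro T' hT' hmap
  set F : Set (E d) := range w with hF
  have hFm : MeasurableSet F := (Set.finite_range w).measurableSet
  -- almost everywhere the map `T` is given by a cell
  have hTae : ∀ᵐ x ∂ρ, ∃ i, x ∈ ocell K w a i :=
    (unifOn_ae_iff hKm hpos hfin).mpr (ae_exists_ocell hw a)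
  have hTF : ∀ᵐ x ∂ρ, T x ∈ F := by
    filter_upwards [hTae] with x hx
    obtain ⟨i, hi⟩ := hx
    rw [hTd, cellMap_eq hi]
    exact mem_range_self i
  have hae : ∀ᵐ x ∂ρ, T' x ∈ F := by
    have h1 : ρ.map T' Fᶜ = 0 := by
      rw [hmap, Measure.map_apply hT hFm.compl]
      exact measure_eq_zero_iff_ae_notMem.mpr (hTF.mono fun x hx => by simpa using hx)
    rw [Measure.map_apply hT' hFm.compl] at h1
    exact measure_eq_zero_iff_ae_notMem.mp h1 |>.mono fun x hx => by
      simpa using hx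
  -- the height function
  let h : E d → ℝ := fun y => ∑ i, if y = w i then a i else 0
  have hh : ∀ j, h (w j) = a j := by
    intro j
    simp only [h]
    rw [Finset.sum_eq_single j]
    · simp
    · intro i _ hij
      rw [if_neg (fun e => hij (hw e).symm)]
    · intro hj
      exact absurd (Finset.mem_univ j) hj
  have hhm : Measurable h := by
    refine Finset.measurable_fun_sum _ fun i _ => ?_
    exact Measurable.ite (measurableSet_eq) measurable_const measurable_const
  set B : ℝ := 2 * ∑ i, |a i| with hB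
  let Φ : E d → ℝ := fun y => ‖y‖ ^ 2 - 2 * h y + B
  have hΦm : Measurable Φ := by
    have h1 : Measurable fun y : E d => ‖y‖ ^ 2 := (measurable_norm).pow_const 2
    exact (h1.sub (measurable_const.mul hhm)).add measurable_const
  have hΦ0 : ∀ j, 0 ≤ Φ (w j) := by
    intro j
    simp only [Φ, hh]
    have h1 : a j ≤ ∑ i, |a i| := (le_abs_self _).trans
      (Finset.single_le_sum (f := fun i => |a i|) (fun _ _ => abs_nonneg _) (Finset.mem_univ j))
    rw [hB]
    nlinarith [sq_nonneg ‖w j‖]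
  -- the pointwise inequality
  have hpt : ∀ᵐ x ∂ρ, ‖x - T x‖ₑ ^ (2 : ℕ) + ENNReal.ofReal (Φ (T' x)) ≤
      ‖x - T' x‖ₑ ^ (2 : ℕ) + ENNReal.ofReal (Φ (T x)) := by
    filter_upwards [hTae, hae] with x hx hy
    obtain ⟨i, hi⟩ := hx
    obtain ⟨j, hj⟩ := hy
    have hTx : T x = w i := by rw [hTd, cellMap_eq hi]
    rw [hTx, ← hj]
    simp only [enorm_sq_eq]
    rw [← ENNReal.ofReal_add (by positivity) (hΦ0 j),
      ← ENNReal.ofReal_add (by positivity) (hΦ0 i)]
    apply ENNReal.ofReal_le_ofReal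
    have h1 := (ocell_subset_cell hi).2 j
    have h3 := @norm_sub_sq_real (E d) _ _ x (w i)
    have h4 := @norm_sub_sq_real (E d) _ _ x (w j)
    simp only [Φ, hh]
    nlinarith
  have hm1 : Measurable fun x => ‖x - T x‖ₑ ^ (2 : ℕ) :=
    ((measurable_id.sub hT).enorm).pow_const 2
  have hm2 : Measurable fun x => ‖x - T' x‖ₑ ^ (2 : ℕ) :=
    ((measurable_id.sub hT').enorm).pow_const 2
  have hm3 : Measurable fun y : E d => ENNReal.ofReal (Φ y) := hΦm.ennreal_ofReal
  have hZ : ∫⁻ x, ENNReal.ofReal (Φ (T' x)) ∂ρ = ∫⁻ x, ENNReal.ofReal (Φ (T x)) ∂ρ := by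
    have h1 := lintegral_map hm3 hT (μ := ρ)
    have h2 := lintegral_map hm3 hT' (μ := ρ)
    rw [← h2, hmap, h1]
  have hint := lintegral_mono_ae hpt
  have e1 : ∫⁻ x, (‖x - T x‖ₑ ^ (2 : ℕ) + ENNReal.ofReal (Φ (T' x))) ∂ρ =
      ∫⁻ x, ‖x - T x‖ₑ ^ (2 : ℕ) ∂ρ + ∫⁻ x, ENNReal.ofReal (Φ (T' x)) ∂ρ :=
    lintegral_add_right _ (hm3.comp hT')
  have e2 : ∫⁻ x, (‖x - T' x‖ₑ ^ (2 : ℕ) + ENNReal.ofReal (Φ (T x))) ∂ρ =
      ∫⁻ x, ‖x - T' x‖ₑ ^ (2 : ℕ) ∂ρ + ∫⁻ x, ENNReal.ofReal (Φ (T x)) ∂ρ :=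
    lintegral_add_right _ (hm3.comp hT)
  rw [e1, e2, hZ] at hint
  have hbdd : ∫⁻ x, ENNReal.ofReal (Φ (T x)) ∂ρ ≠ ∞ := by
    have hle : ∫⁻ x, ENNReal.ofReal (Φ (T x)) ∂ρ ≤ ∫⁻ _x, ENNReal.ofReal (∑ i, |Φ (w i)|) ∂ρ := by
      refine lintegral_mono_ae ?_
      filter_upwards [hTae] with x hx
      obtain ⟨i, hi⟩ := hx
      have hTx : T x = w i := by rw [hTd, cellMap_eq hi]
      rw [hTx]
      apply ENNReal.ofReal_le_ofReal
      exact (le_abs_self _).trans
        (Finset.single_le_sum (f := fun i => |Φ (w i)|) (fun _ _ => abs_nonneg _) (Finset.mem_univ i))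
    refine (hle.trans_lt ?_).ne
    simp
  exact (ENNReal.add_le_add_iff_right hbdd).mp hint

end Opt

/-- Bound for the distance between the images of a measure under two maps. -/
theorem W2_map_le {X : Type*} [MeasurableSpace X] {m : Measure X} {f g : X → E d}
    (hf : Measurable f) (hg : Measurable g) :
    W2 (m.map f) (m.map g) ≤ (∫⁻ x, ‖f x - g x‖ₑ ^ (2 : ℕ) ∂m) ^ (1 / 2 : ℝ) := by
  have hfg : Measurable fun x => (f x, g x) := hf.prodMk hg
  have hc : IsCoupling (m.map fun x => (f x, g x)) (m.map f) (m.map g) := by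
    constructor
    · rw [Measure.map_map measurable_fst hfg]
      rfl
    · rw [Measure.map_map measurable_snd hfg]
      rfl
  have h1 : W2 (m.map f) (m.map g) ≤
      (∫⁻ p, ‖p.1 - p.2‖ₑ ^ (2 : ℕ) ∂(m.map fun x => (f x, g x))) ^ (1 / 2 : ℝ) :=
    iInf₂_le (m.map fun x => (f x, g x)) hc
  refine h1.trans (le_of_eq ?_)
  congr 1
  rw [lintegral_map ?_ hfg]
  exact ((measurable_fst.sub measurable_snd).enorm).pow_const 2

/-- A pointwise bound gives a bound in `L²`. -/
theorem sqrt_lintegral_le {X : Type*} [MeasurableSpace X] {m : Measure X} [IsProbabilityMeasure m]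
    {f : X → E d} {c : ℝ} (hc : 0 ≤ c) (h : ∀ᵐ x ∂m, ‖f x‖ ≤ c) :
    (∫⁻ x, ‖f x‖ₑ ^ (2 : ℕ) ∂m) ^ (1 / 2 : ℝ) ≤ ENNReal.ofReal c := by
  have h1 : ∫⁻ x, ‖f x‖ₑ ^ (2 : ℕ) ∂m ≤ ∫⁻ _x, ENNReal.ofReal (c ^ 2) ∂m := by
    refine lintegral_mono_ae ?_
    filter_upwards [h] with x hx
    rw [enorm_sq_eq]
    apply ENNReal.ofReal_le_ofReal
    exact pow_le_pow_left₀ (norm_nonneg _) hx 2
  simp only [lintegral_const, measure_univ, mul_one] at h1
  refine (ENNReal.rpow_le_rpow h1 (by norm_num)).trans (le_of_eq ?_)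
  rw [ENNReal.ofReal_rpow_of_nonneg (by positivity) (by norm_num), ← Real.sqrt_eq_rpow,
    Real.sqrt_sq hc]

/-- The triangle inequality for the distance in `L²`. -/
theorem l2Dist_triangle {ρ : Measure (E d)} {T U S : E d → E d} (hT : Measurable T)
    (hU : Measurable U) (hS : Measurable S) :
    l2Dist ρ T S ≤ l2Dist ρ T U + l2Dist ρ U S := by
  unfold l2Dist
  have hp : ∀ f : E d → E d, ∫⁻ x, ‖f x‖ₑ ^ (2 : ℕ) ∂ρ = ∫⁻ x, ‖f x‖ₑ ^ (2 : ℝ) ∂ρ := by
    intro f
    refine lintegral_congr fun x => ?_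
    rw [← ENNReal.rpow_natCast]
    norm_num
  rw [hp, hp, hp]
  have h1 := ENNReal.lintegral_Lp_add_le (μ := ρ) (p := 2)
    (f := fun x => ‖T x - U x‖ₑ) (g := fun x => ‖U x - S x‖ₑ)
    ((hT.sub hU).enorm.aemeasurable) ((hU.sub hS).enorm.aemeasurable) (by norm_num)
  refine le_trans ?_ h1
  apply ENNReal.rpow_le_rpow _ (by norm_num)
  refine lintegral_mono fun x => ?_
  apply ENNReal.rpow_le_rpow _ (by norm_num)
  have e : T x - S x = (T x - U x) + (U x - S x) := by abel
  rw [e]
  exact enorm_add_le _ _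

/-- Equality of images of measures under maps that are constant on the parts of partitions. -/
theorem map_eq_of_partition {X X' : Type} [MeasurableSpace X] [MeasurableSpace X']
    {m : Measure X} {m' : Measure X'} {S : I → Set X} {S' : I → Set X'}
    (hS : ∀ i, MeasurableSet (S i)) (hS' : ∀ i, MeasurableSet (S' i))
    (hd : Pairwise fun i j => Disjoint (S i) (S j)) (hd' : Pairwise fun i j => Disjoint (S' i) (S' j))
    (hc : m (⋃ i, S i)ᶜ = 0) (hc' : m' (⋃ i, S' i)ᶜ = 0) (hmass : ∀ i, m (S i) = m' (S' i))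
    {f : X → E d} {f' : X' → E d} (hf : Measurable f) (hf' : Measurable f') (w : I → E d)
    (hfw : ∀ i, ∀ x ∈ S i, f x = w i) (hfw' : ∀ i, ∀ x ∈ S' i, f' x = w i) :
    m.map f = m'.map f' := by
  classical
  have key : ∀ {Z : Type} [MeasurableSpace Z] {μ : Measure Z} {P : I → Set Z}
      (_ : ∀ i, MeasurableSet (P i)) (_ : Pairwise fun i j => Disjoint (P i) (P j))
      (_ : μ (⋃ i, P i)ᶜ = 0) {g : Z → E d} (_ : Measurable g) (_ : ∀ i, ∀ x ∈ P i, g x = w i)
      {s : Set (E d)} (_ : MeasurableSet s),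
      μ.map g s = ∑ i, if w i ∈ s then μ (P i) else 0 := by
    intro Z _ μ P hP hPd hPc g hg hgw s hs
    rw [Measure.map_apply hg hs]
    have h1 : μ (g ⁻¹' s) = μ (⋃ i, (g ⁻¹' s ∩ P i)) := by
      refine measure_congr ?_
      rw [ae_eq_set]
      constructor
      · refine measure_mono_null ?_ hPc
        rintro x ⟨hx, hx'⟩ hx''
        obtain ⟨i, hi⟩ := mem_iUnion.mp hx''
        exact hx' (mem_iUnion.mpr ⟨i, hx, hi⟩)
      · refine measure_mono_null ?_ measure_empty
        rintro x ⟨hx, hx'⟩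
        obtain ⟨i, hi⟩ := mem_iUnion.mp hx
        exact hx' hi.1
    rw [h1, measure_iUnion (fun i j hij => (hPd hij).mono inter_subset_right inter_subset_right)
      (fun i => (hg hs).inter (hP i)), tsum_fintype]
    refine Finset.sum_congr rfl fun i _ => ?_
    by_cases hwi : w i ∈ s
    · rw [if_pos hwi]
      congr 1
      refine inter_eq_right.mpr fun x hx => ?_
      show g x ∈ s
      rw [hgw i x hx]
      exact hwi
    · rw [if_neg hwi]
      refine measure_mono_null (t := ∅) ?_ measure_empty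
      rintro x ⟨hx, hx'⟩
      apply hwi
      have : g x ∈ s := hx
      rwa [hgw i x hx'] at this
  ext s hs
  rw [key hS hd hc hf hfw hs, key hS' hd' hc' hf' hfw' hs]
  refine Finset.sum_congr rfl fun i _ => ?_
  rw [hmass i]

end Vale.Agent.P074
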