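import Vale.Agent.P074.Approx1

/-!
# Finite partitions of couplings and generic perturbations of positions
-/

open MeasureTheory Set Metric Filter Topology
open scoped ENNReal NNReal

set_option linter.unusedSectionVars false
set_option linter.unusedSimpArgs false
set_option linter.unusedVariables false

namespace Vale.Agent.P074

variable {d : ℕ}

/-- A finite measurable partition into small pieces of a measure on a compact set. -/
theorem exists_partition {π : Measure (E d × E d)} [IsProbabilityMeasure π] {C : Set (E d × E d)}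
    (hC : IsCompact C) (hπC : π Cᶜ = 0) {η : ℝ} (hη : 0 < η) :
    ∃ (I : Type) (_ : Fintype I) (_ : Nonempty I) (S : I → Set (E d × E d)) (p : I → E d × E d),
      (∀ i, MeasurableSet (S i)) ∧ (Pairwise fun i j => Disjoint (S i) (S j)) ∧
      (π (⋃ i, S i)ᶜ = 0) ∧ (∀ i, 0 < π (S i)) ∧ (∀ i, p i ∈ C) ∧
      ∀ i, ∀ x ∈ S i, ‖x.1 - (p i).1‖ ≤ η ∧ ‖x.2 - (p i).2‖ ≤ η := by
  classical
  obtain ⟨t, htC, htfin, hcov⟩ := hC.finite_cover_balls hη
  have := htfin.to_subtype
  let n := Nat.card t
  let e : t ≃ Fin n := Finite.equivFin t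
  let B : ℕ → Set (E d × E d) := fun m =>
    if h : m < n then ball (e.symm ⟨m, h⟩).1 η else ∅
  have hBm : ∀ m, MeasurableSet (B m) := by
    intro m
    by_cases h : m < n
    · simp only [B, dif_pos h]
      exact measurableSet_ball
    · simp only [B, dif_neg h]
      exact MeasurableSet.empty
  let S' : ℕ → Set (E d × E d) := disjointed B
  have hS'm : ∀ m, MeasurableSet (S' m) := MeasurableSet.disjointed hBm
  have hS'd : Pairwise fun i j => Disjoint (S' i) (S' j) := disjoint_disjointed B
  have hS'B : ∀ m, S' m ⊆ B m := disjointed_subset B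
  let I : Type := {m : Fin n // 0 < π (S' m)}
  let S : I → Set (E d × E d) := fun i => S' i.1
  let p : I → E d × E d := fun i => (e.symm i.1).1
  have hcomp : π (⋃ i, S i)ᶜ = 0 := by
    have hsub : (⋃ i, S i)ᶜ ⊆ Cᶜ ∪ ⋃ m : Fin n, ⋃ (_ : ¬ 0 < π (S' m)), S' m := by
      intro x hx
      by_cases hxC : x ∈ C
      · right
        obtain ⟨c, hct, hxc⟩ := mem_iUnion₂.mp (hcov hxC)
        have hxB : x ∈ ⋃ m, B m := by
          refine mem_iUnion.mpr ⟨e ⟨c, hct⟩, ?_⟩
          have h2 : ((e ⟨c, hct⟩ : Fin n) : ℕ) < n := (e ⟨c, hct⟩).2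
          simp only [B, dif_pos h2]
          have h3 : (⟨(e ⟨c, hct⟩ : Fin n), h2⟩ : Fin n) = e ⟨c, hct⟩ := rfl
          rw [h3, Equiv.symm_apply_apply]
          exact hxc
        rw [← iUnion_disjointed] at hxB
        obtain ⟨m, hm⟩ := mem_iUnion.mp hxB
        have hmn : m < n := by
          by_contra hcon
          have := hS'B m hm
          simp only [B, dif_neg hcon] at this
          exact this
        refine mem_iUnion₂.mpr ⟨⟨m, hmn⟩, ?_, hm⟩
        intro hpos
        exact hx (mem_iUnion.mpr ⟨⟨⟨m, hmn⟩, hpos⟩, hm⟩)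
      · exact Or.inl hxC
    refine measure_mono_null hsub (measure_union_null hπC ?_)
    refine measure_iUnion_null fun m => measure_iUnion_null fun hm => ?_
    exact nonpos_iff_eq_zero.mp (not_lt.mp hm)
  have hne : Nonempty I := by
    by_contra hcon
    rw [not_nonempty_iff] at hcon
    have h1 : (⋃ i, S i)ᶜ = univ := by
      rw [iUnion_of_empty, compl_empty]
    rw [h1, measure_univ] at hcomp
    exact one_ne_zero hcomp
  refine ⟨I, Fintype.ofFinite I, hne, S, p, fun i => hS'm _, ?_, hcomp, fun i => i.2, ?_, ?_⟩
  · intro i j hij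
    apply hS'd
    intro h
    exact hij (Subtype.ext (Fin.ext h))
  · intro i
    exact htC (e.symm i.1).2
  · intro i x hx
    have h1 := hS'B _ hx
    have h2 : ((i.1 : Fin n) : ℕ) < n := i.1.2
    simp only [B, dif_pos h2] at h1
    have h3 : dist x (p i) < η := h1
    rw [Prod.dist_eq] at h3
    have h4 := (le_max_left _ _).trans_lt h3
    have h5 := (le_max_right _ _).trans_lt h3
    rw [dist_eq_norm] at h4 h5
    exact ⟨h4.le, h5.le⟩

theorem exists_orth (hd : 2 ≤ d) (q : E d) : ∃ n : E d, n ≠ 0 ∧ inner ℝ q n = 0 := by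
  let i₀ : Fin d := ⟨0, by omega⟩
  let i₁ : Fin d := ⟨1, by omega⟩
  have hne : i₀ ≠ i₁ := by
    intro h
    have := congrArg Fin.val h
    simp [i₀, i₁] at this
  by_cases h0 : q i₀ = 0
  · refine ⟨EuclideanSpace.single i₀ (1 : ℝ), ?_, ?_⟩
    · intro h
      have := congrArg (fun x : E d => x i₀) h
      simp at this
    · simp [EuclideanSpace.inner_single_right, h0]
  · refine ⟨(q i₁) • EuclideanSpace.single i₀ (1 : ℝ) - (q i₀) • EuclideanSpace.single i₁ (1 : ℝ),
      ?_, ?_⟩
    · intro h
      have := congrArg (fun x : E d => x i₁) h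
      simp [hne.symm] at this
      exact h0 this
    · rw [inner_sub_right, inner_smul_right, inner_smul_right]
      simp only [EuclideanSpace.inner_single_right]
      simp
      ring

/-- Generic translations separate the paths of finitely many points. -/
theorem exists_perturbation {I : Type} [Fintype I] (hd : 2 ≤ d) (y z : I → E d) {η : ℝ}
    (hη : 0 < η) :
    ∃ g : I → E d, (∀ i, ‖g i‖ ≤ η) ∧ ∀ i j, i ≠ j → ∀ t : ℝ,
      (1 - t) • y i + t • z i + g i ≠ (1 - t) • y j + t • z j + g j := by
  classical
  have key : ∀ Z : Finset I, ∃ g : I → E d, (∀ i, ‖g i‖ ≤ η) ∧ ∀ i ∈ Z, ∀ j ∈ Z, i ≠ j → ∀ t : ℝ,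
      (1 - t) • y i + t • z i + g i ≠ (1 - t) • y j + t • z j + g j := by
    intro Z
    induction Z using Finset.induction_on with
    | empty =>
      exact ⟨fun _ => 0, fun _ => by simpa using hη.le, by simp⟩
    | insert k Z hk ih =>
      obtain ⟨g, hg, hgZ⟩ := ih
      -- the normals
      choose nv hnv0 hnv using fun j : I => exists_orth hd ((z j - y j) - (z k - y k))
      let H : I → Set (E d) := fun j => {v | inner ℝ v (nv j) = inner ℝ (y j + g j - y k) (nv j)}
      have hHnull : volume (⋃ j ∈ Z, H j) = 0 := by
        rw [show (⋃ j ∈ Z, H j) = ⋃ j ∈ (Z : Set I), H j by simp,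
          measure_biUnion_null_iff Z.countable_toSet]
        exact fun j _ => hyperplane_null (hnv0 j) _
      have hball : 0 < volume (closedBall (0 : E d) η) := measure_closedBall_pos _ _ hη
      have hex : ∃ v ∈ closedBall (0 : E d) η, v ∉ ⋃ j ∈ Z, H j := by
        by_contra hcon
        push Not at hcon
        exact hball.ne' (measure_mono_null hcon hHnull)
      obtain ⟨v, hvb, hvH⟩ := hex
      have hvb' : ‖v‖ ≤ η := by simpa using hvb
      -- the new point avoids the others
      have hnew : ∀ j ∈ Z, ∀ t : ℝ,
          (1 - t) • y k + t • z k + v ≠ (1 - t) • y j + t • z j + g j := by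
        intro j hj t he
        apply hvH
        refine mem_iUnion₂.mpr ⟨j, hj, ?_⟩
        have e1 : v = (y j + g j - y k) + t • ((z j - y j) - (z k - y k)) := by
          have : v = (1 - t) • y j + t • z j + g j - ((1 - t) • y k + t • z k) := by
            rw [← he]
            abel
          rw [this]
          simp only [smul_sub, sub_smul, one_smul]
          abel
        show inner ℝ v (nv j) = _
        rw [e1, inner_add_left, inner_smul_left, hnv j]
        simp
      refine ⟨Function.update g k v, ?_, ?_⟩
      · intro i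
        by_cases hi : i = k
        · subst hi
          simpa using hvb'
        · simpa [Function.update_of_ne hi] using hg i
      · intro i hi j hj hij t
        have hup : ∀ l ∈ Z, Function.update g k v l = g l := fun l hl =>
          Function.update_of_ne (by rintro rfl; exact hk hl) _ _
        rcases Finset.mem_insert.mp hi with rfl | hi'
        · rcases Finset.mem_insert.mp hj with rfl | hj'
          · exact absurd rfl hij
          · rw [Function.update_self, hup j hj']
            exact hnew j hj' t
        · rcases Finset.mem_insert.mp hj with rfl | hj'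
          · rw [Function.update_self, hup i hi']
            exact (hnew i hi' t).symm
          · rw [hup i hi', hup j hj']
            exact hgZ i hi' j hj' hij t
  obtain ⟨g, hg, hgZ⟩ := key Finset.univ
  exact ⟨g, hg, fun i j hij t => hgZ i (Finset.mem_univ i) j (Finset.mem_univ j) hij t⟩

end Vale.Agent.P074
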