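import Vale.Agent.P074.Approx2

/-!
# One step of the approximation by finitely supported targets
-/

open MeasureTheory Set Metric Filter Topology
open scoped ENNReal NNReal

set_option linter.unusedSectionVars false
set_option linter.unusedSimpArgs false
set_option linter.unusedVariables false

namespace Vale.Agent.P074

variable {d : ℕ}

/-- The function which is constant on the parts of a finite family of sets. -/
noncomputable def stepFun {I X : Type} [Fintype I] (S : I → Set X) (w : I → E d) (x : X) : E d :=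
  ∑ i, (S i).indicator (fun _ => w i) x

theorem stepFun_eq {I X : Type} [Fintype I] {S : I → Set X} {w : I → E d} {i : I} {x : X}
    (hd : Pairwise fun i j => Disjoint (S i) (S j)) (hx : x ∈ S i) : stepFun S w x = w i := by
  unfold stepFun
  rw [Finset.sum_eq_single i]
  · rw [indicator_of_mem hx]
  · intro j _ hj
    rw [indicator_of_notMem]
    intro hxj
    exact (Set.disjoint_left.mp (hd hj) hxj) hx
  · intro h
    exact absurd (Finset.mem_univ i) h

theorem stepFun_measurable {I X : Type} [Fintype I] [MeasurableSpace X] {S : I → Set X}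
    (hS : ∀ i, MeasurableSet (S i)) (w : I → E d) : Measurable (stepFun S w) := by
  unfold stepFun
  refine Finset.measurable_fun_sum _ fun i _ => ?_
  exact measurable_const.indicator (hS i)

/-- The integral over a partition up to a null set. -/
theorem integral_partition {I X : Type} [Fintype I] [MeasurableSpace X] {m : Measure X}
    {S : I → Set X} (hS : ∀ i, MeasurableSet (S i)) (hd : Pairwise fun i j => Disjoint (S i) (S j))
    (hc : m (⋃ i, S i)ᶜ = 0) {f : X → ℝ} (hf : Integrable f m) :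
    ∑ i, ∫ x in S i, f x ∂m = ∫ x, f x ∂m := by
  have h1 := integral_iUnion (μ := m) hS (fun i j hij => hd hij) hf.integrableOn
  rw [tsum_fintype] at h1
  rw [← h1]
  have h2 : m.restrict (⋃ i, S i) = m := Measure.restrict_eq_self_of_ae_mem (by
    exact measure_eq_zero_iff_ae_notMem.mp hc |>.mono fun x hx => by simpa using hx)
  rw [h2]

/-- The constant of the estimate. -/
noncomputable def constThird (K : Set (E d)) (R RY r : ℝ) : ℝ :=
  ((volume K).toReal)⁻¹ * (24 * (RY + 1) ^ 2 * (volume K).toReal * d ^ 2 / r + d ^ 2 +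
    (2 * (RY + 1)) ^ 2 * (volume K).toReal / r) *
    (Real.sqrt (648 * R ^ 2 * (volume K).toReal)) ^ (2 / 3 : ℝ)

/-- The distance in `L²(ρ)` in terms of the integral on `K`. -/
theorem PotData.l2Dist_le {K : Set (E d)} {φ ψ : E d → ℝ} {T S : E d → E d} {R RK : ℝ}
    (h : PotData K φ ψ T S R RK) (hvol : 0 < volume K) :
    l2Dist (unifOn K) T S ≤ ENNReal.ofReal
      (Real.sqrt (((volume K).toReal)⁻¹ * ∫ x in K, ‖T x - S x‖ ^ 2)) := by
  have hK := h.hK
  have hKm := hK.isClosed.measurableSet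
  have hR0 : 0 ≤ R := h.R_nonneg hvol.ne'
  have hsqm : Measurable fun x => ‖T x - S x‖ ^ 2 := ((h.hTm.sub h.hSm).norm).pow_const 2
  have hdb := h.diff_norm_le
  have hint1 : IntegrableOn (fun x => ‖T x - S x‖ ^ 2) K volume := by
    refine integrableOn_of_ae_bound hK hsqm (C := (2 * R) ^ 2) ?_
    filter_upwards [hdb] with x hx hxK
    rw [abs_of_nonneg (by positivity)]
    exact pow_le_pow_left₀ (norm_nonneg _) (hx hxK) 2
  have hiρ : Integrable (fun x => ‖T x - S x‖ ^ 2) (unifOn K) :=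
    hint1.smul_measure (ENNReal.inv_ne_top.mpr hvol.ne')
  set E2 := ∫ x, ‖T x - S x‖ ^ 2 ∂(unifOn K) with hE2
  have hE20 : 0 ≤ E2 := integral_nonneg fun x => by positivity
  have hlint : ∫⁻ x, ‖T x - S x‖ₑ ^ (2 : ℕ) ∂(unifOn K) = ENNReal.ofReal E2 := by
    rw [hE2, ofReal_integral_eq_lintegral_ofReal hiρ
      (Filter.Eventually.of_forall fun p => by positivity)]
    refine lintegral_congr fun p => ?_
    rw [enorm_sq_eq]
  have hE2e : E2 = ((volume K).toReal)⁻¹ * ∫ x in K, ‖T x - S x‖ ^ 2 := by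
    rw [hE2, unifOn, integral_smul_measure, ENNReal.toReal_inv, smul_eq_mul]
  unfold l2Dist
  rw [hlint, ENNReal.ofReal_rpow_of_nonneg hE20 (by norm_num), ← hE2e, Real.sqrt_eq_rpow]

section Atomic

variable {K : Set (E d)} {I : Type} [Fintype I]

theorem unifOn_ocell_eq [Nonempty I] {w : I → E d} {a : I → ℝ} {i : I} (hK : IsCompact K)
    (hw : Function.Injective w) :
    unifOn K (ocell K w a i) = (volume K)⁻¹ * volume (cell K w a i) := by
  have hm := measurableSet_ocell hK.isClosed w a i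
  unfold unifOn
  rw [Measure.smul_apply, smul_eq_mul, Measure.restrict_apply hm,
    inter_eq_left.mpr (fun x hx => hx.1), measure_congr (cell_ae_eq_ocell hw)]

theorem map_cellMap_eq_stepFun [Nonempty I] (hK : IsCompact K) (hvol : 0 < volume K)
    {π : Measure (E d × E d)} [IsProbabilityMeasure π] {S : I → Set (E d × E d)}
    (hS : ∀ i, MeasurableSet (S i)) (hd : Pairwise fun i j => Disjoint (S i) (S j))
    (hc : π (⋃ i, S i)ᶜ = 0) {w : I → E d} (hw : Function.Injective w) {a : I → ℝ}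
    (ha : ∀ i, ∫ _x in cell K w a i, (1 : ℝ) = (volume K).toReal * (π (S i)).toReal) :
    (unifOn K).map (cellMap K w a) = π.map (stepFun S w) := by
  have hfin : volume K ≠ ∞ := hK.measure_lt_top.ne
  refine map_eq_of_partition (S := ocell K w a) (S' := S)
    (measurableSet_ocell hK.isClosed w a) hS (fun i j hij => ocell_disjoint hij) hd ?_ hc ?_
    (cellMap_measurable hK.isClosed w a) (stepFun_measurable hS w) w
    (fun i x hx => cellMap_eq hx) (fun i x hx => stepFun_eq hd hx)
  · have h1 : ∀ᵐ x ∂(unifOn K), ∃ i, x ∈ ocell K w a i :=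
      (unifOn_ae_iff hK.isClosed.measurableSet hvol.ne' hfin).mpr (ae_exists_ocell hw a)
    rw [measure_eq_zero_iff_ae_notMem]
    filter_upwards [h1] with x hx
    simpa using hx
  · intro i
    rw [unifOn_ocell_eq hK hw]
    have h2 := ha i
    have hcf : volume (cell K w a i) ≠ ∞ :=
      ne_top_of_le_ne_top hfin (measure_mono (fun x hx => hx.1))
    have h3 : volume (cell K w a i) =
        ENNReal.ofReal ((volume K).toReal * (π (S i)).toReal) := by
      rw [← h2, setIntegral_const]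
      simp [Measure.real, hcf]
    rw [h3, ENNReal.ofReal_mul ENNReal.toReal_nonneg, ENNReal.ofReal_toReal hfin,
      ENNReal.ofReal_toReal (measure_ne_top π _), ← mul_assoc,
      ENNReal.inv_mul_cancel hvol.ne' hfin, one_mul]

theorem weighted_le {π : Measure (E d × E d)} [IsProbabilityMeasure π] {S : I → Set (E d × E d)}
    (hS : ∀ i, MeasurableSet (S i)) (hd : Pairwise fun i j => Disjoint (S i) (S j))
    (hc : π (⋃ i, S i)ᶜ = 0) {y z : I → E d} {RY η : ℝ} (hη : 0 ≤ η)
    (hclose : ∀ i, ∀ x ∈ S i, ‖x.1 - y i‖ ≤ η ∧ ‖x.2 - z i‖ ≤ η)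
    (hb : ∀ᵐ x ∂π, ‖x.1‖ ≤ RY ∧ ‖x.2‖ ≤ RY) :
    ∑ i, (π (S i)).toReal * ‖z i - y i‖ ^ 2 ≤ ∫ x, ‖x.1 - x.2‖ ^ 2 ∂π + 8 * η * RY + 4 * η ^ 2 := by
  set c := 8 * η * RY + 4 * η ^ 2 with hcdef
  have hfm : Measurable fun x : E d × E d => ‖x.1 - x.2‖ ^ 2 :=
    ((measurable_fst.sub measurable_snd).norm).pow_const 2
  have hfi : Integrable (fun x : E d × E d => ‖x.1 - x.2‖ ^ 2) π := by
    refine Integrable.of_bound hfm.aestronglyMeasurable ((2 * RY) ^ 2) ?_
    filter_upwards [hb] with x hx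
    have h1 : ‖x.1 - x.2‖ ≤ 2 * RY := by
      have := norm_sub_le x.1 x.2
      linarith [hx.1, hx.2]
    rw [Real.norm_eq_abs, abs_of_nonneg (by positivity)]
    exact pow_le_pow_left₀ (norm_nonneg _) h1 2
  have hgi : Integrable (fun x : E d × E d => ‖x.1 - x.2‖ ^ 2 + c) π :=
    hfi.add (integrable_const c)
  have h1 : ∀ i, (π (S i)).toReal * ‖z i - y i‖ ^ 2 ≤
      ∫ x in S i, (‖x.1 - x.2‖ ^ 2 + c) ∂π := by
    intro i
    have e : (π (S i)).toReal * ‖z i - y i‖ ^ 2 = ∫ _x in S i, ‖z i - y i‖ ^ 2 ∂π := by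
      rw [setIntegral_const]
      simp [Measure.real]
    rw [e]
    refine setIntegral_mono_on_ae (integrable_const _).integrableOn hgi.integrableOn (hS i) ?_
    filter_upwards [hb] with x hx hxS
    obtain ⟨h1, h2⟩ := hclose i x hxS
    have h3 : ‖x.1 - x.2‖ ≤ 2 * RY := by
      have := norm_sub_le x.1 x.2
      linarith [hx.1, hx.2]
    have h4 : ‖z i - y i‖ ≤ ‖x.1 - x.2‖ + 2 * η := by
      have e2 : z i - y i = ((x.1 - y i) - (x.1 - x.2)) - (x.2 - z i) := by abel
      rw [e2]
      calc _ ≤ ‖(x.1 - y i) - (x.1 - x.2)‖ + ‖x.2 - z i‖ := norm_sub_le _ _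
        _ ≤ ‖x.1 - y i‖ + ‖x.1 - x.2‖ + ‖x.2 - z i‖ := by
            gcongr
            exact norm_sub_le _ _
        _ ≤ _ := by linarith
    have h5 : ‖z i - y i‖ ^ 2 ≤ (‖x.1 - x.2‖ + 2 * η) ^ 2 :=
      pow_le_pow_left₀ (norm_nonneg _) h4 2
    have h6 : 4 * η * ‖x.1 - x.2‖ ≤ 4 * η * (2 * RY) := by
      apply mul_le_mul_of_nonneg_left h3
      linarith
    simp only [hcdef]
    nlinarith
  calc ∑ i, (π (S i)).toReal * ‖z i - y i‖ ^ 2
      ≤ ∑ i, ∫ x in S i, (‖x.1 - x.2‖ ^ 2 + c) ∂π := Finset.sum_le_sum fun i _ => h1 i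
    _ = ∫ x, (‖x.1 - x.2‖ ^ 2 + c) ∂π := integral_partition hS hd hc hgi
    _ = ∫ x, ‖x.1 - x.2‖ ^ 2 ∂π + c := by
        have := integral_add (μ := π) hfi (integrable_const c)
        rw [this]
        simp
    _ = _ := by rw [hcdef]; ring

theorem sum_mass {π : Measure (E d × E d)} [IsProbabilityMeasure π] {S : I → Set (E d × E d)}
    (hS : ∀ i, MeasurableSet (S i)) (hd : Pairwise fun i j => Disjoint (S i) (S j))
    (hc : π (⋃ i, S i)ᶜ = 0) : ∑ i, (π (S i)).toReal = 1 := by
  have h := integral_partition hS hd hc (f := fun _ => (1 : ℝ)) (integrable_const 1)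
  simp only [setIntegral_const] at h
  simpa [Measure.real] using h

end Atomic

end Vale.Agent.P074
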