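import Vale.Agent.P074.Approx3

/-!
# The estimate for finitely supported targets approximating a coupling
-/

open MeasureTheory Set Metric Filter Topology
open scoped ENNReal NNReal

set_option linter.unusedSectionVars false
set_option linter.unusedSimpArgs false
set_option linter.unusedVariables false

namespace Vale.Agent.P074

variable {d : ℕ}

theorem wt_add_eq {I : Type} (y z g : I → E d) (t : ℝ) (i : I) :
    wt (fun i => y i + g i) (fun i => z i + g i) t i = (1 - t) • y i + t • z i + g i := by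
  unfold wt
  simp only [smul_add]
  have : g i = (1 - t) • g i + t • g i := by
    rw [← add_smul]
    simp
  nth_rewrite 3 [this]
  abel

theorem atomic_step (hd : 2 ≤ d) {K : Set (E d)} (hK : IsCompact K) (hconv : Convex ℝ K)
    (hi : (interior K).Nonempty) {R RY r : ℝ} (hR : ∀ x ∈ K, ‖x‖ ≤ R) {c : E d} (hr : 0 < r)
    (hball : closedBall c r ⊆ K) {Y : Set (E d)} (hY : IsCompact Y) (hRY : ∀ y ∈ Y, ‖y‖ ≤ RY)
    {π : Measure (E d × E d)} [IsProbabilityMeasure π] (hπ : π (Y ×ˢ Y)ᶜ = 0) {η : ℝ}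
    (hη : 0 < η) (hη1 : η ≤ 1) :
    ∃ (μ₀ μ₁ : Measure (E d)) (T₀ T₁ : E d → E d),
      IsProbabilityMeasure μ₀ ∧ IsProbabilityMeasure μ₁ ∧
      μ₀ (closedBall 0 (RY + 1))ᶜ = 0 ∧ μ₁ (closedBall 0 (RY + 1))ᶜ = 0 ∧
      IsOptimalMap K μ₀ T₀ ∧ IsOptimalMap K μ₁ T₁ ∧
      W2 (π.map Prod.fst) μ₀ ≤ ENNReal.ofReal (2 * η) ∧
      W2 μ₁ (π.map Prod.snd) ≤ ENNReal.ofReal (2 * η) ∧
      l2Dist (unifOn K) T₀ T₁ ≤ ENNReal.ofReal (Real.sqrt (constThird K R RY r *
        (Real.sqrt (∫ x, ‖x.1 - x.2‖ ^ 2 ∂π + 8 * η * RY + 4 * η ^ 2)) ^ (2 / 3 : ℝ))) := by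
  have hne : K.Nonempty := hi.mono interior_subset
  have hKc := hK.isClosed
  have hKm := hKc.measurableSet
  have hfin : volume K ≠ ∞ := hK.measure_lt_top.ne
  have hvol : 0 < volume K :=
    lt_of_lt_of_le (measure_closedBall_pos volume c hr) (measure_mono hball)
  have hvK : 0 < (volume K).toReal := ENNReal.toReal_pos hvol.ne' hfin
  have hR0 : 0 ≤ R := (norm_nonneg _).trans (hR _ hne.some_mem)
  haveI hρ : IsProbabilityMeasure (unifOn K) := unifOn_isProbability hK hi
  obtain ⟨I, _, _, S, p, hS, hdisj, hcov, hpos, hpC, hclose⟩ :=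
    exists_partition (hY.prod hY) hπ hη
  -- the points
  set y : I → E d := fun i => (p i).1 with hy
  set z : I → E d := fun i => (p i).2 with hz
  obtain ⟨g, hg, hsep⟩ := exists_perturbation hd y z hη
  set w₀ : I → E d := fun i => y i + g i with hw₀def
  set w₁ : I → E d := fun i => z i + g i with hw₁def
  have hpath : ∀ t : ℝ, Function.Injective (wt w₀ w₁ t) := by
    intro t i j hij
    by_contra hne
    apply hsep i j hne t
    rw [← wt_add_eq y z g t i, ← wt_add_eq y z g t j]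
    exact hij
  have hw₀ : Function.Injective w₀ := by
    have := hpath 0
    rwa [wt_zero] at this
  have hw₁ : Function.Injective w₁ := by
    have := hpath 1
    rwa [wt_one] at this
  have hyb : ∀ i, ‖y i‖ ≤ RY := fun i => hRY _ (hpC i).1
  have hzb : ∀ i, ‖z i‖ ≤ RY := fun i => hRY _ (hpC i).2
  have hR₀ : ∀ i, ‖w₀ i‖ ≤ RY + 1 := fun i =>
    (norm_add_le _ _).trans (add_le_add (hyb i) ((hg i).trans hη1))
  have hR₁ : ∀ i, ‖w₁ i‖ ≤ RY + 1 := fun i =>
    (norm_add_le _ _).trans (add_le_add (hzb i) ((hg i).trans hη1))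
  -- the masses
  set M : I → ℝ := fun i => (π (S i)).toReal with hM
  have hM0 : ∀ i, 0 < M i := fun i => ENNReal.toReal_pos (hpos i).ne' (measure_ne_top π _)
  have hMs : ∑ i, M i = 1 := sum_mass hS hdisj hcov
  set n : I → ℝ := fun i => (volume K).toReal * M i with hn
  have hn0 : ∀ i, 0 < n i := fun i => mul_pos hvK (hM0 i)
  have hK1 : ∫ _x in K, (1 : ℝ) = (volume K).toReal := by
    rw [setIntegral_const]
    simp [Measure.real]
  have hnK : ∑ i, n i = ∫ _x in K, (1 : ℝ) := by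
    rw [hK1, hn, ← Finset.mul_sum, hMs, mul_one]
  obtain ⟨i₀, hi₀⟩ := Finite.exists_min n
  obtain ⟨a₀, -, ha₀⟩ := exists_heights hK hR hne (dens_one K) hn0 hnK hw₀ (hn0 i₀) hi₀
  obtain ⟨a₁, -, ha₁⟩ := exists_heights hK hR hne (dens_one K) hn0 hnK hw₁ (hn0 i₀) hi₀
  -- the maps and the measures
  set T₀ := cellMap K w₀ a₀ with hT₀
  set T₁ := cellMap K w₁ a₁ with hT₁
  have hT₀m : Measurable T₀ := cellMap_measurable hKc _ _
  have hT₁m : Measurable T₁ := cellMap_measurable hKc _ _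
  have hmap₀ : (unifOn K).map T₀ = π.map (stepFun S w₀) :=
    map_cellMap_eq_stepFun hK hvol hS hdisj hcov hw₀ ha₀
  have hmap₁ : (unifOn K).map T₁ = π.map (stepFun S w₁) :=
    map_cellMap_eq_stepFun hK hvol hS hdisj hcov hw₁ ha₁
  have hsupp : ∀ {w : I → E d} {a : I → ℝ}, Function.Injective w → (∀ i, ‖w i‖ ≤ RY + 1) →
      ((unifOn K).map (cellMap K w a)) (closedBall 0 (RY + 1))ᶜ = 0 := by
    intro w a hw hwb
    rw [Measure.map_apply (cellMap_measurable hKc _ _) measurableSet_closedBall.compl,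
      measure_eq_zero_iff_ae_notMem]
    have h1 : ∀ᵐ x ∂(unifOn K), ∃ i, x ∈ ocell K w a i :=
      (unifOn_ae_iff hKm hvol.ne' hfin).mpr (ae_exists_ocell hw a)
    filter_upwards [h1] with x hx
    obtain ⟨i, hi⟩ := hx
    simp only [mem_preimage, mem_compl_iff, not_not, mem_closedBall, dist_zero_right]
    rw [cellMap_eq hi]
    exact hwb i
  have hcovae : ∀ᵐ x ∂π, ∃ i, x ∈ S i := by
    have := measure_eq_zero_iff_ae_notMem.mp hcov
    filter_upwards [this] with x hx
    simpa using hx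
  refine ⟨(unifOn K).map T₀, (unifOn K).map T₁, T₀, T₁,
    Measure.isProbabilityMeasure_map hT₀m.aemeasurable,
    Measure.isProbabilityMeasure_map hT₁m.aemeasurable,
    hsupp hw₀ hR₀, hsupp hw₁ hR₁, isOptimalMap_cell hK hi hw₀ a₀, isOptimalMap_cell hK hi hw₁ a₁,
    ?_, ?_, ?_⟩
  · rw [hmap₀]
    refine (W2_map_le measurable_fst (stepFun_measurable hS w₀)).trans ?_
    refine sqrt_lintegral_le (by positivity) ?_
    filter_upwards [hcovae] with x hx
    obtain ⟨i, hi⟩ := hx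
    rw [stepFun_eq hdisj hi]
    have e : x.1 - w₀ i = (x.1 - y i) - g i := by
      simp only [hw₀def]
      abel
    rw [e]
    have h1 := (hclose i x hi).1
    have h2 := hg i
    have h3 := norm_sub_le (x.1 - y i) (g i)
    linarith
  · rw [hmap₁]
    refine (W2_map_le (stepFun_measurable hS w₁) measurable_snd).trans ?_
    refine sqrt_lintegral_le (by positivity) ?_
    filter_upwards [hcovae] with x hx
    obtain ⟨i, hi⟩ := hx
    rw [stepFun_eq hdisj hi]
    have e : w₁ i - x.2 = g i - (x.2 - z i) := by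
      simp only [hw₁def]
      abel
    rw [e]
    have h1 := (hclose i x hi).2
    have h2 := hg i
    have h3 := norm_sub_le (g i) (x.2 - z i)
    linarith
  · have hRY0 : 0 ≤ RY := (norm_nonneg _).trans (hyb i₀)
    have hpot := potData_cells hK hne hR hw₀ hw₁ a₀ a₁ hR₀ hR₁
    have hsq := hpot.sq_le_gap hconv hr hball
    have hgap := gap_sq_le hK hconv hi hR (w₀ := w₀) (w₁ := w₁) (a₀ := a₀) (a₁ := a₁) (n := n)
      (fun t _ => hpath t) hn0 hnK ha₀ ha₁
    have hπY : ∀ᵐ x ∂π, ‖x.1‖ ≤ RY ∧ ‖x.2‖ ≤ RY := by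
      have := measure_eq_zero_iff_ae_notMem.mp hπ
      filter_upwards [this] with x hx
      have h2 : x ∈ Y ×ˢ Y := by simpa using hx
      exact ⟨hRY _ h2.1, hRY _ h2.2⟩
    have hWm := weighted_le hS hdisj hcov (y := y) (z := z) hη.le
      (fun i x hx => hclose i x hx) hπY
    set Wb := ∫ x, ‖x.1 - x.2‖ ^ 2 ∂π + 8 * η * RY + 4 * η ^ 2 with hWb
    have hWb0 : 0 ≤ Wb := by
      have : 0 ≤ ∫ x, ‖x.1 - x.2‖ ^ 2 ∂π := integral_nonneg fun x => by positivity
      positivity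
    set A := 24 * (RY + 1) ^ 2 * (volume K).toReal * d ^ 2 / r + d ^ 2 +
        (2 * (RY + 1)) ^ 2 * (volume K).toReal / r with hA
    have hA0 : 0 ≤ A := by positivity
    set Gint := ∫ x in K, gapFun K (pw w₀ a₀) (pw w₁ a₁) T₀ T₁ x ^ 2 with hGint
    have hsum : ∑ i, n i * ‖w₁ i - w₀ i‖ ^ 2 = (volume K).toReal *
        ∑ i, M i * ‖z i - y i‖ ^ 2 := by
      rw [Finset.mul_sum]
      refine Finset.sum_congr rfl fun i _ => ?_
      have : w₁ i - w₀ i = z i - y i := by
        simp only [hw₀def, hw₁def]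
        abel
      rw [this, hn]
      ring
    have hG : Gint ≤ (648 * R ^ 2 * (volume K).toReal) * Wb := by
      calc Gint ≤ 648 * R ^ 2 * ∑ i, n i * ‖w₁ i - w₀ i‖ ^ 2 := hgap
        _ = 648 * R ^ 2 * (volume K).toReal * ∑ i, M i * ‖z i - y i‖ ^ 2 := by
            rw [hsum]
            ring
        _ ≤ _ := by
            apply mul_le_mul_of_nonneg_left hWm
            positivity
    have hsG : Real.sqrt Gint ≤ Real.sqrt (648 * R ^ 2 * (volume K).toReal) * Real.sqrt Wb := by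
      rw [← Real.sqrt_mul (by positivity)]
      exact Real.sqrt_le_sqrt hG
    have hrp : (Real.sqrt Gint) ^ (2 / 3 : ℝ) ≤
        (Real.sqrt (648 * R ^ 2 * (volume K).toReal)) ^ (2 / 3 : ℝ) *
          (Real.sqrt Wb) ^ (2 / 3 : ℝ) := by
      rw [← Real.mul_rpow (Real.sqrt_nonneg _) (Real.sqrt_nonneg _)]
      exact Real.rpow_le_rpow (Real.sqrt_nonneg _) hsG (by norm_num)
    have hfinal : ((volume K).toReal)⁻¹ * ∫ x in K, ‖T₀ x - T₁ x‖ ^ 2 ≤
        constThird K R RY r * (Real.sqrt Wb) ^ (2 / 3 : ℝ) := by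
      unfold constThird
      calc ((volume K).toReal)⁻¹ * ∫ x in K, ‖T₀ x - T₁ x‖ ^ 2
          ≤ ((volume K).toReal)⁻¹ * (A * (Real.sqrt Gint) ^ (2 / 3 : ℝ)) := by
            apply mul_le_mul_of_nonneg_left hsq
            positivity
        _ ≤ ((volume K).toReal)⁻¹ * (A * ((Real.sqrt (648 * R ^ 2 * (volume K).toReal)) ^
              (2 / 3 : ℝ) * (Real.sqrt Wb) ^ (2 / 3 : ℝ))) := by
            apply mul_le_mul_of_nonneg_left _ (by positivity)
            exact mul_le_mul_of_nonneg_left hrp hA0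
        _ = _ := by ring
    exact (hpot.l2Dist_le hvol).trans (ENNReal.ofReal_le_ofReal (Real.sqrt_le_sqrt hfinal))

end Vale.Agent.P074
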