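import Vale.Agent.P074.Refine

/-!
# Calculus on boxes: interpolation, volume bound and the algebra of one piece
-/

open MeasureTheory Set Metric Filter Topology
open scoped ENNReal NNReal

set_option linter.unusedSectionVars false
set_option linter.unusedSimpArgs false
set_option linter.unusedVariables false

namespace Vale.Agent.P074

variable {d : ℕ}

namespace Bx

/-- The center of a box. -/
noncomputable def center (b : Bx d) : E d := WithLp.toLp 2 (fun j => (b.l j + b.u j) / 2)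

@[simp] theorem center_apply (b : Bx d) (j : Fin d) : b.center j = (b.l j + b.u j) / 2 := rfl

theorem center_mem {b : Bx d} (hb : b.le) : b.center ∈ b.toSet := by
  intro j
  rw [center_apply]
  have := hb j
  constructor <;> linarith

/-- The interpolation of two boxes. -/
noncomputable def interp (τ : ℝ) (P : Bx d × Bx d) : Bx d :=
  ⟨fun j => (1 - τ) * P.1.l j + τ * P.2.l j, fun j => (1 - τ) * P.1.u j + τ * P.2.u j⟩

theorem real_volume_toSet {b : Bx d} (hb : b.le) :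
    (volume : Measure (E d)).real b.toSet = ∏ j, (b.u j - b.l j) := by
  unfold toSet
  rw [Measure.real, volume_box, ENNReal.toReal_prod]
  refine Finset.prod_congr rfl fun j _ => ?_
  rw [ENNReal.toReal_ofReal]
  linarith [hb j]

theorem interp_le {τ : ℝ} (h0 : 0 ≤ τ) (h1 : τ ≤ 1) {P : Bx d × Bx d} (hP1 : P.1.le)
    (hP2 : P.2.le) : (interp τ P).le := by
  intro j
  simp only [interp]
  nlinarith [hP1 j, hP2 j, mul_le_mul_of_nonneg_left (hP1 j) (by linarith : 0 ≤ 1 - τ),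
    mul_le_mul_of_nonneg_left (hP2 j) h0]

theorem center_interp (τ : ℝ) (P : Bx d × Bx d) :
    (interp τ P).center = (1 - τ) • P.1.center + τ • P.2.center := by
  ext j
  simp only [center_apply, interp, PiLp.add_apply, PiLp.smul_apply, smul_eq_mul]
  ring

theorem interp_decomp {τ : ℝ} (h0 : 0 ≤ τ) (h1 : τ ≤ 1) {P : Bx d × Bx d}
    (hP1 : P.1.le) (hP2 : P.2.le) {p : E d} (hp : p ∈ (interp τ P).toSet) :
    ∃ y ∈ P.1.toSet, ∃ y' ∈ P.2.toSet, p = (1 - τ) • y + τ • y' := by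
  have hτ' : 0 ≤ 1 - τ := by linarith
  -- the widths
  have hw : ∀ j, 0 ≤ (1 - τ) * (P.1.u j - P.1.l j) + τ * (P.2.u j - P.2.l j) := by
    intro j
    have h2 : 0 ≤ P.1.u j - P.1.l j := by linarith [hP1 j]
    have h3 : 0 ≤ P.2.u j - P.2.l j := by linarith [hP2 j]
    positivity
  let lam : Fin d → ℝ := fun j =>
    (p j - ((1 - τ) * P.1.l j + τ * P.2.l j)) /
      ((1 - τ) * (P.1.u j - P.1.l j) + τ * (P.2.u j - P.2.l j))
  have hup : ∀ j, p j - ((1 - τ) * P.1.l j + τ * P.2.l j) ≤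
      (1 - τ) * (P.1.u j - P.1.l j) + τ * (P.2.u j - P.2.l j) := by
    intro j
    have := (hp j).2
    simp only [interp] at this
    linarith
  have hlo : ∀ j, 0 ≤ p j - ((1 - τ) * P.1.l j + τ * P.2.l j) := by
    intro j
    have := (hp j).1
    simp only [interp] at this
    linarith
  have hlam0 : ∀ j, 0 ≤ lam j := fun j => div_nonneg (hlo j) (hw j)
  have hlam1 : ∀ j, lam j ≤ 1 := fun j => div_le_one_of_le₀ (hup j) (hw j)
  have hlam : ∀ j, lam j * ((1 - τ) * (P.1.u j - P.1.l j) + τ * (P.2.u j - P.2.l j)) =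
      p j - ((1 - τ) * P.1.l j + τ * P.2.l j) := by
    intro j
    rcases (hw j).eq_or_lt with h2 | h2
    · have h3 : p j - ((1 - τ) * P.1.l j + τ * P.2.l j) = 0 :=
        le_antisymm ((hup j).trans_eq h2.symm) (hlo j)
      rw [← h2, h3, mul_zero]
    · exact div_mul_cancel₀ _ h2.ne'
  refine ⟨WithLp.toLp 2 fun j => P.1.l j + lam j * (P.1.u j - P.1.l j), ?_,
    WithLp.toLp 2 fun j => P.2.l j + lam j * (P.2.u j - P.2.l j), ?_, ?_⟩
  · intro j
    show P.1.l j + lam j * (P.1.u j - P.1.l j) ∈ Icc _ _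
    have h2 : 0 ≤ P.1.u j - P.1.l j := by linarith [hP1 j]
    constructor
    · nlinarith [hlam0 j, mul_nonneg (hlam0 j) h2]
    · nlinarith [hlam1 j, mul_le_mul_of_nonneg_right (hlam1 j) h2]
  · intro j
    show P.2.l j + lam j * (P.2.u j - P.2.l j) ∈ Icc _ _
    have h2 : 0 ≤ P.2.u j - P.2.l j := by linarith [hP2 j]
    constructor
    · nlinarith [hlam0 j, mul_nonneg (hlam0 j) h2]
    · nlinarith [hlam1 j, mul_le_mul_of_nonneg_right (hlam1 j) h2]
  · ext j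
    simp only [PiLp.add_apply, PiLp.smul_apply, smul_eq_mul]
    have := hlam j
    show p j = (1 - τ) * (P.1.l j + lam j * (P.1.u j - P.1.l j)) +
      τ * (P.2.l j + lam j * (P.2.u j - P.2.l j))
    linarith

theorem interp_width {τ : ℝ} (h0 : 0 ≤ τ) (h1 : τ ≤ 1) {P : Bx d × Bx d} {h : ℝ}
    (h₁ : ∀ j, P.1.u j - P.1.l j ≤ h) (h₂ : ∀ j, P.2.u j - P.2.l j ≤ h) (j : Fin d) :
    (interp τ P).u j - (interp τ P).l j ≤ h := by
  simp only [interp]
  have h3 := mul_le_mul_of_nonneg_left (h₁ j) (by linarith : 0 ≤ 1 - τ)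
  have h4 := mul_le_mul_of_nonneg_left (h₂ j) h0
  nlinarith

end Bx

theorem norm_le_sum_abs (v : E d) : ‖v‖ ≤ ∑ i : Fin d, |v i| := by
  rw [EuclideanSpace.norm_eq]
  apply Real.sqrt_le_iff.mpr
  refine ⟨Finset.sum_nonneg fun _ _ => abs_nonneg _, ?_⟩
  simp only [Real.norm_eq_abs]
  exact Finset.sum_sq_le_sq_sum_of_nonneg fun _ _ => abs_nonneg _

theorem norm_sub_le_of_mem {b : Bx d} {h : ℝ} (hw : ∀ j, b.u j - b.l j ≤ h) {x y : E d}
    (hx : x ∈ b.toSet) (hy : y ∈ b.toSet) : ‖x - y‖ ≤ d * h := by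
  refine (norm_le_sum_abs _).trans ?_
  have : ∀ j ∈ (Finset.univ : Finset (Fin d)), |(x - y) j| ≤ h := by
    intro j _
    have h1 := hx j
    have h2 := hy j
    have h3 := hw j
    simp only [PiLp.sub_apply]
    rw [abs_le]
    constructor <;> linarith [h1.1, h1.2, h2.1, h2.2]
  have h5 := Finset.sum_le_sum this
  simpa using h5

theorem prod_interp_ge {ι : Type} [Fintype ι] {a b : ι → ℝ} (ha : ∀ j, 0 < a j) (hb : ∀ j, 0 < b j)
    {τ : ℝ} (h0 : 0 ≤ τ) (h1 : τ ≤ 1) :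
    (∏ j, a j) * (1 + τ * Real.log ((∏ j, b j) / ∏ j, a j)) ≤ ∏ j, ((1 - τ) * a j + τ * b j) := by
  have hτ' : 0 ≤ 1 - τ := by linarith
  have hA : 0 < ∏ j, a j := Finset.prod_pos fun j _ => ha j
  have hB : 0 < ∏ j, b j := Finset.prod_pos fun j _ => hb j
  have hc : ∀ j, 0 < (1 - τ) * a j + τ * b j := by
    intro j
    rcases lt_or_ge 0 τ with h | h
    · have := mul_pos h (hb j)
      have := mul_nonneg hτ' (ha j).le
      linarith
    · have h4 : τ = 0 := le_antisymm h h0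
      subst h4
      simpa using ha j
  have hP : 0 < ∏ j, ((1 - τ) * a j + τ * b j) := Finset.prod_pos fun j _ => hc j
  have hlog : (1 - τ) * Real.log (∏ j, a j) + τ * Real.log (∏ j, b j) ≤
      Real.log (∏ j, ((1 - τ) * a j + τ * b j)) := by
    rw [Real.log_prod (fun j _ => (hc j).ne'), Real.log_prod (fun j _ => (ha j).ne'),
      Real.log_prod (fun j _ => (hb j).ne'), Finset.mul_sum, Finset.mul_sum,
      ← Finset.sum_add_distrib]
    refine Finset.sum_le_sum fun j _ => ?_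
    have := strictConcaveOn_log_Ioi.concaveOn.2 (mem_Ioi.mpr (ha j)) (mem_Ioi.mpr (hb j))
      hτ' h0 (by ring)
    simpa [smul_eq_mul] using this
  have h3 : Real.exp (Real.log (∏ j, a j) + τ * Real.log ((∏ j, b j) / ∏ j, a j)) ≤
      ∏ j, ((1 - τ) * a j + τ * b j) := by
    rw [← Real.exp_log hP]
    apply Real.exp_le_exp.mpr
    rw [Real.log_div hB.ne' hA.ne']
    linarith
  rw [Real.exp_add, Real.exp_log hA] at h3
  have h4 := Real.add_one_le_exp (τ * Real.log ((∏ j, b j) / ∏ j, a j))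
  refine le_trans ?_ h3
  apply mul_le_mul_of_nonneg_left _ hA.le
  linarith

/-- The algebra of one piece, with the volume ratio and its logarithm as free variables. -/
theorem piece_alg_aux {V q L f f' D R τ Vτ : ℝ} (hV : 0 < V)
    (hf0 : 0 ≤ f) (hf1 : f ≤ R ^ 2) (hf'0 : 0 ≤ f') (hf'1 : f' ≤ R ^ 2) (hD0 : 0 ≤ D)
    (hD : D ≤ 2 * R) (hff : |f' - f| ≤ 2 * R * D) (h0 : 0 ≤ τ) (h11 : τ ≤ 1)
    (hLup : L ≤ 1) (hLlo : -1 ≤ L) (hL3 : (q - 1) - 3 / 2 * (q - 1) ^ 2 ≤ L)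
    (hVτ : V * (1 + τ * L) ≤ Vτ) :
    V * f + τ * (q * V * f' - V * f - |V * (q - 1)| * (2 * R * D) + V * D ^ 2 -
        3 / 2 * R ^ 2 * (V * (q - 1) ^ 2)) - 13 * R ^ 2 * τ ^ 2 * V ≤
      Vτ * ((1 - τ) * f + τ * f' + τ * (1 - τ) * D ^ 2) := by
  have hR0 : 0 ≤ R ^ 2 := by positivity
  have hτ' : 0 ≤ 1 - τ := by linarith
  have hΨ0 : 0 ≤ (1 - τ) * f + τ * f' + τ * (1 - τ) * D ^ 2 := by positivity
  have hstep := mul_le_mul_of_nonneg_right hVτ hΨ0
  refine le_trans ?_ hstep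
  have hD2 : D ^ 2 ≤ 4 * R ^ 2 := by
    have hR : 0 ≤ 2 * R := hD0.trans hD
    have := pow_le_pow_left₀ hD0 hD 2
    linarith [this, (by ring : (2 * R) ^ 2 = 4 * R ^ 2)]
  have hff2 : |f' - f| ≤ R ^ 2 := by
    rw [abs_le]
    constructor <;> linarith
  -- the term in `τ²`
  have hT : -(13 * R ^ 2) ≤ -D ^ 2 + L * (f' - f + D ^ 2) - τ * L * D ^ 2 := by
    have a1 : -(R ^ 2 + D ^ 2) ≤ L * (f' - f + D ^ 2) := by
      have a2 : |L * (f' - f + D ^ 2)| ≤ 1 * (R ^ 2 + D ^ 2) := by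
        rw [abs_mul]
        apply mul_le_mul (abs_le.mpr ⟨hLlo, hLup⟩) _ (abs_nonneg _) (by norm_num)
        calc |f' - f + D ^ 2| ≤ |f' - f| + |D ^ 2| := abs_add_le _ _
          _ ≤ R ^ 2 + D ^ 2 := by
            rw [abs_of_nonneg (by positivity : 0 ≤ D ^ 2)]
            linarith
      have := (abs_le.mp a2).1
      linarith
    have a3 : τ * L * D ^ 2 ≤ D ^ 2 := by
      have a4 : τ * L ≤ 1 := by nlinarith
      have := mul_le_mul_of_nonneg_right a4 (by positivity : 0 ≤ D ^ 2)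
      linarith
    linarith
  -- the term in `τ`
  have hU : q * V * f' - V * f - |V * (q - 1)| * (2 * R * D) + V * D ^ 2 -
      3 / 2 * R ^ 2 * (V * (q - 1) ^ 2) ≤ V * (f' - f + D ^ 2 + L * f) := by
    have b2 : V * ((q - 1) - 3 / 2 * (q - 1) ^ 2) * f ≤ V * L * f := by
      apply mul_le_mul_of_nonneg_right _ hf0
      exact mul_le_mul_of_nonneg_left hL3 hV.le
    have b3 : V * (q - 1) * (f' - f) ≤ |V * (q - 1)| * (2 * R * D) :=
      (le_abs_self _).trans (by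
        rw [abs_mul]
        exact mul_le_mul_of_nonneg_left hff (abs_nonneg _))
    have b5 : V * (q - 1) ^ 2 * f ≤ V * (q - 1) ^ 2 * R ^ 2 :=
      mul_le_mul_of_nonneg_left hf1 (by positivity)
    linarith
  -- conclusion
  have e1 : V * (1 + τ * L) * ((1 - τ) * f + τ * f' + τ * (1 - τ) * D ^ 2) =
      V * f + τ * (V * (f' - f + D ^ 2 + L * f)) +
      τ ^ 2 * V * (-D ^ 2 + L * (f' - f + D ^ 2) - τ * L * D ^ 2) := by
    ring
  rw [e1]
  have c1 := mul_le_mul_of_nonneg_left hU h0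
  have c2 : τ ^ 2 * V * (-(13 * R ^ 2)) ≤
      τ ^ 2 * V * (-D ^ 2 + L * (f' - f + D ^ 2) - τ * L * D ^ 2) :=
    mul_le_mul_of_nonneg_left hT (by positivity)
  have c3 : τ ^ 2 * V * (-(13 * R ^ 2)) = -(13 * R ^ 2 * τ ^ 2 * V) := by ring
  linarith

/-- The algebra of one piece. -/
theorem piece_alg {V V' f f' D R τ Vτ : ℝ} (hV : 0 < V) (h1 : 2 / 3 * V ≤ V') (h2 : V' ≤ 2 * V)
    (hf0 : 0 ≤ f) (hf1 : f ≤ R ^ 2) (hf'0 : 0 ≤ f') (hf'1 : f' ≤ R ^ 2) (hD0 : 0 ≤ D)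
    (hD : D ≤ 2 * R) (hff : |f' - f| ≤ 2 * R * D) (h0 : 0 ≤ τ) (h11 : τ ≤ 1)
    (hVτ : V * (1 + τ * Real.log (V' / V)) ≤ Vτ) :
    V * f + τ * (V' * f' - V * f - |V' - V| * (2 * R * D) + V * D ^ 2 -
        3 / 2 * R ^ 2 * ((V' - V) ^ 2 / V)) - 13 * R ^ 2 * τ ^ 2 * V ≤
      Vτ * ((1 - τ) * f + τ * f' + τ * (1 - τ) * D ^ 2) := by
  obtain ⟨q, hq⟩ : ∃ q, q = V' / V := ⟨_, rfl⟩
  have hq1 : 2 / 3 ≤ q := by
    rw [hq, le_div_iff₀ hV]
    exact h1
  have hq2 : q ≤ 2 := by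
    rw [hq, div_le_iff₀ hV]
    exact h2
  have hq0 : 0 < q := by linarith
  have hVq : V' = q * V := by
    rw [hq]
    field_simp
  rw [← hq] at hVτ
  have hlog1 : Real.log q ≤ q - 1 := Real.log_le_sub_one_of_pos hq0
  have hlog2 : 1 - q⁻¹ ≤ Real.log q := Real.one_sub_inv_le_log_of_pos hq0
  have hinv : q⁻¹ ≤ 3 / 2 := by
    rw [inv_le_comm₀ hq0 (by norm_num)]
    norm_num
    linarith
  have hLup : Real.log q ≤ 1 := by linarith
  have hLlo : -1 ≤ Real.log q := by linarith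
  have hL3 : (q - 1) - 3 / 2 * (q - 1) ^ 2 ≤ Real.log q := by
    have e : 1 - q⁻¹ = (q - 1) - q⁻¹ * (q - 1) ^ 2 := by
      field_simp
      ring
    rw [e] at hlog2
    have h5 : q⁻¹ * (q - 1) ^ 2 ≤ 3 / 2 * (q - 1) ^ 2 :=
      mul_le_mul_of_nonneg_right hinv (by positivity)
    linarith
  have := piece_alg_aux hV hf0 hf1 hf'0 hf'1 hD0 hD hff h0 h11 hLup hLlo hL3 hVτ
  have b1 : (V' - V) ^ 2 / V = V * (q - 1) ^ 2 := by
    rw [hVq]
    field_simp
  have b4 : V' - V = V * (q - 1) := by rw [hVq]; ring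
  rw [b1, b4, hVq]
  exact this

end Vale.Agent.P074
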