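import Vale.Agent.P074.Rearrange

/-!
# From optimality to a potential: cyclical monotonicity and Rockafellar's construction
-/

open MeasureTheory Set Metric Filter Topology
open scoped ENNReal NNReal

namespace Vale.Agent.P074

variable {d : ℕ}

/-- The chain sum `∑ ⟪x_{j+1} - x_j, T x_j⟫` along `x, l, z`. -/
noncomputable def pathSum (T : E d → E d) : E d → List (E d) → E d → ℝ
  | x, [], z => inner ℝ (z - x) (T x)
  | x, a :: l, z => inner ℝ (a - x) (T x) + pathSum T a l z

variable {T : E d → E d}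

theorem pathSum_append (l1 : List (E d)) (x p : E d) (l2 : List (E d)) (z : E d) :
    pathSum T x (l1 ++ p :: l2) z = pathSum T x l1 p + pathSum T p l2 z := by
  induction l1 generalizing x with
  | nil => simp [pathSum]
  | cons a l ih => simp [pathSum, ih, add_assoc]

theorem exists_dup {α : Type*} : ∀ l : List α, ¬ l.Nodup →
    ∃ l1 p l2 l3, l = l1 ++ p :: (l2 ++ p :: l3)
  | [], h => absurd List.nodup_nil h
  | a :: t, h => by
    by_cases ha : a ∈ t
    · obtain ⟨s, r, hs⟩ := List.append_of_mem ha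
      exact ⟨[], a, s, r, by simp [hs]⟩
    · have hn : ¬ t.Nodup := fun hn => h (List.nodup_cons.mpr ⟨ha, hn⟩)
      obtain ⟨l1, p, l2, l3, e⟩ := exists_dup t hn
      exact ⟨a :: l1, p, l2, l3, by simp [e]⟩

theorem pathSum_fin (l : List (E d)) (x z : E d) :
    pathSum T x l z = ∑ j : Fin l.length,
        inner ℝ ((x :: l).get j.succ - (x :: l).get j.castSucc) (T ((x :: l).get j.castSucc)) +
      inner ℝ (z - (x :: l).get (Fin.last l.length)) (T ((x :: l).get (Fin.last l.length))) := by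
  induction l generalizing x with
  | nil => simp [pathSum]
  | cons a l ih =>
    rw [pathSum, ih a]
    have : (a :: l).length = l.length + 1 := rfl
    simp only [List.length_cons, Fin.sum_univ_succ]
    rw [add_assoc]
    rfl

/-- The cyclical inequality for arbitrary chains. -/
theorem cycle_le {Γ : Set (E d)}
    (h : ∀ (n : ℕ) (a : Fin n → E d), Function.Injective a → (∀ i, a i ∈ Γ) →
      ∀ q : Equiv.Perm (Fin n), ∑ i, inner ℝ (a i) (T (a (q i))) ≤ ∑ i, inner ℝ (a i) (T (a i))) :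
    ∀ (n : ℕ) (x : E d) (l : List (E d)), l.length = n → x ∈ Γ → (∀ p ∈ l, p ∈ Γ) →
      pathSum T x l x ≤ 0 := by
  intro n
  induction n using Nat.strong_induction_on with
  | _ n ih =>
    intro x l hl hx hlΓ
    by_cases hnd : (x :: l).Nodup
    · -- the injective case
      set a : Fin (l.length + 1) → E d := (x :: l).get with ha
      have hinj : Function.Injective a := by
        exact List.Nodup.injective_get hnd
      have hΓ : ∀ i, a i ∈ Γ := by
        intro i
        have : a i ∈ x :: l := List.get_mem _ _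
        rcases List.mem_cons.mp this with h1 | h1
        · rw [h1]; exact hx
        · exact hlΓ _ h1
      set q := finRotate (l.length + 1) with hq
      have h1 := h _ a hinj hΓ q⁻¹
      have h2 : ∑ i, inner ℝ (a i) (T (a (q⁻¹ i))) = ∑ j, inner ℝ (a (q j)) (T (a j)) := by
        rw [← Equiv.sum_comp q]
        refine Finset.sum_congr rfl fun j _ => ?_
        simp
      rw [h2] at h1
      have h3 : ∑ j, inner ℝ (a (q j) - a j) (T (a j)) ≤ 0 := by
        simp only [inner_sub_left, Finset.sum_sub_distrib]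
        linarith
      rw [Fin.sum_univ_castSucc] at h3
      have h4 : ∀ j : Fin l.length, q j.castSucc = j.succ := by
        intro j
        apply Fin.ext
        have hlt : (j.castSucc : ℕ) < l.length := j.2
        rw [hq, coe_finRotate_of_ne_last (by
          intro he
          have := congrArg Fin.val he
          simp at this
          omega)]
        simp
      have h5 : q (Fin.last l.length) = 0 := by
        rw [hq, finRotate_last]
      simp only [h4, h5] at h3
      rw [pathSum_fin]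
      exact h3
    · obtain ⟨l1, p, l2, l3, e⟩ := exists_dup _ hnd
      cases l1 with
      | nil =>
        simp only [List.nil_append, List.cons.injEq] at e
        obtain ⟨rfl, rfl⟩ := e
        rw [pathSum_append]
        have hm : ∀ q ∈ l2, q ∈ Γ := fun q hq => hlΓ q (by simp [hq])
        have hm' : ∀ q ∈ l3, q ∈ Γ := fun q hq => hlΓ q (by simp [hq])
        have h1 := ih l2.length (by simp at hl; omega) x l2 rfl hx hm
        have h2 := ih l3.length (by simp at hl; omega) x l3 rfl hx hm'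
        linarith
      | cons y l1' =>
        simp only [List.cons_append, List.cons.injEq] at e
        obtain ⟨rfl, rfl⟩ := e
        rw [pathSum_append, pathSum_append]
        have hp : p ∈ Γ := hlΓ p (by simp)
        have hm : ∀ q ∈ l1' ++ p :: l3, q ∈ Γ := by
          intro q hq
          apply hlΓ q
          simp only [List.mem_append, List.mem_cons] at hq ⊢
          tauto
        have hm2 : ∀ q ∈ l2, q ∈ Γ := fun q hq => hlΓ q (by simp [hq])
        have h1 := ih (l1' ++ p :: l3).length (by simp at hl ⊢; omega) x _ rfl hx hm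
        have h2 := ih l2.length (by simp at hl; omega) p l2 rfl hp hm2
        rw [pathSum_append] at h1
        linarith

theorem pathSum_sub_le {R : ℝ} (hb : ∀ x, ‖T x‖ ≤ R) (l : List (E d)) (x z z' : E d) :
    pathSum T x l z ≤ pathSum T x l z' + R * ‖z - z'‖ := by
  induction l generalizing x with
  | nil =>
    simp only [pathSum]
    have e : z - x = (z' - x) + (z - z') := by abel
    rw [e, inner_add_left]
    have h1 : inner ℝ (z - z') (T x) ≤ ‖z - z'‖ * ‖T x‖ := real_inner_le_norm _ _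
    have h2 : ‖z - z'‖ * ‖T x‖ ≤ ‖z - z'‖ * R := mul_le_mul_of_nonneg_left (hb x) (norm_nonneg _)
    linarith
  | cons a l ih =>
    simp only [pathSum]
    linarith [ih a]

/-- Rockafellar's potential. -/
noncomputable def rock (T : E d → E d) (Γ : Set (E d)) (x₀ z : E d) : ℝ :=
  ⨆ l : {l : List (E d) // ∀ p ∈ l, p ∈ Γ}, pathSum T x₀ l.1 z

section Rock

variable {Γ : Set (E d)} {R : ℝ} {x₀ : E d}

instance : Nonempty {l : List (E d) // ∀ p ∈ l, p ∈ Γ} := ⟨⟨[], by simp⟩⟩

theorem rock_bdd (hb : ∀ x, ‖T x‖ ≤ R) (hx₀ : x₀ ∈ Γ)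
    (hcyc : ∀ l : List (E d), (∀ p ∈ l, p ∈ Γ) → pathSum T x₀ l x₀ ≤ 0) (z : E d) :
    BddAbove (range fun l : {l : List (E d) // ∀ p ∈ l, p ∈ Γ} => pathSum T x₀ l.1 z) := by
  refine ⟨R * ‖z - x₀‖, ?_⟩
  rintro _ ⟨l, rfl⟩
  have h1 := pathSum_sub_le hb l.1 x₀ z x₀
  have h2 := hcyc l.1 l.2
  simp only
  linarith

theorem rock_le (hb : ∀ x, ‖T x‖ ≤ R) (hx₀ : x₀ ∈ Γ)
    (hcyc : ∀ l : List (E d), (∀ p ∈ l, p ∈ Γ) → pathSum T x₀ l x₀ ≤ 0) (z z' : E d) :
    rock T Γ x₀ z ≤ rock T Γ x₀ z' + R * ‖z - z'‖ := by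
  unfold rock
  refine ciSup_le fun l => ?_
  have h1 := pathSum_sub_le hb l.1 x₀ z z'
  have h2 := le_ciSup (rock_bdd hb hx₀ hcyc z') l
  linarith

theorem rock_continuous (hb : ∀ x, ‖T x‖ ≤ R) (hx₀ : x₀ ∈ Γ)
    (hcyc : ∀ l : List (E d), (∀ p ∈ l, p ∈ Γ) → pathSum T x₀ l x₀ ≤ 0) :
    Continuous (rock T Γ x₀) := by
  have hR0 : 0 ≤ R := (norm_nonneg _).trans (hb 0)
  have : LipschitzWith R.toNNReal (rock T Γ x₀) := by
    apply LipschitzWith.of_le_add_mul
    intro y y'
    have := rock_le hb hx₀ hcyc y y'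
    rw [Real.coe_toNNReal _ hR0, dist_eq_norm]
    exact this
  exact this.continuous

theorem rock_subgrad (hb : ∀ x, ‖T x‖ ≤ R) (hx₀ : x₀ ∈ Γ)
    (hcyc : ∀ l : List (E d), (∀ p ∈ l, p ∈ Γ) → pathSum T x₀ l x₀ ≤ 0) {x : E d} (hx : x ∈ Γ)
    (z : E d) : rock T Γ x₀ x + inner ℝ (z - x) (T x) ≤ rock T Γ x₀ z := by
  have : rock T Γ x₀ x ≤ rock T Γ x₀ z - inner ℝ (z - x) (T x) := by
    conv_lhs => unfold rock
    refine ciSup_le fun l => ?_
    have h1 : ∀ p ∈ l.1 ++ [x], p ∈ Γ := by
      intro p hp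
      simp only [List.mem_append, List.mem_cons, List.not_mem_nil, or_false] at hp
      rcases hp with hp | hp
      · exact l.2 p hp
      · rw [hp]; exact hx
    have h2 := le_ciSup (rock_bdd hb hx₀ hcyc z) ⟨l.1 ++ [x], h1⟩
    simp only at h2
    rw [pathSum_append] at h2
    simp only [pathSum] at h2
    unfold rock
    linarith
  linarith

end Rock

section Trunc

variable {K : Set (E d)} {μ : Measure (E d)} {R : ℝ}

/-- The truncation of `T` off `K` and off the ball of radius `R`. -/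
noncomputable def trunc (K : Set (E d)) (T : E d → E d) (R : ℝ) : E d → E d :=
  (K ∩ T ⁻¹' closedBall 0 R).indicator T

theorem unifOn_ae_iff (hKm : MeasurableSet K) (hpos : volume K ≠ 0) (hfin : volume K ≠ ∞)
    {P : E d → Prop} :
    (∀ᵐ x ∂(unifOn K), P x) ↔ ∀ᵐ x ∂(volume : Measure (E d)), x ∈ K → P x := by
  unfold unifOn
  rw [Measure.ae_ennreal_smul_measure_iff (ENNReal.inv_ne_zero.mpr hfin), ae_restrict_iff' hKm]

theorem ae_norm_le (hKm : MeasurableSet K) (hpos : volume K ≠ 0) (hfin : volume K ≠ ∞)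
    (hopt : IsOptimalMap K μ T) (hμR : μ (closedBall (0 : E d) R)ᶜ = 0) :
    ∀ᵐ x ∂(volume : Measure (E d)), x ∈ K → ‖T x‖ ≤ R := by
  rw [← unifOn_ae_iff hKm hpos hfin]
  have hm : MeasurableSet (closedBall (0 : E d) R)ᶜ := measurableSet_closedBall.compl
  have h1 : unifOn K (T ⁻¹' (closedBall (0 : E d) R)ᶜ) = 0 := by
    rw [← Measure.map_apply hopt.measurable hm, hopt.map_eq, hμR]
  exact (measure_eq_zero_iff_ae_notMem.mp h1).mono fun x hx => by simpa using hx

theorem trunc_ae_eq (hKm : MeasurableSet K) (hpos : volume K ≠ 0) (hfin : volume K ≠ ∞)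
    (hopt : IsOptimalMap K μ T) (hμR : μ (closedBall (0 : E d) R)ᶜ = 0) :
    ∀ᵐ x ∂(volume : Measure (E d)), x ∈ K → trunc K T R x = T x := by
  filter_upwards [ae_norm_le hKm hpos hfin hopt hμR] with x hx hxK
  apply indicator_of_mem
  exact ⟨hxK, by simpa using hx hxK⟩

theorem trunc_norm_le (hR : 0 ≤ R) (x : E d) : ‖trunc K T R x‖ ≤ R := by
  unfold trunc
  by_cases hx : x ∈ K ∩ T ⁻¹' closedBall 0 R
  · rw [indicator_of_mem hx]
    simpa using hx.2
  · rw [indicator_of_notMem hx]
    simpa using hR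

theorem trunc_measurable (hKm : MeasurableSet K) (hT : Measurable T) :
    Measurable (trunc K T R) :=
  hT.indicator (hKm.inter (hT measurableSet_closedBall))

theorem trunc_optimal (hKm : MeasurableSet K) (hpos : volume K ≠ 0) (hfin : volume K ≠ ∞)
    (hopt : IsOptimalMap K μ T) (hμR : μ (closedBall (0 : E d) R)ᶜ = 0) :
    IsOptimalMap K μ (trunc K T R) := by
  have hae : trunc K T R =ᵐ[unifOn K] T := (unifOn_ae_iff hKm hpos hfin).mpr
    (trunc_ae_eq hKm hpos hfin hopt hμR)
  refine ⟨trunc_measurable hKm hopt.measurable, ?_, ?_⟩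
  · rw [Measure.map_congr hae]
    exact hopt.map_eq
  · intro T' hT' hmap
    refine le_trans (le_of_eq ?_) (hopt.le_of_map_eq T' hT' hmap)
    refine lintegral_congr_ae ?_
    filter_upwards [hae] with x hx
    rw [hx]

end Trunc

/-- Existence of a potential: the Brenier step. -/
theorem exists_potential {K : Set (E d)} {μ : Measure (E d)} {R RK : ℝ} (hK : IsCompact K)
    (hconv : Convex ℝ K) (hi : (interior K).Nonempty) (hRK : ∀ x ∈ K, ‖x‖ ≤ RK)
    (hopt : IsOptimalMap K μ T) (hR : 0 ≤ R) (hμR : μ (closedBall (0 : E d) R)ᶜ = 0) :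
    ∃ φ : E d → ℝ, Continuous φ ∧ (∀ᵐ x ∂(volume : Measure (E d)), x ∈ K → ‖T x‖ ≤ R) ∧
      ∀ᵐ x ∂(volume : Measure (E d)), x ∈ K → IsSubgradOn K φ x (T x) := by
  have hKm := hK.isClosed.measurableSet
  have hfin : volume K ≠ ∞ := hK.measure_lt_top.ne
  have hintpos : 0 < volume (interior K) := isOpen_interior.measure_pos _ hi
  have hpos : volume K ≠ 0 := (hintpos.trans_le (measure_mono interior_subset)).ne'
  set T₁ := trunc K T R with hT₁
  have hopt₁ : IsOptimalMap K μ T₁ := trunc_optimal hKm hpos hfin hopt hμR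
  have hb₁ : ∀ x, ‖T₁ x‖ ≤ R := trunc_norm_le hR
  set Γ : Set (E d) := {x | x ∈ interior K ∧ IsLeb T₁ x} with hΓ
  have hleb := ae_isLeb hopt₁.measurable hb₁
  -- almost every point of `K` lies in `Γ`
  have hae : ∀ᵐ x ∂(volume : Measure (E d)), x ∈ K → x ∈ Γ := by
    have hfr : ∀ᵐ x ∂(volume : Measure (E d)), x ∉ frontier K :=
      measure_eq_zero_iff_ae_notMem.mp (hconv.addHaar_frontier volume)
    filter_upwards [hleb, hfr] with x h1 h2 hxK
    refine ⟨?_, h1⟩
    by_contra hcon
    exact h2 ⟨subset_closure hxK, hcon⟩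
  -- a base point
  obtain ⟨x₀, hx₀⟩ : Γ.Nonempty := by
    by_contra hcon
    rw [not_nonempty_iff_eq_empty] at hcon
    have h1 : ∀ᵐ x ∂(volume : Measure (E d)), x ∉ K := by
      filter_upwards [hae] with x hx hxK
      have := hx hxK
      rw [hcon] at this
      exact this
    exact hpos (measure_eq_zero_iff_ae_notMem.mpr h1)
  -- the cyclical inequality
  have hcycle := cycle_le (T := T₁) (Γ := Γ) (by
    intro n a hinj haΓ q
    exact cyc_ineq hopt₁ hb₁ hK hpos hRK hinj (fun i => (haΓ i).1) (fun i => (haΓ i).2) q)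
  have hcyc : ∀ l : List (E d), (∀ p ∈ l, p ∈ Γ) → pathSum T₁ x₀ l x₀ ≤ 0 := fun l hl =>
    hcycle _ x₀ l rfl hx₀ hl
  refine ⟨rock T₁ Γ x₀, rock_continuous hb₁ hx₀ hcyc, ae_norm_le hKm hpos hfin hopt hμR, ?_⟩
  filter_upwards [hae, trunc_ae_eq hKm hpos hfin hopt hμR] with x h1 h2 hxK z _
  have := rock_subgrad hb₁ hx₀ hcyc (h1 hxK) z
  have h2' : T₁ x = T x := h2 hxK
  rwa [h2'] at this

/-- The exponent `1/4` is admissible. -/
theorem admissible_quarter : Admissible d (1 / 4) := by
  intro K hconv hK hi Y hY hne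
  obtain ⟨RK, hRK⟩ := hK.isBounded.exists_norm_le
  obtain ⟨R, hR⟩ := hY.isBounded.exists_norm_le
  obtain ⟨c, hc⟩ := hi
  obtain ⟨r, hr, hball⟩ :=
    Metric.nhds_basis_closedBall.mem_iff.mp (mem_interior_iff_mem_nhds.mp hc)
  have hR0 : 0 ≤ R := (norm_nonneg _).trans (hR _ hne.some_mem)
  have hKne : K.Nonempty := ⟨c, interior_subset hc⟩
  have hRK0 : 0 ≤ RK := (norm_nonneg _).trans (hRK _ hKne.some_mem)
  refine ⟨(estC d R RK r).toNNReal, ?_⟩
  intro μ ν hμ hν hμY hνY T S hT hS
  have hμR : μ (closedBall (0 : E d) R)ᶜ = 0 := by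
    have hsub : (closedBall (0 : E d) R)ᶜ ⊆ Yᶜ := by
      intro y hy hyY
      exact hy (by simpa using hR y hyY)
    exact measure_mono_null hsub hμY
  have hνR : ν (closedBall (0 : E d) R)ᶜ = 0 := by
    have hsub : (closedBall (0 : E d) R)ᶜ ⊆ Yᶜ := by
      intro y hy hyY
      exact hy (by simpa using hR y hyY)
    exact measure_mono_null hsub hνY
  have hi' : (interior K).Nonempty := ⟨c, hc⟩
  obtain ⟨φ, hφ, hTb, hTs⟩ := exists_potential hK hconv hi' hRK hT hR0 hμR
  obtain ⟨ψ, hψ, hSb, hSs⟩ := exists_potential hK hconv hi' hRK hS hR0 hνR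
  have hdata : PotData K φ ψ T S R RK :=
    ⟨hK, hKne, hφ, hψ, hT.measurable, hS.measurable, hTb, hSb, hTs, hSs, hRK⟩
  exact hdata.main hconv hr hball hT.map_eq hS.map_eq hμR hνR hR0 hRK0

end Vale.Agent.P074
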