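import Vale.Agent.P074.Defs

/-!
# The three atom example: no exponent above `1/3` is admissible
-/

open MeasureTheory Set
open scoped ENNReal NNReal

namespace Vale.Agent.P074

variable {d : ℕ}

/-! ### Generalities -/

theorem unifOn_isProbability {K : Set (E d)} (hK : IsCompact K) (hi : (interior K).Nonempty) :
    IsProbabilityMeasure (unifOn K) := by
  have h0 : volume K ≠ 0 := by
    have : 0 < volume (interior K) := isOpen_interior.measure_pos _ hi
    exact (this.trans_le (measure_mono interior_subset)).ne'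
  have h1 : volume K ≠ ∞ := hK.measure_lt_top.ne
  refine ⟨?_⟩
  simp only [unifOn, Measure.smul_apply, Measure.restrict_apply_univ, smul_eq_mul]
  exact ENNReal.inv_mul_cancel h0 h1

theorem enorm_sq_eq (v : E d) : ‖v‖ₑ ^ (2 : ℕ) = ENNReal.ofReal (‖v‖ ^ 2) := by
  rw [← ofReal_norm, ENNReal.ofReal_pow (norm_nonneg _)]

/-- A map which at every point maximizes `⟪x, y⟫` over `y` in a set `F` containing its values is
optimal for its own image measure. -/
theorem isOptimalMap_of_argmax {K : Set (E d)}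
    {F : Set (E d)} (hF : MeasurableSet F) {T : E d → E d} (hT : Measurable T)
    (hTF : ∀ x, T x ∈ F) (hmax : ∀ x, ∀ y ∈ F, inner ℝ x y ≤ inner ℝ x (T x))
    (hbdd : ∫⁻ x, ‖T x‖ₑ ^ (2 : ℕ) ∂(unifOn K) ≠ ∞) :
    IsOptimalMap K ((unifOn K).map T) T := by
  refine ⟨hT, rfl, ?_⟩
  intro T' hT' hmap
  set ρ := unifOn K with hρ
  -- `T'` takes values in `F` almost everywhere
  have hae : ∀ᵐ x ∂ρ, T' x ∈ F := by
    have h1 : ρ.map T' Fᶜ = 0 := by
      rw [hmap, Measure.map_apply hT hF.compl]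
      have : T ⁻¹' Fᶜ = ∅ := by
        ext x
        simp [hTF x]
      rw [this, measure_empty]
    rw [Measure.map_apply hT' hF.compl] at h1
    exact measure_eq_zero_iff_ae_notMem.mp h1 |>.mono fun x hx => by
      simpa using hx
  -- the pointwise inequality
  have hpt : ∀ᵐ x ∂ρ, ‖x - T x‖ₑ ^ (2 : ℕ) + ‖T' x‖ₑ ^ (2 : ℕ) ≤
      ‖x - T' x‖ₑ ^ (2 : ℕ) + ‖T x‖ₑ ^ (2 : ℕ) := by
    filter_upwards [hae] with x hx
    simp only [enorm_sq_eq]
    rw [← ENNReal.ofReal_add (by positivity) (by positivity),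
      ← ENNReal.ofReal_add (by positivity) (by positivity)]
    apply ENNReal.ofReal_le_ofReal
    have h2 := hmax x _ hx
    have h3 := @norm_sub_sq_real (E d) _ _ x (T x)
    have h4 := @norm_sub_sq_real (E d) _ _ x (T' x)
    nlinarith
  have hm1 : Measurable fun x => ‖x - T x‖ₑ ^ (2 : ℕ) :=
    ((measurable_id.sub hT).enorm).pow_const 2
  have hm2 : Measurable fun x => ‖x - T' x‖ₑ ^ (2 : ℕ) :=
    ((measurable_id.sub hT').enorm).pow_const 2
  have hm3 : Measurable fun y : E d => ‖y‖ₑ ^ (2 : ℕ) := (measurable_id.enorm).pow_const 2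
  have hZ : ∫⁻ x, ‖T' x‖ₑ ^ (2 : ℕ) ∂ρ = ∫⁻ x, ‖T x‖ₑ ^ (2 : ℕ) ∂ρ := by
    have h1 := lintegral_map hm3 hT (μ := ρ)
    have h2 := lintegral_map hm3 hT' (μ := ρ)
    rw [← h2, hmap, h1]
  have hint := lintegral_mono_ae hpt
  have e1 : ∫⁻ x, (‖x - T x‖ₑ ^ (2 : ℕ) + ‖T' x‖ₑ ^ (2 : ℕ)) ∂ρ =
      ∫⁻ x, ‖x - T x‖ₑ ^ (2 : ℕ) ∂ρ + ∫⁻ x, ‖T' x‖ₑ ^ (2 : ℕ) ∂ρ :=
    lintegral_add_right _ (hm3.comp hT')
  have e2 : ∫⁻ x, (‖x - T' x‖ₑ ^ (2 : ℕ) + ‖T x‖ₑ ^ (2 : ℕ)) ∂ρ =
      ∫⁻ x, ‖x - T' x‖ₑ ^ (2 : ℕ) ∂ρ + ∫⁻ x, ‖T x‖ₑ ^ (2 : ℕ) ∂ρ :=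
    lintegral_add_right _ (hm3.comp hT)
  rw [e1, e2, hZ] at hint
  exact (ENNReal.add_le_add_iff_right hbdd).mp hint

/-- Volume of a coordinate box in Euclidean space. -/
theorem volume_box (a b : Fin d → ℝ) :
    volume {x : E d | ∀ i, x i ∈ Icc (a i) (b i)} = ∏ i, ENNReal.ofReal (b i - a i) := by
  have h := (PiLp.volume_preserving_ofLp (Fin d)).measure_preimage
    (s := Icc a b) measurableSet_Icc.nullMeasurableSet
  rw [Real.volume_Icc_pi] at h
  rw [← h]
  congr 1
  ext x
  simp [Set.mem_Icc, Pi.le_def, forall_and]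


/-! ### The cube -/

/-- The cube `[-1,1]^d`. -/
def cube (d : ℕ) : Set (E d) := {x | ∀ i, x i ∈ Icc (-1 : ℝ) 1}

theorem cube_eq : cube d = (fun x : E d => (x : Fin d → ℝ)) ⁻¹' Icc (fun _ => -1) (fun _ => 1) := by
  ext x
  simp [cube, Set.mem_Icc, Pi.le_def, forall_and]

theorem measurable_coord (i : Fin d) : Measurable fun x : E d => x i :=
  (PiLp.continuous_apply 2 (fun _ : Fin d => ℝ) i).measurable

theorem measurableSet_box (a b : Fin d → ℝ) :
    MeasurableSet {x : E d | ∀ i, x i ∈ Icc (a i) (b i)} := by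
  have : {x : E d | ∀ i, x i ∈ Icc (a i) (b i)} = ⋂ i, {x : E d | x i ∈ Icc (a i) (b i)} := by
    ext x; simp
  rw [this]
  exact MeasurableSet.iInter fun i => measurable_coord i measurableSet_Icc

theorem cube_convex : Convex ℝ (cube d) := by
  have : cube d = ⋂ i, {x : E d | x i ∈ Icc (-1 : ℝ) 1} := by
    ext x; simp [cube]
  rw [this]
  refine convex_iInter fun i => ?_
  intro x hx y hy a b ha hb hab
  have h1 : (a • x + b • y) i = a * x i + b * y i := by simp
  simp only [Set.mem_ofPred_eq, h1] at *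
  exact (convex_Icc (-1 : ℝ) 1) hx hy ha hb hab

theorem cube_subset_ball : cube d ⊆ Metric.closedBall (0 : E d) (Real.sqrt d) := by
  intro x hx
  rw [mem_closedBall_zero_iff, EuclideanSpace.norm_eq]
  apply Real.sqrt_le_sqrt
  calc ∑ i, ‖x i‖ ^ 2 ≤ ∑ _i : Fin d, (1 : ℝ) := by
        refine Finset.sum_le_sum fun i _ => ?_
        have := hx i
        have h2 : ‖x i‖ ≤ 1 := by
          rw [Real.norm_eq_abs, abs_le]; exact this
        have h3 := norm_nonneg (x i)
        nlinarith
    _ = d := by simp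

theorem cube_closed : IsClosed (cube d) := by
  have : cube d = ⋂ i, (fun x : E d => x i) ⁻¹' Icc (-1 : ℝ) 1 := by
    ext x; simp [cube]
  rw [this]
  exact isClosed_iInter fun i =>
    isClosed_Icc.preimage (PiLp.continuous_apply 2 (fun _ : Fin d => ℝ) i)

theorem cube_compact : IsCompact (cube d) :=
  (isCompact_closedBall _ _).of_isClosed_subset cube_closed cube_subset_ball

theorem cube_interior : (interior (cube d)).Nonempty := by
  refine ⟨0, mem_interior.mpr ⟨Metric.ball 0 1, ?_, Metric.isOpen_ball, by simp⟩⟩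
  intro x hx i
  rw [mem_ball_zero_iff] at hx
  have h := PiLp.norm_apply_le x i
  have h2 : ‖x i‖ < 1 := lt_of_le_of_lt h hx
  rw [Real.norm_eq_abs, abs_lt] at h2
  exact ⟨h2.1.le, h2.2.le⟩

/-- A coordinate box in the coordinates `i0`, `i1`, full in the others. -/
def coordBox (i0 i1 : Fin d) (l0 u0 l1 u1 : ℝ) : Set (E d) :=
  {x | ∀ i, x i ∈ Icc (if i = i0 then l0 else if i = i1 then l1 else -1)
    (if i = i0 then u0 else if i = i1 then u1 else 1)}

theorem unif_coordBox {i0 i1 : Fin d} (h : i0 ≠ i1) {l0 u0 l1 u1 : ℝ} (h0 : -1 ≤ l0)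
    (h00 : u0 ≤ 1) (h1 : -1 ≤ l1) (h11 : u1 ≤ 1) :
    unifOn (cube d) (coordBox i0 i1 l0 u0 l1 u1) =
      ENNReal.ofReal ((u0 - l0) / 2) * ENNReal.ofReal ((u1 - l1) / 2) := by
  have hsub : coordBox i0 i1 l0 u0 l1 u1 ⊆ cube d := by
    intro x hx i
    have := hx i
    by_cases hi0 : i = i0
    · rw [if_pos hi0, if_pos hi0] at this
      exact ⟨h0.trans this.1, this.2.trans h00⟩
    · by_cases hi1 : i = i1
      · rw [if_neg hi0, if_neg hi0, if_pos hi1, if_pos hi1] at this
        exact ⟨h1.trans this.1, this.2.trans h11⟩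
      · rwa [if_neg hi0, if_neg hi0, if_neg hi1, if_neg hi1] at this
  have hm : MeasurableSet (coordBox i0 i1 l0 u0 l1 u1) := measurableSet_box _ _
  have hc : cube d = {x : E d | ∀ i, x i ∈ Icc ((fun _ => -1 : Fin d → ℝ) i) ((fun _ => 1 : Fin d → ℝ) i)} := rfl
  have hvolc : volume (cube d) = ∏ _i : Fin d, ENNReal.ofReal 2 := by
    rw [hc, volume_box]
    refine Finset.prod_congr rfl fun i _ => ?_
    norm_num
  have hvolb : volume (coordBox i0 i1 l0 u0 l1 u1) = ∏ i : Fin d, ENNReal.ofReal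
      ((if i = i0 then u0 else if i = i1 then u1 else 1) -
        (if i = i0 then l0 else if i = i1 then l1 else -1)) := volume_box _ _
  rw [unifOn, Measure.smul_apply, Measure.restrict_apply hm, inter_eq_left.mpr hsub, smul_eq_mul,
    hvolc, hvolb, ENNReal.prod_inv_distrib (by
      intro a _ b _ _
      left; simp), ← Finset.prod_mul_distrib]
  have key : ∀ t : ℝ, (ENNReal.ofReal 2)⁻¹ * ENNReal.ofReal t = ENNReal.ofReal (t / 2) := by
    intro t
    rw [div_eq_inv_mul, ENNReal.ofReal_mul (by norm_num), ENNReal.ofReal_inv_of_pos (by norm_num)]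
  rw [Finset.prod_eq_mul i0 i1 h]
  · rw [key, key]
    simp [h.symm]
  · rintro c - ⟨h3, h4⟩
    rw [key, if_neg h3, if_neg h3, if_neg h4, if_neg h4]
    norm_num
  · simp
  · simp


/-! ### The three atom maps -/

/-- The first basis vector used. -/
noncomputable def siteB (i0 : Fin d) : E d := EuclideanSpace.single i0 1

/-- The middle atom. -/
noncomputable def siteM (i0 i1 : Fin d) (σ : ℝ) : E d :=
  EuclideanSpace.single i0 (1 / 2) + EuclideanSpace.single i1 σ

/-- The gradient of the maximum of the three linear functions. -/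
noncomputable def threeMap (i0 i1 : Fin d) (σ : ℝ) (x : E d) : E d :=
  if 0 ≤ x i0 / 2 + σ * x i1 ∧ x i0 ≤ x i0 / 2 + σ * x i1 then siteM i0 i1 σ
  else if 0 < x i0 then siteB i0 else 0

theorem inner_siteB (i0 : Fin d) (x : E d) : inner ℝ x (siteB i0) = x i0 := by
  simp [siteB, EuclideanSpace.inner_single_right]

theorem inner_siteM (i0 i1 : Fin d) (σ : ℝ) (x : E d) :
    inner ℝ x (siteM i0 i1 σ) = x i0 / 2 + σ * x i1 := by
  simp [siteM, inner_add_right, EuclideanSpace.inner_single_right]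
  ring

theorem siteM_apply0 {i0 i1 : Fin d} (h : i0 ≠ i1) (σ : ℝ) : siteM i0 i1 σ i0 = 1 / 2 := by
  simp [siteM, h.symm]

theorem siteM_apply1 {i0 i1 : Fin d} (h : i0 ≠ i1) (σ : ℝ) : siteM i0 i1 σ i1 = σ := by
  simp [siteM, h]

theorem siteB_apply0 (i0 : Fin d) : siteB i0 i0 = 1 := by
  simp [siteB]

theorem measurable_threeMap (i0 i1 : Fin d) (σ : ℝ) : Measurable (threeMap i0 i1 σ) := by
  have h0 := measurable_coord i0
  have h1 := measurable_coord i1
  refine Measurable.ite ?_ measurable_const (Measurable.ite ?_ measurable_const measurable_const)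
  · refine MeasurableSet.inter ?_ ?_
    · exact measurableSet_le measurable_const ((h0.div_const 2).add (h1.const_mul σ))
    · exact measurableSet_le h0 ((h0.div_const 2).add (h1.const_mul σ))
  · exact measurableSet_lt measurable_const h0

/-- The three sites. -/
noncomputable def threeSites (i0 i1 : Fin d) (σ : ℝ) : Set (E d) :=
  {0, siteB i0, siteM i0 i1 σ}

theorem threeMap_mem (i0 i1 : Fin d) (σ : ℝ) (x : E d) :
    threeMap i0 i1 σ x ∈ threeSites i0 i1 σ := by
  unfold threeMap threeSites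
  split_ifs <;> simp

theorem threeMap_argmax (i0 i1 : Fin d) (σ : ℝ) (x : E d) :
    ∀ y ∈ threeSites i0 i1 σ, inner ℝ x y ≤ inner ℝ x (threeMap i0 i1 σ x) := by
  intro y hy
  have hyc : inner ℝ x y = 0 ∨ inner ℝ x y = x i0 ∨ inner ℝ x y = x i0 / 2 + σ * x i1 := by
    rcases hy with rfl | rfl | rfl
    · left; simp
    · right; left; exact inner_siteB _ _
    · right; right; exact inner_siteM _ _ _ _
  unfold threeMap
  split_ifs with h1 h2
  · rw [inner_siteM]
    rcases hyc with h | h | h <;> rw [h]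
    · exact h1.1
    · exact h1.2
  · rw [inner_siteB]
    rcases hyc with h | h | h <;> rw [h]
    · exact h2.le
    · by_contra hc
      push Not at hc
      exact h1 ⟨by linarith, by linarith⟩
  · rw [inner_zero_right]
    push Not at h2
    rcases hyc with h | h | h <;> rw [h]
    · exact h2
    · by_contra hc
      push Not at hc
      exact h1 ⟨by linarith, by linarith⟩

theorem threeMap_norm_le {i0 i1 : Fin d} {σ : ℝ} (hσ : |σ| ≤ 1) (x : E d) :
    ‖threeMap i0 i1 σ x‖ ≤ 2 := by
  unfold threeMap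
  split_ifs
  · unfold siteM
    calc _ ≤ ‖(EuclideanSpace.single i0 (1 / 2) : E d)‖ + ‖(EuclideanSpace.single i1 σ : E d)‖ :=
          norm_add_le _ _
      _ ≤ 2 := by
        simp only [PiLp.norm_single, Real.norm_eq_abs]
        rw [abs_of_pos (by norm_num : (0 : ℝ) < 1 / 2)]
        linarith
  · simp [siteB]
  · simp

theorem threeMap_optimal {i0 i1 : Fin d} {σ : ℝ} (hσ : |σ| ≤ 1) :
    IsOptimalMap (cube d) ((unifOn (cube d)).map (threeMap i0 i1 σ)) (threeMap i0 i1 σ) := by
  have := unifOn_isProbability (d := d) cube_compact cube_interior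
  refine isOptimalMap_of_argmax (F := threeSites i0 i1 σ) ?_ (measurable_threeMap _ _ _)
    (threeMap_mem _ _ _) (threeMap_argmax _ _ _) ?_
  · exact (Set.Finite.insert _ (Set.Finite.insert _ (Set.finite_singleton _))).measurableSet
  · have hle : ∀ x, ‖threeMap i0 i1 σ x‖ₑ ^ (2 : ℕ) ≤ ENNReal.ofReal 4 := by
      intro x
      rw [enorm_sq_eq]
      apply ENNReal.ofReal_le_ofReal
      have := threeMap_norm_le (i0 := i0) (i1 := i1) hσ x
      have h2 := norm_nonneg (threeMap i0 i1 σ x)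
      nlinarith
    refine ne_of_lt (lt_of_le_of_lt (lintegral_mono hle) ?_)
    simp


/-! ### The reflection -/

/-- Negating the coordinate `i1`. -/
noncomputable def reflCoord (i1 : Fin d) : E d ≃ₗᵢ[ℝ] E d :=
  LinearIsometryEquiv.piLpCongrRight 2
    (fun i => if i = i1 then LinearIsometryEquiv.neg ℝ else LinearIsometryEquiv.refl ℝ ℝ)

theorem reflCoord_apply (i1 i : Fin d) (x : E d) :
    reflCoord i1 x i = if i = i1 then - x i else x i := by
  by_cases h : i = i1 <;> simp [reflCoord, h]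

theorem reflCoord_invol (i1 : Fin d) (x : E d) : reflCoord i1 (reflCoord i1 x) = x := by
  ext i
  rw [reflCoord_apply, reflCoord_apply]
  split_ifs <;> simp

theorem reflCoord_preimage_cube (i1 : Fin d) : reflCoord i1 ⁻¹' cube d = cube d := by
  ext x
  constructor
  · intro h i
    have := h i
    rw [reflCoord_apply] at this
    split_ifs at this with h1
    · exact ⟨by linarith [this.2], by linarith [this.1]⟩
    · exact this
  · intro h i
    have := h i
    change reflCoord i1 x i ∈ _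
    rw [reflCoord_apply]
    split_ifs with h1
    · exact ⟨by linarith [this.2], by linarith [this.1]⟩
    · exact this

theorem map_reflCoord_unif (i1 : Fin d) :
    (unifOn (cube d)).map (reflCoord i1) = unifOn (cube d) := by
  have hmp := (reflCoord i1).measurePreserving
  have hK : MeasurableSet (cube d) := cube_closed.measurableSet
  have h2 := (hmp.restrict_preimage hK).map_eq
  rw [reflCoord_preimage_cube] at h2
  rw [unifOn, Measure.map_smul, h2]

theorem reflCoord_siteB {i0 i1 : Fin d} (h : i0 ≠ i1) : reflCoord i1 (siteB i0) = siteB i0 := by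
  ext i
  rw [reflCoord_apply]
  split_ifs with h1
  · subst h1
    simp [siteB, h.symm]
  · rfl

theorem reflCoord_siteM {i0 i1 : Fin d} (h : i0 ≠ i1) (σ : ℝ) :
    reflCoord i1 (siteM i0 i1 σ) = siteM i0 i1 (-σ) := by
  ext i
  rw [reflCoord_apply]
  split_ifs with h1
  · subst h1
    simp [siteM, h.symm]
  · simp [siteM, h1]

theorem threeMap_refl {i0 i1 : Fin d} (h : i0 ≠ i1) (σ : ℝ) (x : E d) :
    threeMap i0 i1 (-σ) (reflCoord i1 x) = reflCoord i1 (threeMap i0 i1 σ x) := by
  have e0 : reflCoord i1 x i0 = x i0 := by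
    rw [reflCoord_apply, if_neg h]
  have e1 : reflCoord i1 x i1 = - x i1 := by
    rw [reflCoord_apply, if_pos rfl]
  have e2 : -σ * (- x i1) = σ * x i1 := by ring
  unfold threeMap
  rw [e0, e1, e2]
  split_ifs
  · exact (reflCoord_siteM h σ).symm
  · exact (reflCoord_siteB h).symm
  · simp

theorem map_threeMap_neg {i0 i1 : Fin d} (h : i0 ≠ i1) (σ : ℝ) :
    (unifOn (cube d)).map (threeMap i0 i1 (-σ)) =
      ((unifOn (cube d)).map (threeMap i0 i1 σ)).map (reflCoord i1) := by
  have hr : Measurable (reflCoord i1) := (reflCoord i1).continuous.measurable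
  rw [Measure.map_map hr (measurable_threeMap _ _ _)]
  conv_lhs => rw [← map_reflCoord_unif i1]
  rw [Measure.map_map (measurable_threeMap _ _ _) hr]
  congr 1
  funext x
  exact threeMap_refl h σ x

theorem W2_le_of_refl {μ : Measure (E d)} (i1 : Fin d) :
    W2 μ (μ.map (reflCoord i1)) ≤
      (∫⁻ y, ‖y - reflCoord i1 y‖ₑ ^ (2 : ℕ) ∂μ) ^ (1 / 2 : ℝ) := by
  have hr : Measurable (reflCoord i1) := (reflCoord i1).continuous.measurable
  have hg : Measurable fun y : E d => (y, reflCoord i1 y) := measurable_id.prodMk hr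
  have hc : IsCoupling (μ.map fun y => (y, reflCoord i1 y)) μ (μ.map (reflCoord i1)) := by
    constructor
    · rw [Measure.map_map measurable_fst hg]
      exact Measure.map_id
    · rw [Measure.map_map measurable_snd hg]
      rfl
  have h1 : W2 μ (μ.map (reflCoord i1)) ≤
      (∫⁻ p, ‖p.1 - p.2‖ₑ ^ (2 : ℕ) ∂(μ.map fun y => (y, reflCoord i1 y))) ^ (1 / 2 : ℝ) :=
    iInf₂_le (μ.map fun y => (y, reflCoord i1 y)) hc
  refine h1.trans (le_of_eq ?_)
  congr 1
  rw [lintegral_map ?_ hg]
  exact ((measurable_fst.sub measurable_snd).enorm).pow_const 2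


/-! ### The estimates -/

theorem W2_three_le {i0 i1 : Fin d} (h : i0 ≠ i1) {η : ℝ} (hη : 0 < η) (hη2 : η ≤ 1 / 2) :
    W2 ((unifOn (cube d)).map (threeMap i0 i1 η)) ((unifOn (cube d)).map (threeMap i0 i1 (-η))) ≤
      ENNReal.ofReal (4 * η ^ 3) ^ (1 / 2 : ℝ) := by
  rw [map_threeMap_neg h]
  refine (W2_le_of_refl i1).trans ?_
  apply ENNReal.rpow_le_rpow _ (by norm_num)
  have hm3 : Measurable fun y : E d => ‖y - reflCoord i1 y‖ₑ ^ (2 : ℕ) :=
    ((measurable_id.sub (reflCoord i1).continuous.measurable).enorm).pow_const 2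
  rw [lintegral_map hm3 (measurable_threeMap _ _ _)]
  set B := coordBox i0 i1 (-(2 * η)) (2 * η) 0 1 with hB
  have hBm : MeasurableSet B := measurableSet_box _ _
  have hpt : ∀ᵐ x ∂(unifOn (cube d)),
      ‖threeMap i0 i1 η x - reflCoord i1 (threeMap i0 i1 η x)‖ₑ ^ (2 : ℕ) ≤
        B.indicator (fun _ => ENNReal.ofReal (4 * η ^ 2)) x := by
    have hcube : ∀ᵐ x ∂(unifOn (cube d)), x ∈ cube d := by
      have hK : MeasurableSet (cube d) := cube_closed.measurableSet
      unfold unifOn
      refine Measure.ae_smul_measure ?_ _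
      exact ae_restrict_mem hK
    filter_upwards [hcube] with x hx
    by_cases hcond : 0 ≤ x i0 / 2 + η * x i1 ∧ x i0 ≤ x i0 / 2 + η * x i1
    · have hTx : threeMap i0 i1 η x = siteM i0 i1 η := by
        unfold threeMap
        rw [if_pos hcond]
      have hxB : x ∈ B := by
        intro i
        by_cases hi0 : i = i0
        · subst hi0
          rw [if_pos rfl, if_pos rfl]
          have h6 : η * x i1 ≤ η := by nlinarith [(hx i1).2]
          exact ⟨by linarith [hcond.1], by linarith [hcond.2]⟩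
        · by_cases hi1 : i = i1
          · subst hi1
            rw [if_neg hi0, if_neg hi0, if_pos rfl, if_pos rfl]
            have h5 : 0 ≤ η * x i := by linarith [hcond.1, hcond.2]
            exact ⟨nonneg_of_mul_nonneg_right h5 hη, (hx i).2⟩
          · rw [if_neg hi0, if_neg hi0, if_neg hi1, if_neg hi1]
            exact hx i
      rw [Set.indicator_of_mem hxB, hTx, reflCoord_siteM h, enorm_sq_eq]
      apply ENNReal.ofReal_le_ofReal
      have e : siteM i0 i1 η - siteM i0 i1 (-η) = EuclideanSpace.single i1 (2 * η) := by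
        unfold siteM
        rw [add_sub_add_left_eq_sub]
        ext i
        by_cases hi : i = i1
        · subst hi
          simp
          ring
        · simp [hi]
      rw [e, PiLp.norm_single, Real.norm_eq_abs, sq_abs]
      nlinarith
    · have hTx : reflCoord i1 (threeMap i0 i1 η x) = threeMap i0 i1 η x := by
        unfold threeMap
        rw [if_neg hcond]
        split_ifs
        · exact reflCoord_siteB h
        · simp
      rw [hTx]
      simp
  have hprob := unifOn_isProbability (d := d) cube_compact cube_interior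
  calc _ ≤ ∫⁻ x, B.indicator (fun _ => ENNReal.ofReal (4 * η ^ 2)) x ∂(unifOn (cube d)) :=
        lintegral_mono_ae hpt
    _ = ENNReal.ofReal (4 * η ^ 2) * unifOn (cube d) B := lintegral_indicator_const hBm _
    _ = ENNReal.ofReal (4 * η ^ 3) := by
        rw [hB, unif_coordBox h (by linarith) (by linarith) (by norm_num) le_rfl,
          ← ENNReal.ofReal_mul (p := (2 * η - -(2 * η)) / 2) (by linarith),
          ← ENNReal.ofReal_mul (p := 4 * η ^ 2) (by positivity)]
        congr 1
        ring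

theorem l2Dist_three_ge {i0 i1 : Fin d} (h : i0 ≠ i1) {η : ℝ} (hη : 0 < η) (hη2 : η ≤ 1 / 2) :
    ENNReal.ofReal (η / 16) ^ (1 / 2 : ℝ) ≤
      l2Dist (unifOn (cube d)) (threeMap i0 i1 η) (threeMap i0 i1 (-η)) := by
  unfold l2Dist
  apply ENNReal.rpow_le_rpow _ (by norm_num)
  set B := coordBox i0 i1 (-η) η (1 / 2) 1 with hB
  have hBm : MeasurableSet B := measurableSet_box _ _
  have hpt : ∀ x, B.indicator (fun _ => ENNReal.ofReal (1 / 4)) x ≤
      ‖threeMap i0 i1 η x - threeMap i0 i1 (-η) x‖ₑ ^ (2 : ℕ) := by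
    intro x
    by_cases hxB : x ∈ B
    · rw [Set.indicator_of_mem hxB, enorm_sq_eq]
      apply ENNReal.ofReal_le_ofReal
      have h0 := hxB i0
      rw [if_pos rfl, if_pos rfl] at h0
      have h1 := hxB i1
      rw [if_neg h.symm, if_neg h.symm, if_pos rfl, if_pos rfl] at h1
      have hT : threeMap i0 i1 η x = siteM i0 i1 η := by
        unfold threeMap
        rw [if_pos]
        constructor <;> nlinarith [h0.1, h0.2, h1.1, h1.2]
      have hS : ¬ (0 ≤ x i0 / 2 + (-η) * x i1 ∧ x i0 ≤ x i0 / 2 + (-η) * x i1) := by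
        rintro ⟨h3, h4⟩
        nlinarith [h1.1, h1.2, mul_pos hη (by linarith [h1.1] : 0 < x i1)]
      have hcoord : |(threeMap i0 i1 η x - threeMap i0 i1 (-η) x) i0| ≥ 1 / 2 := by
        rw [hT]
        unfold threeMap
        rw [if_neg hS]
        split_ifs
        · have e : (siteM i0 i1 η - siteB i0) i0 = 1 / 2 - 1 := by
            simp only [PiLp.sub_apply, siteM_apply0 h, siteB_apply0]
          rw [e]
          norm_num [abs_of_neg]
        · have e : (siteM i0 i1 η - 0) i0 = 1 / 2 := by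
            simp only [sub_zero, siteM_apply0 h]
          rw [e]
          norm_num
      have hle := PiLp.norm_apply_le (threeMap i0 i1 η x - threeMap i0 i1 (-η) x) i0
      rw [Real.norm_eq_abs] at hle
      nlinarith
    · rw [Set.indicator_of_notMem hxB]
      exact zero_le
  calc ENNReal.ofReal (η / 16) = ENNReal.ofReal (1 / 4) * unifOn (cube d) B := by
        rw [hB, unif_coordBox h (by linarith) (by linarith) (by norm_num) le_rfl,
          ← ENNReal.ofReal_mul (p := (η - -η) / 2) (by linarith),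
          ← ENNReal.ofReal_mul (p := 1 / 4) (by norm_num)]
        congr 1
        ring
    _ = ∫⁻ x, B.indicator (fun _ => ENNReal.ofReal (1 / 4)) x ∂(unifOn (cube d)) :=
        (lintegral_indicator_const hBm _).symm
    _ ≤ _ := lintegral_mono hpt


/-! ### The contradiction -/

theorem exists_small {κ : ℝ} (hκ : 0 < κ) {A : ℝ} (hA : 0 ≤ A) :
    ∃ η : ℝ, 0 < η ∧ η ≤ 1 / 2 ∧ A * η ^ κ < 1 / 4 := by
  set b : ℝ := 1 / (8 * (A + 1)) with hb
  have hbpos : 0 < b := by positivity
  refine ⟨min (1 / 2) (b ^ (1 / κ)), lt_min (by norm_num) (Real.rpow_pos_of_pos hbpos _),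
    min_le_left _ _, ?_⟩
  have h1 : (min (1 / 2) (b ^ (1 / κ))) ^ κ ≤ b := by
    calc (min (1 / 2) (b ^ (1 / κ))) ^ κ ≤ (b ^ (1 / κ)) ^ κ :=
          Real.rpow_le_rpow (le_min (by norm_num) (Real.rpow_pos_of_pos hbpos _).le)
            (min_le_right _ _) hκ.le
      _ = b := by
          rw [← Real.rpow_mul hbpos.le, one_div, inv_mul_cancel₀ hκ.ne', Real.rpow_one]
  have h2 : A * b < 1 / 4 := by
    rw [hb, mul_one_div, div_lt_iff₀ (by positivity)]
    nlinarith
  calc A * (min (1 / 2) (b ^ (1 / κ))) ^ κ ≤ A * b := mul_le_mul_of_nonneg_left h1 hA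
    _ < 1 / 4 := h2

theorem threeMap_image_support {i0 i1 : Fin d} {σ : ℝ} (hσ : |σ| ≤ 1) :
    ((unifOn (cube d)).map (threeMap i0 i1 σ)) (Metric.closedBall (0 : E d) 2)ᶜ = 0 := by
  rw [Measure.map_apply (measurable_threeMap _ _ _) Metric.isClosed_closedBall.measurableSet.compl]
  have : threeMap i0 i1 σ ⁻¹' (Metric.closedBall (0 : E d) 2)ᶜ = ∅ := by
    ext x
    simp [threeMap_norm_le hσ x]
  rw [this, measure_empty]

theorem numeric_step {α η c : ℝ} (hη : 0 < η)
    (h : (η / 16) ^ (1 / 2 : ℝ) ≤ c * (4 * η ^ 3) ^ (α / 2)) :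
    1 / 4 ≤ c * 4 ^ (α / 2) * η ^ (3 * α / 2 - 1 / 2) := by
  have e1 : (η / 16) ^ (1 / 2 : ℝ) = η ^ (1 / 2 : ℝ) * (1 / 4) := by
    rw [Real.div_rpow hη.le (by norm_num)]
    have : (16 : ℝ) ^ (1 / 2 : ℝ) = 4 := by
      rw [show (16 : ℝ) = 4 ^ (2 : ℝ) by norm_num, ← Real.rpow_mul (by norm_num)]
      norm_num
    rw [this]
    ring
  have e2 : (4 * η ^ 3) ^ (α / 2) = 4 ^ (α / 2) * (η ^ (1 / 2 : ℝ) * η ^ (3 * α / 2 - 1 / 2)) := by
    rw [Real.mul_rpow (by norm_num) (by positivity), ← Real.rpow_add hη]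
    congr 1
    rw [← Real.rpow_natCast, ← Real.rpow_mul hη.le]
    congr 1
    push_cast
    ring
  rw [e1, e2] at h
  have hp : 0 < η ^ (1 / 2 : ℝ) := Real.rpow_pos_of_pos hη _
  have h3 : η ^ (1 / 2 : ℝ) * (1 / 4) ≤
      η ^ (1 / 2 : ℝ) * (c * 4 ^ (α / 2) * η ^ (3 * α / 2 - 1 / 2)) := by
    calc _ ≤ _ := h
      _ = _ := by ring
  exact le_of_mul_le_mul_left h3 hp

/-- No exponent above `1/3` is admissible, in any dimension `d ≥ 2`. -/
theorem not_admissible (hd : 2 ≤ d) {α : ℝ} (hα : 1 / 3 < α) : ¬ Admissible d α := by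
  intro hadm
  let i0 : Fin d := ⟨0, by omega⟩
  let i1 : Fin d := ⟨1, by omega⟩
  have h : i0 ≠ i1 := by simp [i0, i1, Fin.ext_iff]
  obtain ⟨C, hC⟩ := hadm (cube d) cube_convex cube_compact cube_interior
    (Metric.closedBall 0 2) (isCompact_closedBall _ _) ⟨0, by simp⟩
  have hκ : 0 < 3 * α / 2 - 1 / 2 := by linarith
  have hα0 : 0 < α := by linarith
  obtain ⟨η, h1, h2, h3⟩ := exists_small hκ (A := C * 4 ^ (α / 2)) (by positivity)
  have hprob := unifOn_isProbability (d := d) cube_compact cube_interior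
  have habs1 : |η| ≤ 1 := by rw [abs_of_pos h1]; linarith
  have habs2 : |-η| ≤ 1 := by rwa [abs_neg]
  have hmain := hC _ _
    (Measure.isProbabilityMeasure_map (measurable_threeMap i0 i1 η).aemeasurable)
    (Measure.isProbabilityMeasure_map (measurable_threeMap i0 i1 (-η)).aemeasurable)
    (threeMap_image_support habs1) (threeMap_image_support habs2)
    _ _ (threeMap_optimal habs1) (threeMap_optimal habs2)
  have hchain : ENNReal.ofReal (η / 16) ^ (1 / 2 : ℝ) ≤
      (C : ℝ≥0∞) * (ENNReal.ofReal (4 * η ^ 3) ^ (1 / 2 : ℝ)) ^ α := by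
    refine (l2Dist_three_ge h h1 h2).trans (hmain.trans ?_)
    gcongr
    exact W2_three_le h h1 h2
  have hreal : (η / 16) ^ (1 / 2 : ℝ) ≤ (C : ℝ) * (4 * η ^ 3) ^ (α / 2) := by
    rw [← ENNReal.rpow_mul, ENNReal.ofReal_rpow_of_nonneg (by positivity) (by norm_num),
      ENNReal.ofReal_rpow_of_nonneg (by positivity) (by positivity),
      ← ENNReal.ofReal_coe_nnreal, ← ENNReal.ofReal_mul (by positivity),
      ENNReal.ofReal_le_ofReal_iff (by positivity)] at hchain
    convert hchain using 3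
    ring
  have := numeric_step h1 hreal
  linarith

end Vale.Agent.P074
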