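import Mathlib

/-!
# Definitions for the stability exponent of quadratic optimal transport maps
-/

open MeasureTheory Set
open scoped ENNReal NNReal

namespace Vale.Agent.P074

/-- `ℝ^d` with the Euclidean norm. -/
abbrev E (d : ℕ) : Type := EuclideanSpace ℝ (Fin d)

variable {d : ℕ}

/-- The uniform probability measure `ρ = |K|⁻¹ 1_K dx` on `K`. -/
noncomputable def unifOn (K : Set (E d)) : Measure (E d) :=
  (volume K)⁻¹ • volume.restrict K

/-- `π` is a coupling of `μ` and `ν`: its marginals are `μ` and `ν`. -/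
def IsCoupling (π : Measure (E d × E d)) (μ ν : Measure (E d)) : Prop :=
  π.map Prod.fst = μ ∧ π.map Prod.snd = ν

/-- The quadratic Wasserstein distance `W_2(μ, ν)`, the infimum over couplings. -/
noncomputable def W2 (μ ν : Measure (E d)) : ℝ≥0∞ :=
  ⨅ (π : Measure (E d × E d)) (_ : IsCoupling π μ ν),
    (∫⁻ p, ‖p.1 - p.2‖ₑ ^ (2 : ℕ) ∂π) ^ (1 / 2 : ℝ)

/-- The distance `‖T - S‖_{L²(ρ)}`. -/
noncomputable def l2Dist (ρ : Measure (E d)) (T S : E d → E d) : ℝ≥0∞ :=
  (∫⁻ x, ‖T x - S x‖ₑ ^ (2 : ℕ) ∂ρ) ^ (1 / 2 : ℝ)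

/-- `T` is a quadratic optimal transport map from the uniform measure on `K` to `μ`: a Borel map
pushing it to `μ` which minimizes `∫_K |x - T x|² dρ` among all such maps. -/
structure IsOptimalMap (K : Set (E d)) (μ : Measure (E d)) (T : E d → E d) : Prop where
  measurable : Measurable T
  map_eq : (unifOn K).map T = μ
  le_of_map_eq : ∀ T' : E d → E d, Measurable T' → (unifOn K).map T' = μ →
    ∫⁻ x, ‖x - T x‖ₑ ^ (2 : ℕ) ∂(unifOn K) ≤ ∫⁻ x, ‖x - T' x‖ₑ ^ (2 : ℕ) ∂(unifOn K)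

/-- The exponent `α` is admissible in dimension `d`: for every compact convex `K` with nonempty
interior and every nonempty compact `Y` there is a finite `C` with
`‖T_μ - T_ν‖_{L²(ρ)} ≤ C W_2(μ, ν)^α` for all probability measures `μ, ν` supported in `Y`. -/
def Admissible (d : ℕ) (α : ℝ) : Prop :=
  ∀ K : Set (E d), Convex ℝ K → IsCompact K → (interior K).Nonempty →
  ∀ Y : Set (E d), IsCompact Y → Y.Nonempty →
    ∃ C : ℝ≥0, ∀ μ ν : Measure (E d), IsProbabilityMeasure μ → IsProbabilityMeasure ν →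
      μ Yᶜ = 0 → ν Yᶜ = 0 → ∀ T S : E d → E d, IsOptimalMap K μ T → IsOptimalMap K ν S →
        l2Dist (unifOn K) T S ≤ (C : ℝ≥0∞) * W2 μ ν ^ α

end Vale.Agent.P074
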