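import Vale.Agent.P074.Layer

/-!
# The estimate in one direction
-/

open MeasureTheory Set Metric
open scoped ENNReal NNReal

namespace Vale.Agent.P074

variable {d : ℕ}

theorem integrableOn_of_ae_bound {K : Set (E d)} (hK : IsCompact K) {f : E d → ℝ}
    (hf : Measurable f) {C : ℝ} (h : ∀ᵐ x ∂(volume : Measure (E d)), x ∈ K → |f x| ≤ C) :
    IntegrableOn f K volume := by
  refine Measure.integrableOn_of_bounded hK.measure_lt_top.ne hf.aestronglyMeasurable (M := C) ?_
  rw [ae_restrict_iff' hK.isClosed.measurableSet]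
  filter_upwards [h] with x hx hxK
  simpa using hx hxK

/-- Change of variables for the shifted set. -/
theorem setIntegral_shift {K : Set (E d)} (hK : IsCompact K) (f : E d → ℝ) (δ : ℝ) (e : E d) :
    ∫ x in shiftIn K δ e, f (x - δ • e) = ∫ x in shiftIn K (-δ) e, f x := by
  rw [← integral_indicator (measurableSet_shiftIn hK δ e),
    ← integral_indicator (measurableSet_shiftIn hK (-δ) e)]
  rw [← integral_sub_right_eq_self ((shiftIn K (-δ) e).indicator f) (δ • e)]
  congr 1
  funext x
  by_cases hx : x ∈ shiftIn K δ e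
  · have hx' : x - δ • e ∈ shiftIn K (-δ) e := by
      refine ⟨hx.2, ?_⟩
      have : x - δ • e - (-δ) • e = x := by
        rw [neg_smul]; abel
      rw [this]
      exact hx.1
    rw [indicator_of_mem hx, indicator_of_mem hx']
  · have hx' : x - δ • e ∉ shiftIn K (-δ) e := by
      intro h
      apply hx
      refine ⟨?_, h.1⟩
      have h5 : x - δ • e - (-δ) • e = x := by
        rw [neg_smul]; abel
      have h6 := h.2
      rwa [h5] at h6
    rw [indicator_of_notMem hx, indicator_of_notMem hx']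

theorem shiftIn_subset (K : Set (E d)) (δ : ℝ) (e : E d) : shiftIn K δ e ⊆ K := fun _ hx => hx.1

/-- The telescoping bound. -/
theorem telescoping_bound {K : Set (E d)} (hK : IsCompact K) {f : E d → ℝ} (hf : Measurable f)
    {C : ℝ} (hf2 : ∀ᵐ x ∂(volume : Measure (E d)), x ∈ K → |f x| ≤ C) (δ : ℝ) (e : E d) :
    (∫ x in shiftIn K δ e, f x) - (∫ x in shiftIn K (-δ) e, f x) ≤
      C * (volume (K \ shiftIn K δ e)).toReal + C * (volume (K \ shiftIn K (-δ) e)).toReal := by
  have hint := integrableOn_of_ae_bound hK hf hf2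
  have hmA := measurableSet_shiftIn hK δ e
  have hmA' := measurableSet_shiftIn hK (-δ) e
  have e1 := setIntegral_sdiff hmA hint (shiftIn_subset K δ e)
  have e2 := setIntegral_sdiff hmA' hint (shiftIn_subset K (-δ) e)
  have bd : ∀ {B : Set (E d)}, MeasurableSet B → B ⊆ K →
      |∫ x in B, f x| ≤ C * (volume B).toReal := by
    intro B hB hBK
    have hlt : volume B < ∞ := (measure_mono hBK).trans_lt hK.measure_lt_top
    have := norm_setIntegral_le_of_norm_le_const_ae (μ := volume) (s := B) (f := f) (C := C) hlt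
      (by
        rw [ae_restrict_iff' hB]
        filter_upwards [hf2] with x hx hxB
        simpa using hx (hBK hxB))
    simpa [Measure.real] using this
  have hK' := hK.isClosed.measurableSet
  have b1 := bd (hK'.diff hmA) sdiff_subset
  have b2 := bd (hK'.diff hmA') sdiff_subset
  have b1' := (abs_le.mp b1).1
  have b2' := (abs_le.mp b2).2
  linarith

/-- The function `x ↦ w (T x) - w (S x)`. -/
noncomputable def gapFun (K : Set (E d)) (φ ψ : E d → ℝ) (T S : E d → E d) (x : E d) : ℝ :=
  legDiff K φ ψ (T x) - legDiff K φ ψ (S x)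

theorem abs_inner_le_of_unit {v e : E d} (he : ‖e‖ = 1) : |inner ℝ v e| ≤ ‖v‖ := by
  have := abs_real_inner_le_norm v e
  rwa [he, mul_one] at this

/-- The data of the main estimate. -/
structure PotData (K : Set (E d)) (φ ψ : E d → ℝ) (T S : E d → E d) (R RK : ℝ) : Prop where
  hK : IsCompact K
  hne : K.Nonempty
  hφ : Continuous φ
  hψ : Continuous ψ
  hTm : Measurable T
  hSm : Measurable S
  hTb : ∀ᵐ x ∂(volume : Measure (E d)), x ∈ K → ‖T x‖ ≤ R
  hSb : ∀ᵐ x ∂(volume : Measure (E d)), x ∈ K → ‖S x‖ ≤ R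
  hTs : ∀ᵐ x ∂(volume : Measure (E d)), x ∈ K → IsSubgradOn K φ x (T x)
  hSs : ∀ᵐ x ∂(volume : Measure (E d)), x ∈ K → IsSubgradOn K ψ x (S x)
  hRK : ∀ x ∈ K, ‖x‖ ≤ RK

variable {K : Set (E d)} {φ ψ : E d → ℝ} {T S : E d → E d} {R RK : ℝ}

theorem PotData.gap_measurable (h : PotData K φ ψ T S R RK) : Measurable (gapFun K φ ψ T S) := by
  have hc := (legDiff_continuous h.hK h.hne h.hφ h.hψ h.hRK).measurable
  exact (hc.comp h.hTm).sub (hc.comp h.hSm)

theorem PotData.gap_nonneg (h : PotData K φ ψ T S R RK) :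
    ∀ᵐ x ∂(volume : Measure (E d)), x ∈ K → 0 ≤ gapFun K φ ψ T S x := by
  filter_upwards [h.hTs, h.hSs] with x h1 h2 hx
  exact (gap_bound h.hK h.hφ h.hψ hx hx (h1 hx) (h2 hx) (h1 hx) (h2 hx)).2.2

theorem PotData.gap_le (h : PotData K φ ψ T S R RK) :
    ∀ᵐ x ∂(volume : Measure (E d)), x ∈ K → gapFun K φ ψ T S x ≤ 2 * RK * (2 * R) := by
  have hRK0 : 0 ≤ RK := (norm_nonneg _).trans (h.hRK _ h.hne.some_mem)
  filter_upwards [h.hTb, h.hSb] with x h1 h2 hx
  have h3 := legDiff_lipschitz h.hK h.hne h.hφ h.hψ h.hRK (T x) (S x)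
  have h4 : ‖T x - S x‖ ≤ 2 * R := by
    calc ‖T x - S x‖ ≤ ‖T x‖ + ‖S x‖ := norm_sub_le _ _
      _ ≤ 2 * R := by linarith [h1 hx, h2 hx]
  unfold gapFun
  calc _ ≤ 2 * RK * ‖T x - S x‖ := h3
    _ ≤ _ := mul_le_mul_of_nonneg_left h4 (by positivity)

theorem PotData.gap_integrableOn (h : PotData K φ ψ T S R RK) :
    IntegrableOn (gapFun K φ ψ T S) K volume := by
  have hRK0 : 0 ≤ RK := (norm_nonneg _).trans (h.hRK _ h.hne.some_mem)
  refine integrableOn_of_ae_bound h.hK h.gap_measurable (C := 2 * RK * (2 * R)) ?_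
  filter_upwards [h.gap_nonneg, h.gap_le] with x h1 h2 hx
  rw [abs_of_nonneg (h1 hx)]
  exact h2 hx

/-- The pointwise inequality at almost every point of the shifted set. -/
theorem PotData.pointwise (h : PotData K φ ψ T S R RK) {δ : ℝ} (hδ : 0 < δ) (e : E d) :
    ∀ᵐ x ∂(volume : Measure (E d)), x ∈ shiftIn K δ e →
      |inner ℝ (T x - S x) e| ≤
        (inner ℝ (S x) e - inner ℝ (S (x - δ • e)) e) +
        (inner ℝ (T x) e - inner ℝ (T (x - δ • e)) e) + gapFun K φ ψ T S x / δ := by
  have shiftae : ∀ {P : E d → Prop}, (∀ᵐ x ∂(volume : Measure (E d)), P x) →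
      ∀ᵐ x ∂(volume : Measure (E d)), P (x - δ • e) := fun hP =>
    (measurePreserving_sub_right volume (δ • e)).quasiMeasurePreserving.ae hP
  filter_upwards [h.hTs, h.hSs, shiftae h.hTs, shiftae h.hSs] with x h1 h2 h3 h4 hx
  have hxK := hx.1
  have hzK := hx.2
  set z := x - δ • e with hz
  have hxz : x - z = δ • e := by rw [hz]; abel
  obtain ⟨g1, g2, g3⟩ := gap_bound h.hK h.hφ h.hψ hxK hzK (h1 hxK) (h2 hxK) (h3 hzK) (h4 hzK)
  have m1 := subgrad_mono hxK hzK (h2 hxK) (h4 hzK)
  have m2 := subgrad_mono hxK hzK (h1 hxK) (h3 hzK)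
  rw [hxz, inner_smul_right] at g1 g2 m1 m2
  rw [inner_sub_left] at g1 g2 m1 m2
  rw [inner_sub_left]
  have hG : gapFun K φ ψ T S x / δ = (legDiff K φ ψ (T x) - legDiff K φ ψ (S x)) / δ := rfl
  rw [hG]
  have g1' : inner ℝ (S z) e - inner ℝ (T x) e ≤
      (legDiff K φ ψ (T x) - legDiff K φ ψ (S x)) / δ := by
    rw [le_div_iff₀ hδ]; linarith
  have g2' : inner ℝ (T z) e - inner ℝ (S x) e ≤
      (legDiff K φ ψ (T x) - legDiff K φ ψ (S x)) / δ := by
    rw [le_div_iff₀ hδ]; linarith
  have m1' : 0 ≤ inner ℝ (S x) e - inner ℝ (S z) e := nonneg_of_mul_nonneg_right m1 hδ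
  have m2' : 0 ≤ inner ℝ (T x) e - inner ℝ (T z) e := nonneg_of_mul_nonneg_right m2 hδ
  rw [abs_le]
  constructor <;> linarith


/-- The integrated estimate in a unit direction `e`. -/
theorem PotData.direction (h : PotData K φ ψ T S R RK) (hconv : Convex ℝ K) {c : E d} {r δ : ℝ}
    (hr : 0 < r) (hball : closedBall c r ⊆ K) (hδ : 0 < δ) (hδr : δ ≤ r) {e : E d} (he : ‖e‖ = 1) :
    ∫ x in K, |inner ℝ (T x - S x) e| ≤
      6 * R * ((volume K).toReal * (d * δ / r)) + (∫ x in K, gapFun K φ ψ T S x) / δ := by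
  have hK := h.hK
  have hKm := hK.isClosed.measurableSet
  set A := shiftIn K δ e with hA
  set A' := shiftIn K (-δ) e with hA'
  have hmA : MeasurableSet A := measurableSet_shiftIn hK δ e
  have hmA' : MeasurableSet A' := measurableSet_shiftIn hK (-δ) e
  have hAK : A ⊆ K := shiftIn_subset K δ e
  have hA'K : A' ⊆ K := shiftIn_subset K (-δ) e
  have hR0 : 0 ≤ R := by
    have hvol : 0 < volume K :=
      lt_of_lt_of_le (measure_closedBall_pos volume c hr) (measure_mono hball)
    have : ∃ x, x ∈ K ∧ ‖T x‖ ≤ R := by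
      by_contra hcon
      push Not at hcon
      have h0 : volume K = 0 := by
        apply measure_mono_null (t := {x | ¬ (x ∈ K → ‖T x‖ ≤ R)})
        · intro x hx
          simp only [mem_ofPred_eq, not_forall, not_le]
          exact ⟨hx, hcon x hx⟩
        · exact h.hTb
      exact hvol.ne' h0
    obtain ⟨x, _, hx⟩ := this
    exact (norm_nonneg _).trans hx
  -- the layers
  have layer1 : (volume (K \ A)).toReal ≤ (volume K).toReal * (d * δ / r) :=
    layer_measure_le hK hconv hr hball hδ hδr he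
  have layer2 : (volume (K \ A')).toReal ≤ (volume K).toReal * (d * δ / r) := by
    have e1 : A' = shiftIn K δ (-e) := by
      ext x
      simp only [hA', shiftIn, mem_ofPred_eq, neg_smul, smul_neg]
    rw [e1]
    exact layer_measure_le hK hconv hr hball hδ hδr (by rwa [norm_neg])
  set b := (volume K).toReal * (d * δ / r) with hb
  -- measurability and bounds of the coordinates
  have hinnerm : ∀ {F : E d → E d}, Measurable F → Measurable fun x => inner ℝ (F x) e := by
    intro F hF
    exact (continuous_id.inner continuous_const).measurable.comp hF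
  have hbd : ∀ {F : E d → E d}, (∀ᵐ x ∂(volume : Measure (E d)), x ∈ K → ‖F x‖ ≤ R) →
      ∀ᵐ x ∂(volume : Measure (E d)), x ∈ K → |inner ℝ (F x) e| ≤ R := by
    intro F hF
    filter_upwards [hF] with x hx hxK
    exact (abs_inner_le_of_unit he).trans (hx hxK)
  have hsm := hinnerm h.hSm
  have htm := hinnerm h.hTm
  have hsb := hbd h.hSb
  have htb := hbd h.hTb
  have hsint := integrableOn_of_ae_bound hK hsm hsb
  have htint := integrableOn_of_ae_bound hK htm htb
  have hGint := h.gap_integrableOn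
  -- shifted integrability
  have shiftint : ∀ {f : E d → ℝ}, Measurable f →
      (∀ᵐ x ∂(volume : Measure (E d)), x ∈ K → |f x| ≤ R) →
      IntegrableOn (fun x => f (x - δ • e)) A volume := by
    intro f hf hfb
    refine Measure.integrableOn_of_bounded
      ((measure_mono hAK).trans_lt hK.measure_lt_top).ne
      (hf.comp (measurable_id.sub_const _)).aestronglyMeasurable (M := R) ?_
    rw [ae_restrict_iff' hmA]
    have := (measurePreserving_sub_right (volume : Measure (E d)) (δ • e)).quasiMeasurePreserving.ae hfb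
    filter_upwards [this] with x hx hxA
    simpa using hx hxA.2
  have hsint' := shiftint hsm hsb
  have htint' := shiftint htm htb
  -- the difference function is integrable
  have hdm : Measurable fun x => |inner ℝ (T x - S x) e| :=
    ((continuous_id.inner continuous_const).measurable.comp (h.hTm.sub h.hSm)).abs
  have hdb : ∀ᵐ x ∂(volume : Measure (E d)), x ∈ K → |(|inner ℝ (T x - S x) e|)| ≤ 2 * R := by
    filter_upwards [h.hTb, h.hSb] with x h1 h2 hxK
    rw [abs_abs]
    calc |inner ℝ (T x - S x) e| ≤ ‖T x - S x‖ := abs_inner_le_of_unit he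
      _ ≤ ‖T x‖ + ‖S x‖ := norm_sub_le _ _
      _ ≤ 2 * R := by linarith [h1 hxK, h2 hxK]
  have hdint := integrableOn_of_ae_bound hK hdm hdb
  -- split into the shifted set and the layer
  have hsplit : ∫ x in K, |inner ℝ (T x - S x) e| =
      (∫ x in A, |inner ℝ (T x - S x) e|) + ∫ x in K \ A, |inner ℝ (T x - S x) e| := by
    rw [setIntegral_sdiff hmA hdint hAK]
    ring
  have hlayer : ∫ x in K \ A, |inner ℝ (T x - S x) e| ≤ 2 * R * b := by
    have hlt : volume (K \ A) < ∞ := (measure_mono sdiff_subset).trans_lt hK.measure_lt_top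
    have hm : MeasurableSet (K \ A) := hKm.diff hmA
    have h1 := norm_setIntegral_le_of_norm_le_const_ae (μ := volume) (s := K \ A)
      (f := fun x => |inner ℝ (T x - S x) e|) (C := 2 * R) hlt (by
        rw [ae_restrict_iff' hm]
        filter_upwards [hdb] with x hx hxA
        simpa using hx hxA.1)
    have h2 : (∫ x in K \ A, |inner ℝ (T x - S x) e|) ≤
        2 * R * (volume (K \ A)).toReal := by
      simpa [Measure.real] using (le_abs_self _).trans h1
    refine h2.trans (mul_le_mul_of_nonneg_left layer1 (by positivity))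
  -- integrate the pointwise inequality on the shifted set
  have hmain : ∫ x in A, |inner ℝ (T x - S x) e| ≤
      ∫ x in A, ((inner ℝ (S x) e - inner ℝ (S (x - δ • e)) e) +
        (inner ℝ (T x) e - inner ℝ (T (x - δ • e)) e) + gapFun K φ ψ T S x / δ) := by
    refine setIntegral_mono_ae_restrict (hdint.mono_set hAK) ?_ ?_
    · exact ((hsint.mono_set hAK).sub hsint').add (htint.mono_set hAK |>.sub htint') |>.add
        ((hGint.mono_set hAK).div_const δ)
    · rw [Filter.EventuallyLE, ae_restrict_iff' hmA]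
      exact h.pointwise hδ e
  have hsplit2 : ∫ x in A, ((inner ℝ (S x) e - inner ℝ (S (x - δ • e)) e) +
        (inner ℝ (T x) e - inner ℝ (T (x - δ • e)) e) + gapFun K φ ψ T S x / δ) =
      ((∫ x in A, inner ℝ (S x) e) - ∫ x in A, inner ℝ (S (x - δ • e)) e) +
      ((∫ x in A, inner ℝ (T x) e) - ∫ x in A, inner ℝ (T (x - δ • e)) e) +
      (∫ x in A, gapFun K φ ψ T S x) / δ := by
    have i1 : IntegrableOn (fun x => inner ℝ (S x) e - inner ℝ (S (x - δ • e)) e) A volume :=
      (hsint.mono_set hAK).sub hsint'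
    have i2 : IntegrableOn (fun x => inner ℝ (T x) e - inner ℝ (T (x - δ • e)) e) A volume :=
      (htint.mono_set hAK).sub htint'
    have i3 : IntegrableOn (fun x => gapFun K φ ψ T S x / δ) A volume :=
      (hGint.mono_set hAK).div_const δ
    have e1 := integral_add (μ := volume.restrict A) (i1.add i2) i3
    have e2 := integral_add (μ := volume.restrict A) i1 i2
    have e3 := integral_sub (μ := volume.restrict A) (hsint.mono_set hAK) hsint'
    have e4 := integral_sub (μ := volume.restrict A) (htint.mono_set hAK) htint'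
    have e5 := integral_div (μ := volume.restrict A) δ (fun x => gapFun K φ ψ T S x)
    simp only [Pi.add_apply] at e1 e2 
    rw [e1, e2, e3, e4, e5]
  have ts : (∫ x in A, inner ℝ (S x) e) - (∫ x in A, inner ℝ (S (x - δ • e)) e) ≤ 2 * R * b := by
    rw [setIntegral_shift hK (fun x => inner ℝ (S x) e) δ e]
    have := telescoping_bound hK hsm hsb δ e
    nlinarith [mul_le_mul_of_nonneg_left layer1 hR0, mul_le_mul_of_nonneg_left layer2 hR0]
  have tt : (∫ x in A, inner ℝ (T x) e) - (∫ x in A, inner ℝ (T (x - δ • e)) e) ≤ 2 * R * b := by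
    rw [setIntegral_shift hK (fun x => inner ℝ (T x) e) δ e]
    have := telescoping_bound hK htm htb δ e
    nlinarith [mul_le_mul_of_nonneg_left layer1 hR0, mul_le_mul_of_nonneg_left layer2 hR0]
  have hGle : ∫ x in A, gapFun K φ ψ T S x ≤ ∫ x in K, gapFun K φ ψ T S x := by
    apply setIntegral_mono_set hGint
    · rw [Filter.EventuallyLE, ae_restrict_iff' hKm]
      filter_upwards [h.gap_nonneg] with x hx hxK
      exact hx hxK
    · exact hAK.eventuallyLE
  have hGdiv : (∫ x in A, gapFun K φ ψ T S x) / δ ≤ (∫ x in K, gapFun K φ ψ T S x) / δ :=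
    div_le_div_of_nonneg_right hGle hδ.le
  rw [hsplit]
  linarith

end Vale.Agent.P074
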