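import Vale.Agent.P074.Path

/-!
# The estimate from potentials in terms of the `L²` norm of the gap
-/

open MeasureTheory Set Metric Filter Topology
open scoped ENNReal NNReal

set_option linter.unusedSectionVars false
set_option linter.unusedSimpArgs false
set_option linter.unusedVariables false

namespace Vale.Agent.P074

variable {d : ℕ} {K : Set (E d)} {φ ψ : E d → ℝ} {T S : E d → E d} {R RK : ℝ}

/-- The pointwise inequality with the nonnegativity of the monotone differences. -/
theorem PotData.pointwise2 (h : PotData K φ ψ T S R RK) {δ : ℝ} (hδ : 0 < δ) (e : E d) :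
    ∀ᵐ x ∂(volume : Measure (E d)), x ∈ shiftIn K δ e →
      0 ≤ inner ℝ (S x) e - inner ℝ (S (x - δ • e)) e ∧
      0 ≤ inner ℝ (T x) e - inner ℝ (T (x - δ • e)) e ∧
      |inner ℝ (T x - S x) e| ≤
        (inner ℝ (S x) e - inner ℝ (S (x - δ • e)) e) +
        (inner ℝ (T x) e - inner ℝ (T (x - δ • e)) e) + gapFun K φ ψ T S x / δ := by
  have shiftae : ∀ {P : E d → Prop}, (∀ᵐ x ∂(volume : Measure (E d)), P x) →
      ∀ᵐ x ∂(volume : Measure (E d)), P (x - δ • e) := fun hP =>
    (measurePreserving_sub_right volume (δ • e)).quasiMeasurePreserving.ae hP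
  filter_upwards [h.hTs, h.hSs, shiftae h.hTs, shiftae h.hSs] with x h1 h2 h3 h4 hx
  have hxK := hx.1
  have hzK := hx.2
  set z := x - δ • e with hz
  have hxz : x - z = δ • e := by rw [hz]; abel
  obtain ⟨g1, g2, g3⟩ := gap_bound h.hK h.hφ h.hψ hxK hzK (h1 hxK) (h2 hxK) (h3 hzK) (h4 hzK)
  have m1 := subgrad_mono hxK hzK (h2 hxK) (h4 hzK)
  have m2 := subgrad_mono hxK hzK (h1 hxK) (h3 hzK)
  rw [hxz, inner_smul_right] at g1 g2 m1 m2
  rw [inner_sub_left] at g1 g2 m1 m2
  rw [inner_sub_left]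
  have hG : gapFun K φ ψ T S x / δ = (legDiff K φ ψ (T x) - legDiff K φ ψ (S x)) / δ := rfl
  rw [hG]
  have g1' : inner ℝ (S z) e - inner ℝ (T x) e ≤
      (legDiff K φ ψ (T x) - legDiff K φ ψ (S x)) / δ := by
    rw [le_div_iff₀ hδ]; linarith
  have g2' : inner ℝ (T z) e - inner ℝ (S x) e ≤
      (legDiff K φ ψ (T x) - legDiff K φ ψ (S x)) / δ := by
    rw [le_div_iff₀ hδ]; linarith
  have m1' : 0 ≤ inner ℝ (S x) e - inner ℝ (S z) e := nonneg_of_mul_nonneg_right m1 hδ
  have m2' : 0 ≤ inner ℝ (T x) e - inner ℝ (T z) e := nonneg_of_mul_nonneg_right m2 hδ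
  refine ⟨m1', m2', ?_⟩
  rw [abs_le]
  constructor <;> linarith

theorem PotData.R_nonneg (h : PotData K φ ψ T S R RK) (hpos : volume K ≠ 0) : 0 ≤ R := by
  have : ∃ x, x ∈ K ∧ ‖T x‖ ≤ R := by
    by_contra hcon
    push Not at hcon
    have h0 : volume K = 0 := by
      apply measure_mono_null (t := {x | ¬ (x ∈ K → ‖T x‖ ≤ R)})
      · intro x hx
        simp only [mem_ofPred_eq, not_forall, not_le]
        exact ⟨hx, hcon x hx⟩
      · exact h.hTb
    exact hpos h0
  obtain ⟨x, _, hx⟩ := this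
  exact (norm_nonneg _).trans hx

/-- The weighted integrated estimate in a unit direction `e`. -/
theorem PotData.direction2 (h : PotData K φ ψ T S R RK) (hconv : Convex ℝ K) {c : E d} {r δ : ℝ}
    (hr : 0 < r) (hball : closedBall c r ⊆ K) (hδ : 0 < δ) (hδr : δ ≤ r) {e : E d} (he : ‖e‖ = 1) :
    ∫ x in K, ‖T x - S x‖ * |inner ℝ (T x - S x) e| ≤
      12 * R ^ 2 * ((volume K).toReal * (d * δ / r)) +
        (∫ x in K, ‖T x - S x‖ * gapFun K φ ψ T S x) / δ := by
  have hK := h.hK
  have hKm := hK.isClosed.measurableSet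
  set A := shiftIn K δ e with hA
  set A' := shiftIn K (-δ) e with hA'
  have hmA : MeasurableSet A := measurableSet_shiftIn hK δ e
  have hmA' : MeasurableSet A' := measurableSet_shiftIn hK (-δ) e
  have hAK : A ⊆ K := shiftIn_subset K δ e
  have hA'K : A' ⊆ K := shiftIn_subset K (-δ) e
  have hvol : 0 < volume K :=
    lt_of_lt_of_le (measure_closedBall_pos volume c hr) (measure_mono hball)
  have hR0 : 0 ≤ R := h.R_nonneg hvol.ne'
  have layer1 : (volume (K \ A)).toReal ≤ (volume K).toReal * (d * δ / r) :=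
    layer_measure_le hK hconv hr hball hδ hδr he
  have layer2 : (volume (K \ A')).toReal ≤ (volume K).toReal * (d * δ / r) := by
    have e1 : A' = shiftIn K δ (-e) := by
      ext x
      simp only [hA', shiftIn, mem_ofPred_eq, neg_smul, smul_neg]
    rw [e1]
    exact layer_measure_le hK hconv hr hball hδ hδr (by rwa [norm_neg])
  set b := (volume K).toReal * (d * δ / r) with hb
  have hinnerm : ∀ {F : E d → E d}, Measurable F → Measurable fun x => inner ℝ (F x) e := by
    intro F hF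
    exact (continuous_id.inner continuous_const).measurable.comp hF
  have hbd : ∀ {F : E d → E d}, (∀ᵐ x ∂(volume : Measure (E d)), x ∈ K → ‖F x‖ ≤ R) →
      ∀ᵐ x ∂(volume : Measure (E d)), x ∈ K → |inner ℝ (F x) e| ≤ R := by
    intro F hF
    filter_upwards [hF] with x hx hxK
    exact (abs_inner_le_of_unit he).trans (hx hxK)
  have hsm := hinnerm h.hSm
  have htm := hinnerm h.hTm
  have hsb := hbd h.hSb
  have htb := hbd h.hTb
  have hsint := integrableOn_of_ae_bound hK hsm hsb
  have htint := integrableOn_of_ae_bound hK htm htb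
  have shiftint : ∀ {f : E d → ℝ}, Measurable f →
      (∀ᵐ x ∂(volume : Measure (E d)), x ∈ K → |f x| ≤ R) →
      IntegrableOn (fun x => f (x - δ • e)) A volume := by
    intro f hf hfb
    refine Measure.integrableOn_of_bounded
      ((measure_mono hAK).trans_lt hK.measure_lt_top).ne
      (hf.comp (measurable_id.sub_const _)).aestronglyMeasurable (M := R) ?_
    rw [ae_restrict_iff' hmA]
    have := (measurePreserving_sub_right (volume : Measure (E d)) (δ • e)).quasiMeasurePreserving.ae hfb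
    filter_upwards [this] with x hx hxA
    simpa using hx hxA.2
  have hsint' := shiftint hsm hsb
  have htint' := shiftint htm htb
  have hnorm := h.diff_norm_le
  -- the weighted functions
  have hFm : Measurable fun x => ‖T x - S x‖ := (h.hTm.sub h.hSm).norm
  have hdm : Measurable fun x => ‖T x - S x‖ * |inner ℝ (T x - S x) e| :=
    hFm.mul ((continuous_id.inner continuous_const).measurable.comp (h.hTm.sub h.hSm)).abs
  have hdb : ∀ᵐ x ∂(volume : Measure (E d)), x ∈ K →
      |(‖T x - S x‖ * |inner ℝ (T x - S x) e|)| ≤ (2 * R) ^ 2 := by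
    filter_upwards [hnorm] with x h1 hxK
    have h2 := h1 hxK
    have h3 := abs_inner_le_of_unit (v := T x - S x) he
    rw [abs_of_nonneg (by positivity), sq]
    exact mul_le_mul h2 (h3.trans h2) (abs_nonneg _) (by positivity)
  have hdint := integrableOn_of_ae_bound hK hdm hdb
  have hGm := h.gap_measurable
  have hGnn := h.gap_nonneg
  have hGle := h.gap_le
  have hRK0 : 0 ≤ RK := (norm_nonneg _).trans (h.hRK _ h.hne.some_mem)
  have hWm : Measurable fun x => ‖T x - S x‖ * gapFun K φ ψ T S x := hFm.mul hGm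
  have hWb : ∀ᵐ x ∂(volume : Measure (E d)), x ∈ K →
      |(‖T x - S x‖ * gapFun K φ ψ T S x)| ≤ 2 * R * (2 * RK * (2 * R)) := by
    filter_upwards [hnorm, hGnn, hGle] with x h1 h2 h3 hxK
    rw [abs_of_nonneg (mul_nonneg (norm_nonneg _) (h2 hxK))]
    exact mul_le_mul (h1 hxK) (h3 hxK) (h2 hxK) (by positivity)
  have hWint := integrableOn_of_ae_bound hK hWm hWb
  -- split into the shifted set and the layer
  have hsplit : ∫ x in K, ‖T x - S x‖ * |inner ℝ (T x - S x) e| =
      (∫ x in A, ‖T x - S x‖ * |inner ℝ (T x - S x) e|) +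
        ∫ x in K \ A, ‖T x - S x‖ * |inner ℝ (T x - S x) e| := by
    rw [setIntegral_sdiff hmA hdint hAK]
    ring
  have hlayer : ∫ x in K \ A, ‖T x - S x‖ * |inner ℝ (T x - S x) e| ≤ (2 * R) ^ 2 * b := by
    have hlt : volume (K \ A) < ∞ := (measure_mono sdiff_subset).trans_lt hK.measure_lt_top
    have hm : MeasurableSet (K \ A) := hKm.diff hmA
    have h1 := norm_setIntegral_le_of_norm_le_const_ae (μ := volume) (s := K \ A)
      (f := fun x => ‖T x - S x‖ * |inner ℝ (T x - S x) e|) (C := (2 * R) ^ 2) hlt (by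
        rw [ae_restrict_iff' hm]
        filter_upwards [hdb] with x hx hxA
        simpa using hx hxA.1)
    have h2 : (∫ x in K \ A, ‖T x - S x‖ * |inner ℝ (T x - S x) e|) ≤
        (2 * R) ^ 2 * (volume (K \ A)).toReal := by
      simpa [Measure.real] using (le_abs_self _).trans h1
    refine h2.trans (mul_le_mul_of_nonneg_left layer1 (by positivity))
  -- integrate the pointwise inequality on the shifted set
  have hmain : ∫ x in A, ‖T x - S x‖ * |inner ℝ (T x - S x) e| ≤
      ∫ x in A, (2 * R * ((inner ℝ (S x) e - inner ℝ (S (x - δ • e)) e) +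
        (inner ℝ (T x) e - inner ℝ (T (x - δ • e)) e)) +
          (‖T x - S x‖ * gapFun K φ ψ T S x) / δ) := by
    refine setIntegral_mono_ae_restrict (hdint.mono_set hAK) ?_ ?_
    · exact ((((hsint.mono_set hAK).sub hsint').add (htint.mono_set hAK |>.sub htint')).const_mul _).add
        ((hWint.mono_set hAK).div_const δ)
    · rw [Filter.EventuallyLE, ae_restrict_iff' hmA]
      filter_upwards [h.pointwise2 hδ e, hnorm, hGnn] with x h1 h2 h3 hxA
      obtain ⟨a1, a2, a3⟩ := h1 hxA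
      have h4 := h2 hxA.1
      have h5 := h3 hxA.1
      have h6 := mul_le_mul_of_nonneg_left a3 (norm_nonneg (T x - S x))
      have h7 : ‖T x - S x‖ * ((inner ℝ (S x) e - inner ℝ (S (x - δ • e)) e) +
        (inner ℝ (T x) e - inner ℝ (T (x - δ • e)) e)) ≤ 2 * R * ((inner ℝ (S x) e - inner ℝ (S (x - δ • e)) e) +
        (inner ℝ (T x) e - inner ℝ (T (x - δ • e)) e)) :=
        mul_le_mul_of_nonneg_right h4 (add_nonneg a1 a2)
      have e1 : ‖T x - S x‖ * ((inner ℝ (S x) e - inner ℝ (S (x - δ • e)) e) +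
        (inner ℝ (T x) e - inner ℝ (T (x - δ • e)) e) + gapFun K φ ψ T S x / δ) =
        ‖T x - S x‖ * ((inner ℝ (S x) e - inner ℝ (S (x - δ • e)) e) +
        (inner ℝ (T x) e - inner ℝ (T (x - δ • e)) e)) + (‖T x - S x‖ * gapFun K φ ψ T S x) / δ := by
        ring
      rw [e1] at h6
      linarith
  have hsplit2 : ∫ x in A, (2 * R * ((inner ℝ (S x) e - inner ℝ (S (x - δ • e)) e) +
        (inner ℝ (T x) e - inner ℝ (T (x - δ • e)) e)) +
          (‖T x - S x‖ * gapFun K φ ψ T S x) / δ) =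
      2 * R * (((∫ x in A, inner ℝ (S x) e) - ∫ x in A, inner ℝ (S (x - δ • e)) e) +
      ((∫ x in A, inner ℝ (T x) e) - ∫ x in A, inner ℝ (T (x - δ • e)) e)) +
      (∫ x in A, ‖T x - S x‖ * gapFun K φ ψ T S x) / δ := by
    have i1 : IntegrableOn (fun x => inner ℝ (S x) e - inner ℝ (S (x - δ • e)) e) A volume :=
      (hsint.mono_set hAK).sub hsint'
    have i2 : IntegrableOn (fun x => inner ℝ (T x) e - inner ℝ (T (x - δ • e)) e) A volume :=
      (htint.mono_set hAK).sub htint'
    have i3 : IntegrableOn (fun x => (‖T x - S x‖ * gapFun K φ ψ T S x) / δ) A volume :=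
      (hWint.mono_set hAK).div_const δ
    have e1 := integral_add (μ := volume.restrict A) ((i1.add i2).const_mul (2 * R)) i3
    have e2 := integral_add (μ := volume.restrict A) i1 i2
    have e3 := integral_sub (μ := volume.restrict A) (hsint.mono_set hAK) hsint'
    have e4 := integral_sub (μ := volume.restrict A) (htint.mono_set hAK) htint'
    have e5 := integral_div (μ := volume.restrict A) δ (fun x => ‖T x - S x‖ * gapFun K φ ψ T S x)
    simp only [Pi.add_apply] at e1 e2
    rw [e1, integral_const_mul, e2, e3, e4, e5]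
  have ts : (∫ x in A, inner ℝ (S x) e) - (∫ x in A, inner ℝ (S (x - δ • e)) e) ≤ 2 * R * b := by
    rw [setIntegral_shift hK (fun x => inner ℝ (S x) e) δ e]
    have := telescoping_bound hK hsm hsb δ e
    nlinarith [mul_le_mul_of_nonneg_left layer1 hR0, mul_le_mul_of_nonneg_left layer2 hR0]
  have tt : (∫ x in A, inner ℝ (T x) e) - (∫ x in A, inner ℝ (T (x - δ • e)) e) ≤ 2 * R * b := by
    rw [setIntegral_shift hK (fun x => inner ℝ (T x) e) δ e]
    have := telescoping_bound hK htm htb δ e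
    nlinarith [mul_le_mul_of_nonneg_left layer1 hR0, mul_le_mul_of_nonneg_left layer2 hR0]
  have hGle2 : ∫ x in A, ‖T x - S x‖ * gapFun K φ ψ T S x ≤
      ∫ x in K, ‖T x - S x‖ * gapFun K φ ψ T S x := by
    apply setIntegral_mono_set hWint
    · rw [Filter.EventuallyLE, ae_restrict_iff' hKm]
      filter_upwards [hGnn] with x hx hxK
      exact mul_nonneg (norm_nonneg _) (hx hxK)
    · exact hAK.eventuallyLE
  have hGdiv : (∫ x in A, ‖T x - S x‖ * gapFun K φ ψ T S x) / δ ≤
      (∫ x in K, ‖T x - S x‖ * gapFun K φ ψ T S x) / δ :=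
    div_le_div_of_nonneg_right hGle2 hδ.le
  have hts2 : 2 * R * (((∫ x in A, inner ℝ (S x) e) - ∫ x in A, inner ℝ (S (x - δ • e)) e) +
      ((∫ x in A, inner ℝ (T x) e) - ∫ x in A, inner ℝ (T (x - δ • e)) e)) ≤
      2 * R * (2 * R * b + 2 * R * b) :=
    mul_le_mul_of_nonneg_left (add_le_add ts tt) (by positivity)
  rw [hsplit]
  have : 12 * R ^ 2 * b = 2 * R * (2 * R * b + 2 * R * b) + (2 * R) ^ 2 * b := by ring
  rw [this]
  linarith

/-- Summation over the coordinate directions. -/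
theorem PotData.integral_sq_le2 (h : PotData K φ ψ T S R RK) (hconv : Convex ℝ K) {c : E d}
    {r δ : ℝ} (hr : 0 < r) (hball : closedBall c r ⊆ K) (hδ : 0 < δ) (hδr : δ ≤ r) :
    ∫ x in K, ‖T x - S x‖ ^ 2 ≤
      d * (12 * R ^ 2 * ((volume K).toReal * (d * δ / r)) +
        (∫ x in K, ‖T x - S x‖ * gapFun K φ ψ T S x) / δ) := by
  have hK := h.hK
  have hKm := hK.isClosed.measurableSet
  have hsq : Measurable fun x => ‖T x - S x‖ ^ 2 := ((h.hTm.sub h.hSm).norm).pow_const 2
  have hdb := h.diff_norm_le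
  have hvol : 0 < volume K :=
    lt_of_lt_of_le (measure_closedBall_pos volume c hr) (measure_mono hball)
  have hR0 : 0 ≤ R := h.R_nonneg hvol.ne'
  have hint1 : IntegrableOn (fun x => ‖T x - S x‖ ^ 2) K volume := by
    refine integrableOn_of_ae_bound hK hsq (C := (2 * R) ^ 2) ?_
    filter_upwards [hdb] with x hx hxK
    rw [abs_of_nonneg (by positivity)]
    exact pow_le_pow_left₀ (norm_nonneg _) (hx hxK) 2
  have hFm : Measurable fun x => ‖T x - S x‖ := (h.hTm.sub h.hSm).norm
  have hinti : ∀ i : Fin d, IntegrableOn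
      (fun x => ‖T x - S x‖ * |inner ℝ (T x - S x) (EuclideanSpace.single i (1 : ℝ))|) K volume := by
    intro i
    refine integrableOn_of_ae_bound hK (hFm.mul (h.diff_measurable i)) (C := (2 * R) ^ 2) ?_
    filter_upwards [hdb] with x hx hxK
    have h3 := abs_inner_le_of_unit (v := T x - S x)
      (e := EuclideanSpace.single i (1 : ℝ)) (by simp)
    rw [abs_of_nonneg (by positivity), sq]
    exact mul_le_mul (hx hxK) (h3.trans (hx hxK)) (abs_nonneg _) (by positivity)
  have hptw : ∀ x, ‖T x - S x‖ ^ 2 ≤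
      ∑ i : Fin d, ‖T x - S x‖ * |inner ℝ (T x - S x) (EuclideanSpace.single i (1 : ℝ))| := by
    intro x
    rw [← Finset.mul_sum, sq]
    exact mul_le_mul_of_nonneg_left (norm_le_sum_inner _) (norm_nonneg _)
  have hstep : ∫ x in K, ‖T x - S x‖ ^ 2 ≤
      ∫ x in K, ∑ i : Fin d, ‖T x - S x‖ * |inner ℝ (T x - S x) (EuclideanSpace.single i (1 : ℝ))| := by
    refine setIntegral_mono_on hint1 (integrable_finsetSum _ fun i _ => hinti i) hKm
      fun x _ => hptw x
  rw [integral_finsetSum _ fun i _ => hinti i] at hstep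
  refine hstep.trans ?_
  have hdir : ∀ i ∈ (Finset.univ : Finset (Fin d)),
      ∫ x in K, ‖T x - S x‖ * |inner ℝ (T x - S x) (EuclideanSpace.single i (1 : ℝ))| ≤
      12 * R ^ 2 * ((volume K).toReal * (d * δ / r)) +
        (∫ x in K, ‖T x - S x‖ * gapFun K φ ψ T S x) / δ := by
    intro i _
    exact h.direction2 hconv hr hball hδ hδr (by simp)
  have := Finset.sum_le_sum hdir
  simp only [Finset.sum_const, Finset.card_univ, Fintype.card_fin, nsmul_eq_mul] at this
  exact this

/-- Cauchy-Schwarz for a product on a set. -/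
theorem setIntegral_mul_le {S' : Set (E d)} (hm : MeasurableSet S') {f g : E d → ℝ}
    (hf2 : IntegrableOn (fun x => f x ^ 2) S') (hg2 : IntegrableOn (fun x => g x ^ 2) S')
    (hfg : IntegrableOn (fun x => f x * g x) S') :
    ∫ x in S', f x * g x ≤
      Real.sqrt (∫ x in S', f x ^ 2) * Real.sqrt (∫ x in S', g x ^ 2) := by
  have hi : ∀ t : ℝ, 0 ≤ (∫ x in S', g x ^ 2) * (t * t) +
      (-(2 * ∫ x in S', f x * g x)) * t + ∫ x in S', f x ^ 2 := by
    intro t
    have h0 : 0 ≤ ∫ x in S', (f x - t * g x) ^ 2 := setIntegral_nonneg hm fun x _ => by positivity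
    have e : (fun x => (f x - t * g x) ^ 2) =
        fun x => f x ^ 2 - (2 * t) * (f x * g x) + t ^ 2 * g x ^ 2 := by
      ext x; ring
    rw [e] at h0
    have i1 : IntegrableOn (fun x => (2 * t) * (f x * g x)) S' := hfg.const_mul _
    have i2 : IntegrableOn (fun x => t ^ 2 * g x ^ 2) S' := hg2.const_mul _
    have i3 : IntegrableOn (fun x => f x ^ 2 - (2 * t) * (f x * g x)) S' := hf2.sub i1
    have a1 := integral_add (μ := volume.restrict S') i3 i2
    have a2 := integral_sub (μ := volume.restrict S') hf2 i1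
    rw [a1, a2, integral_const_mul, integral_const_mul] at h0
    nlinarith
  have hd := discrim_le_zero hi
  unfold discrim at hd
  have h5 : (∫ x in S', f x * g x) ^ 2 ≤ (∫ x in S', f x ^ 2) * ∫ x in S', g x ^ 2 := by nlinarith
  have hf0 : 0 ≤ ∫ x in S', f x ^ 2 := setIntegral_nonneg hm fun x _ => by positivity
  rw [← Real.sqrt_mul hf0]
  exact Real.le_sqrt_of_sq_le h5

/-- Choice of the shift. -/
theorem optimize2 {E2 Γ A B T0 r : ℝ} (hA : 0 ≤ A) (hB : 0 ≤ B) (hT0 : 0 ≤ T0) (hr : 0 < r)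
    (hΓ : 0 ≤ Γ) (hE : E2 ≤ T0) (hδ : ∀ δ, 0 < δ → δ ≤ r → E2 ≤ A * δ + B * Γ ^ 2 / δ ^ 2) :
    E2 ≤ (A + B + T0 / r) * Γ ^ (2 / 3 : ℝ) := by
  set γ := Γ ^ (2 / 3 : ℝ) with hγ
  have hγ0 : 0 ≤ γ := Real.rpow_nonneg hΓ _
  have hγ3 : γ ^ 3 = Γ ^ 2 := by
    rw [hγ, ← Real.rpow_natCast, ← Real.rpow_mul hΓ]
    norm_num
  have hq : 0 ≤ T0 / r := by positivity
  rcases lt_or_ge r γ with h1 | h1
  · have : T0 ≤ T0 / r * γ := by
      rw [div_mul_eq_mul_div, le_div_iff₀ hr]
      exact mul_le_mul_of_nonneg_left h1.le hT0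
    nlinarith [mul_nonneg hA hγ0, mul_nonneg hB hγ0]
  · rcases hγ0.eq_or_lt with h0 | h0
    · -- vanishing gap
      rw [← h0] at hγ3 ⊢
      have hΓ0 : Γ ^ 2 = 0 := by rw [← hγ3]; norm_num
      simp only [mul_zero]
      by_contra hcon
      push Not at hcon
      set δ := min r (E2 / (2 * (A + 1))) with hδdef
      have hδ0 : 0 < δ := lt_min hr (by positivity)
      have h3 := hδ δ hδ0 (min_le_left _ _)
      rw [hΓ0] at h3
      simp only [mul_zero, zero_div, add_zero] at h3
      have h4 : δ ≤ E2 / (2 * (A + 1)) := min_le_right _ _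
      have h5 : A * δ ≤ A * (E2 / (2 * (A + 1))) := mul_le_mul_of_nonneg_left h4 hA
      have h6 : A * (E2 / (2 * (A + 1))) < E2 := by
        have : A * (E2 / (2 * (A + 1))) = E2 * (A / (2 * (A + 1))) := by ring
        rw [this]
        have h7 : A / (2 * (A + 1)) < 1 := by
          rw [div_lt_one (by positivity)]
          linarith
        nlinarith
      linarith
    · have h3 := hδ γ h0 h1
      have h4 : B * Γ ^ 2 / γ ^ 2 = B * γ := by
        rw [← hγ3]
        field_simp
      rw [h4] at h3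
      nlinarith [mul_nonneg hq hγ0]

/-- The bound by the `L²` norm of the gap. -/
theorem PotData.sq_le_gap (h : PotData K φ ψ T S R RK) (hconv : Convex ℝ K) {c : E d}
    {r : ℝ} (hr : 0 < r) (hball : closedBall c r ⊆ K) :
    ∫ x in K, ‖T x - S x‖ ^ 2 ≤
      (24 * R ^ 2 * (volume K).toReal * d ^ 2 / r + d ^ 2 +
        (2 * R) ^ 2 * (volume K).toReal / r) *
        (Real.sqrt (∫ x in K, gapFun K φ ψ T S x ^ 2)) ^ (2 / 3 : ℝ) := by
  have hK := h.hK
  have hKm := hK.isClosed.measurableSet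
  have hvol : 0 < volume K :=
    lt_of_lt_of_le (measure_closedBall_pos volume c hr) (measure_mono hball)
  have hR0 : 0 ≤ R := h.R_nonneg hvol.ne'
  set V := (volume K).toReal with hV
  have hV0 : 0 ≤ V := ENNReal.toReal_nonneg
  set E2 := ∫ x in K, ‖T x - S x‖ ^ 2 with hE2
  have hE20 : 0 ≤ E2 := integral_nonneg fun _ => by positivity
  set Γ := Real.sqrt (∫ x in K, gapFun K φ ψ T S x ^ 2) with hΓ
  have hΓ0 : 0 ≤ Γ := Real.sqrt_nonneg _
  have hG0 : 0 ≤ ∫ x in K, gapFun K φ ψ T S x ^ 2 := integral_nonneg fun _ => by positivity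
  have hΓ2 : Γ ^ 2 = ∫ x in K, gapFun K φ ψ T S x ^ 2 := Real.sq_sqrt hG0
  have hRK0 : 0 ≤ RK := (norm_nonneg _).trans (h.hRK _ h.hne.some_mem)
  have hdb := h.diff_norm_le
  have hFm : Measurable fun x => ‖T x - S x‖ := (h.hTm.sub h.hSm).norm
  have hFsq : IntegrableOn (fun x => ‖T x - S x‖ ^ 2) K volume := by
    refine integrableOn_of_ae_bound hK (hFm.pow_const 2) (C := (2 * R) ^ 2) ?_
    filter_upwards [hdb] with x hx hxK
    rw [abs_of_nonneg (by positivity)]
    exact pow_le_pow_left₀ (norm_nonneg _) (hx hxK) 2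
  have hGsq : IntegrableOn (fun x => gapFun K φ ψ T S x ^ 2) K volume := by
    refine integrableOn_of_ae_bound hK (h.gap_measurable.pow_const 2)
      (C := (2 * RK * (2 * R)) ^ 2) ?_
    filter_upwards [h.gap_nonneg, h.gap_le] with x h1 h2 hxK
    rw [abs_of_nonneg (by positivity)]
    exact pow_le_pow_left₀ (h1 hxK) (h2 hxK) 2
  have hFG : IntegrableOn (fun x => ‖T x - S x‖ * gapFun K φ ψ T S x) K volume := by
    refine integrableOn_of_ae_bound hK (hFm.mul h.gap_measurable)
      (C := 2 * R * (2 * RK * (2 * R))) ?_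
    filter_upwards [hdb, h.gap_nonneg, h.gap_le] with x h1 h2 h3 hxK
    rw [abs_of_nonneg (mul_nonneg (norm_nonneg _) (h2 hxK))]
    exact mul_le_mul (h1 hxK) (h3 hxK) (h2 hxK) (by positivity)
  have hCS := setIntegral_mul_le hKm hFsq hGsq hFG
  have hE4 : E2 ≤ (2 * R) ^ 2 * V := by
    have h1 := norm_setIntegral_le_of_norm_le_const_ae (μ := volume) (s := K)
      (f := fun x => ‖T x - S x‖ ^ 2) (C := (2 * R) ^ 2) hK.measure_lt_top (by
        rw [ae_restrict_iff' hKm]
        filter_upwards [hdb] with x hx hxK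
        rw [Real.norm_eq_abs, abs_of_nonneg (by positivity)]
        exact pow_le_pow_left₀ (norm_nonneg _) (hx hxK) 2)
    have h2 := (le_abs_self _).trans h1
    simpa [Measure.real] using h2
  have hE2s : Real.sqrt E2 * Real.sqrt E2 = E2 := Real.mul_self_sqrt hE20
  have hδall : ∀ δ, 0 < δ → δ ≤ r →
      E2 ≤ (24 * R ^ 2 * V * (d : ℝ) ^ 2 / r) * δ + (d : ℝ) ^ 2 * Γ ^ 2 / δ ^ 2 := by
    intro δ hδ hδr
    have h1 := h.integral_sq_le2 hconv hr hball hδ hδr
    have h2 : (∫ x in K, ‖T x - S x‖ * gapFun K φ ψ T S x) ≤ Real.sqrt E2 * Γ := hCS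
    have hd0 : (0 : ℝ) ≤ d := by positivity
    have h3 : (d : ℝ) * ((∫ x in K, ‖T x - S x‖ * gapFun K φ ψ T S x) / δ) ≤
        Real.sqrt E2 * (d * Γ / δ) := by
      have h4 := mul_le_mul_of_nonneg_left (div_le_div_of_nonneg_right h2 hδ.le) hd0
      refine h4.trans (le_of_eq ?_)
      ring
    have h5 : Real.sqrt E2 * (d * Γ / δ) ≤ E2 / 2 + (d * Γ / δ) ^ 2 / 2 := by
      nlinarith [sq_nonneg (Real.sqrt E2 - d * Γ / δ)]
    have h6 : (d * Γ / δ) ^ 2 = (d : ℝ) ^ 2 * Γ ^ 2 / δ ^ 2 := by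
      field_simp
    have h7 : (d : ℝ) * (12 * R ^ 2 * (V * (d * δ / r))) = 12 * R ^ 2 * V * d ^ 2 / r * δ := by
      field_simp
    rw [mul_add, h7] at h1
    rw [h6] at h5
    have e : 24 * R ^ 2 * V * (d : ℝ) ^ 2 / r * δ = 2 * (12 * R ^ 2 * V * d ^ 2 / r * δ) := by ring
    rw [e]
    linarith
  exact optimize2 (by positivity) (by positivity) (by positivity) hr hΓ0 hE4 hδall

end Vale.Agent.P074
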