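import Vale.Agent.P074.Direction

/-!
# The estimate from potentials: summing over coordinates and bounding the gap
-/

open MeasureTheory Set Metric
open scoped ENNReal NNReal

namespace Vale.Agent.P074

variable {d : ℕ}

theorem norm_le_sum_inner (v : E d) :
    ‖v‖ ≤ ∑ i : Fin d, |inner ℝ v (EuclideanSpace.single i (1 : ℝ))| := by
  have e1 : ∀ i : Fin d, |inner ℝ v (EuclideanSpace.single i (1 : ℝ))| = |v i| := by
    intro i
    simp [EuclideanSpace.inner_single_right]
  simp only [e1]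
  rw [EuclideanSpace.norm_eq]
  apply Real.sqrt_le_iff.mpr
  refine ⟨Finset.sum_nonneg fun _ _ => abs_nonneg _, ?_⟩
  simp only [Real.norm_eq_abs]
  exact Finset.sum_sq_le_sq_sum_of_nonneg fun _ _ => abs_nonneg _

variable {K : Set (E d)} {φ ψ : E d → ℝ} {T S : E d → E d} {R RK : ℝ}

theorem PotData.diff_measurable (h : PotData K φ ψ T S R RK) (i : Fin d) :
    Measurable fun x => |inner ℝ (T x - S x) (EuclideanSpace.single i (1 : ℝ))| :=
  ((continuous_id.inner continuous_const).measurable.comp (h.hTm.sub h.hSm)).abs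

theorem PotData.diff_norm_le (h : PotData K φ ψ T S R RK) :
    ∀ᵐ x ∂(volume : Measure (E d)), x ∈ K → ‖T x - S x‖ ≤ 2 * R := by
  filter_upwards [h.hTb, h.hSb] with x h1 h2 hxK
  calc ‖T x - S x‖ ≤ ‖T x‖ + ‖S x‖ := norm_sub_le _ _
    _ ≤ 2 * R := by linarith [h1 hxK, h2 hxK]

theorem PotData.integral_sq_le (h : PotData K φ ψ T S R RK) (hconv : Convex ℝ K) {c : E d}
    {r δ : ℝ} (hr : 0 < r) (hball : closedBall c r ⊆ K) (hδ : 0 < δ) (hδr : δ ≤ r) :
    ∫ x in K, ‖T x - S x‖ ^ 2 ≤
      2 * R * (d * (6 * R * ((volume K).toReal * (d * δ / r)) +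
        (∫ x in K, gapFun K φ ψ T S x) / δ)) := by
  have hK := h.hK
  have hKm := hK.isClosed.measurableSet
  have hsq : Measurable fun x => ‖T x - S x‖ ^ 2 := ((h.hTm.sub h.hSm).norm).pow_const 2
  have hdb := h.diff_norm_le
  have hR0 : 0 ≤ R := by
    have hvol : 0 < volume K :=
      lt_of_lt_of_le (measure_closedBall_pos volume c hr) (measure_mono hball)
    have : ∃ x, x ∈ K ∧ ‖T x‖ ≤ R := by
      by_contra hcon
      push Not at hcon
      have h0 : volume K = 0 := by
        apply measure_mono_null (t := {x | ¬ (x ∈ K → ‖T x‖ ≤ R)})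
        · intro x hx
          simp only [mem_ofPred_eq, not_forall, not_le]
          exact ⟨hx, hcon x hx⟩
        · exact h.hTb
      exact hvol.ne' h0
    obtain ⟨x, _, hx⟩ := this
    exact (norm_nonneg _).trans hx
  have hint1 : IntegrableOn (fun x => ‖T x - S x‖ ^ 2) K volume := by
    refine integrableOn_of_ae_bound hK hsq (C := (2 * R) ^ 2) ?_
    filter_upwards [hdb] with x hx hxK
    rw [abs_of_nonneg (by positivity)]
    exact pow_le_pow_left₀ (norm_nonneg _) (hx hxK) 2
  have hinti : ∀ i : Fin d, IntegrableOn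
      (fun x => |inner ℝ (T x - S x) (EuclideanSpace.single i (1 : ℝ))|) K volume := by
    intro i
    refine integrableOn_of_ae_bound hK (h.diff_measurable i) (C := 2 * R) ?_
    filter_upwards [hdb] with x hx hxK
    rw [abs_abs]
    refine (abs_inner_le_of_unit (by simp)).trans (hx hxK)
  have hptw : ∀ᵐ x ∂(volume : Measure (E d)), x ∈ K → ‖T x - S x‖ ^ 2 ≤
      2 * R * ∑ i : Fin d, |inner ℝ (T x - S x) (EuclideanSpace.single i (1 : ℝ))| := by
    filter_upwards [hdb] with x hx hxK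
    calc ‖T x - S x‖ ^ 2 = ‖T x - S x‖ * ‖T x - S x‖ := by ring
      _ ≤ 2 * R * ‖T x - S x‖ := mul_le_mul_of_nonneg_right (hx hxK) (norm_nonneg _)
      _ ≤ _ := mul_le_mul_of_nonneg_left (norm_le_sum_inner _) (by positivity)
  have hstep : ∫ x in K, ‖T x - S x‖ ^ 2 ≤
      ∫ x in K, 2 * R * ∑ i : Fin d, |inner ℝ (T x - S x) (EuclideanSpace.single i (1 : ℝ))| := by
    refine setIntegral_mono_ae_restrict hint1 ?_ ?_
    · exact (integrable_finsetSum _ fun i _ => hinti i).const_mul _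
    · rw [Filter.EventuallyLE, ae_restrict_iff' hKm]
      exact hptw
  rw [integral_const_mul, integral_finsetSum _ fun i _ => hinti i] at hstep
  refine hstep.trans (mul_le_mul_of_nonneg_left ?_ (by positivity))
  have hdir : ∀ i ∈ (Finset.univ : Finset (Fin d)),
      ∫ x in K, |inner ℝ (T x - S x) (EuclideanSpace.single i (1 : ℝ))| ≤
      6 * R * ((volume K).toReal * (d * δ / r)) + (∫ x in K, gapFun K φ ψ T S x) / δ := by
    intro i _
    exact h.direction hconv hr hball hδ hδr (by simp)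
  have := Finset.sum_le_sum hdir
  simpa [mul_add] using this

/-- Cauchy-Schwarz on a probability space. -/
theorem sq_integral_le {Ω : Type*} [MeasurableSpace Ω] {π : Measure Ω} [IsProbabilityMeasure π]
    {f : Ω → ℝ} (hf : Integrable f π) (hf2 : Integrable (fun x => f x ^ 2) π) :
    (∫ x, f x ∂π) ^ 2 ≤ ∫ x, f x ^ 2 ∂π := by
  set m := ∫ x, f x ∂π with hm
  have h0 : 0 ≤ ∫ x, (f x - m) ^ 2 ∂π := integral_nonneg fun x => by positivity
  have e1 : (fun x => (f x - m) ^ 2) = fun x => f x ^ 2 - (2 * m) * f x + m ^ 2 := by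
    ext x; ring
  rw [e1] at h0
  have i1 : Integrable (fun x => (2 * m) * f x) π := hf.const_mul _
  have i2 : Integrable (fun _ : Ω => m ^ 2) π := integrable_const _
  have i3 : Integrable (fun x => f x ^ 2 - (2 * m) * f x) π := hf2.sub i1
  have a1 := integral_add (μ := π) i3 i2
  have a2 := integral_sub (μ := π) hf2 i1
  have a3 : ∫ x, (2 * m) * f x ∂π = (2 * m) * m := by rw [integral_const_mul]
  have a4 : ∫ _ : Ω, m ^ 2 ∂π = m ^ 2 := by simp
  rw [a1, a2, a3, a4] at h0
  nlinarith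

theorem optimize {E2 G0 A B R2 r : ℝ} (hA : 0 ≤ A) (hB : 0 ≤ B) (hR2 : 0 ≤ R2) (hr : 0 < r)
    (hG : 0 ≤ G0) (hE : E2 ≤ R2) (hδ : ∀ δ, 0 < δ → δ ≤ r → E2 ≤ A * δ + B * G0 / δ) :
    E2 ≤ (A + B + R2 / r) * Real.sqrt G0 := by
  have hs : 0 ≤ Real.sqrt G0 := Real.sqrt_nonneg _
  have hss : Real.sqrt G0 * Real.sqrt G0 = G0 := Real.mul_self_sqrt hG
  have hq : 0 ≤ R2 / r := by positivity
  rcases lt_or_ge (r ^ 2) G0 with h1 | h1
  · -- large gap
    have hsr : r ≤ Real.sqrt G0 := Real.le_sqrt_of_sq_le h1.le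
    have : R2 ≤ R2 / r * Real.sqrt G0 := by
      rw [div_mul_eq_mul_div, le_div_iff₀ hr]
      exact mul_le_mul_of_nonneg_left hsr hR2
    nlinarith [mul_nonneg hA hs, mul_nonneg hB hs]
  · rcases hG.eq_or_lt with h0 | h0
    · -- zero gap
      rw [← h0]
      simp only [Real.sqrt_zero, mul_zero]
      by_contra hcon
      push Not at hcon
      set δ := min r (E2 / (2 * (A + 1))) with hδdef
      have hδ0 : 0 < δ := lt_min hr (by positivity)
      have h3 := hδ δ hδ0 (min_le_left _ _)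
      rw [← h0] at h3
      simp only [mul_zero, zero_div, add_zero] at h3
      have h4 : δ ≤ E2 / (2 * (A + 1)) := min_le_right _ _
      have h5 : A * δ ≤ A * (E2 / (2 * (A + 1))) := mul_le_mul_of_nonneg_left h4 hA
      have h6 : A * (E2 / (2 * (A + 1))) < E2 := by
        have : A * (E2 / (2 * (A + 1))) = E2 * (A / (2 * (A + 1))) := by ring
        rw [this]
        have h7 : A / (2 * (A + 1)) < 1 := by
          rw [div_lt_one (by positivity)]
          linarith
        nlinarith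
      linarith
    · have hspos : 0 < Real.sqrt G0 := Real.sqrt_pos.mpr h0
      have hsr : Real.sqrt G0 ≤ r := by
        rw [Real.sqrt_le_left hr.le]
        exact h1
      have h3 := hδ _ hspos hsr
      have h4 : B * G0 / Real.sqrt G0 = B * Real.sqrt G0 := by
        rw [div_eq_iff hspos.ne']
        nlinarith
      rw [h4] at h3
      nlinarith [mul_nonneg hq hs]

section Gap

variable {μ ν : Measure (E d)}

theorem coupling_ae_fst {π : Measure (E d × E d)} (hπ : IsCoupling π μ ν) {s : Set (E d)}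
    (hs : MeasurableSet s) (h0 : μ sᶜ = 0) : ∀ᵐ p ∂π, p.1 ∈ s := by
  have h1 : π (Prod.fst ⁻¹' sᶜ) = 0 := by
    rw [← Measure.map_apply measurable_fst hs.compl, hπ.1, h0]
  exact measure_eq_zero_iff_ae_notMem.mp h1 |>.mono fun x hx => by simpa using hx

theorem coupling_ae_snd {π : Measure (E d × E d)} (hπ : IsCoupling π μ ν) {s : Set (E d)}
    (hs : MeasurableSet s) (h0 : ν sᶜ = 0) : ∀ᵐ p ∂π, p.2 ∈ s := by
  have h1 : π (Prod.snd ⁻¹' sᶜ) = 0 := by
    rw [← Measure.map_apply measurable_snd hs.compl, hπ.2, h0]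
  exact measure_eq_zero_iff_ae_notMem.mp h1 |>.mono fun x hx => by simpa using hx

theorem PotData.gap_integral_le (h : PotData K φ ψ T S R RK) [IsProbabilityMeasure μ]
    [IsProbabilityMeasure ν]
    (hμ : (unifOn K).map T = μ) (hν : (unifOn K).map S = ν)
    (hμR : μ (closedBall (0 : E d) R)ᶜ = 0) (hνR : ν (closedBall (0 : E d) R)ᶜ = 0)
    {π : Measure (E d × E d)} (hπ : IsCoupling π μ ν) :
    ENNReal.ofReal (∫ x, gapFun K φ ψ T S x ∂(unifOn K)) ≤
      ENNReal.ofReal (2 * RK) * (∫⁻ p, ‖p.1 - p.2‖ₑ ^ (2 : ℕ) ∂π) ^ (1 / 2 : ℝ) := by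
  have hπp : IsProbabilityMeasure π := by
    refine ⟨?_⟩
    have := Measure.map_apply (μ := π) measurable_fst MeasurableSet.univ
    rw [hπ.1] at this
    simpa using this.symm.trans measure_univ
  have hRK0 : 0 ≤ RK := (norm_nonneg _).trans (h.hRK _ h.hne.some_mem)
  set w := legDiff K φ ψ with hw
  have hwc : Continuous w := legDiff_continuous h.hK h.hne h.hφ h.hψ h.hRK
  obtain ⟨M, hM⟩ := (isCompact_closedBall (0 : E d) R).exists_bound_of_continuousOn
    hwc.continuousOn
  have hmeasB : MeasurableSet (closedBall (0 : E d) R) := measurableSet_closedBall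
  have iμ : Integrable w μ := by
    refine Integrable.of_bound hwc.aestronglyMeasurable M ?_
    exact (measure_eq_zero_iff_ae_notMem.mp hμR).mono fun y hy => hM y (by simpa using hy)
  have iν : Integrable w ν := by
    refine Integrable.of_bound hwc.aestronglyMeasurable M ?_
    exact (measure_eq_zero_iff_ae_notMem.mp hνR).mono fun y hy => hM y (by simpa using hy)
  -- on the source
  have iT : Integrable (fun x => w (T x)) (unifOn K) := by
    have := iμ
    rw [← hμ] at this
    exact (integrable_map_measure hwc.aestronglyMeasurable h.hTm.aemeasurable).mp this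
  have iS : Integrable (fun x => w (S x)) (unifOn K) := by
    have := iν
    rw [← hν] at this
    exact (integrable_map_measure hwc.aestronglyMeasurable h.hSm.aemeasurable).mp this
  have e1 : ∫ x, gapFun K φ ψ T S x ∂(unifOn K) = ∫ y, w y ∂μ - ∫ y, w y ∂ν := by
    have : ∀ x, gapFun K φ ψ T S x = w (T x) - w (S x) := fun x => rfl
    simp only [this]
    rw [integral_sub iT iS]
    conv_rhs => rw [← hμ, ← hν]
    rw [integral_map h.hTm.aemeasurable hwc.aestronglyMeasurable,
      integral_map h.hSm.aemeasurable hwc.aestronglyMeasurable]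
  -- on the coupling
  have i1 : Integrable (fun p : E d × E d => w p.1) π := by
    have := iμ
    rw [← hπ.1] at this
    exact (integrable_map_measure hwc.aestronglyMeasurable measurable_fst.aemeasurable).mp this
  have i2 : Integrable (fun p : E d × E d => w p.2) π := by
    have := iν
    rw [← hπ.2] at this
    exact (integrable_map_measure hwc.aestronglyMeasurable measurable_snd.aemeasurable).mp this
  have e2 : ∫ y, w y ∂μ - ∫ y, w y ∂ν = ∫ p, (w p.1 - w p.2) ∂π := by
    rw [integral_sub i1 i2]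
    conv_lhs => rw [← hπ.1, ← hπ.2]
    rw [integral_map measurable_fst.aemeasurable hwc.aestronglyMeasurable,
      integral_map measurable_snd.aemeasurable hwc.aestronglyMeasurable]
  -- the distance function
  set f : E d × E d → ℝ := fun p => ‖p.1 - p.2‖ with hf
  have hfm : Measurable f := (measurable_fst.sub measurable_snd).norm
  have hfb : ∀ᵐ p ∂π, ‖f p‖ ≤ 2 * R := by
    filter_upwards [coupling_ae_fst hπ hmeasB hμR, coupling_ae_snd hπ hmeasB hνR] with p h1 h2
    have h1' : ‖p.1‖ ≤ R := by simpa using h1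
    have h2' : ‖p.2‖ ≤ R := by simpa using h2
    rw [norm_norm]
    calc ‖p.1 - p.2‖ ≤ ‖p.1‖ + ‖p.2‖ := norm_sub_le _ _
      _ ≤ 2 * R := by linarith
  have hfi : Integrable f π := Integrable.of_bound hfm.aestronglyMeasurable _ hfb
  have hf2i : Integrable (fun p => f p ^ 2) π := by
    refine Integrable.of_bound (hfm.pow_const 2).aestronglyMeasurable ((2 * R) ^ 2) ?_
    filter_upwards [hfb] with p hp
    rw [norm_pow]
    exact pow_le_pow_left₀ (norm_nonneg _) hp 2
  have e3 : ∫ p, (w p.1 - w p.2) ∂π ≤ 2 * RK * ∫ p, f p ∂π := by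
    rw [← integral_const_mul]
    exact integral_mono (i1.sub i2) (hfi.const_mul _) fun p =>
      legDiff_lipschitz h.hK h.hne h.hφ h.hψ h.hRK p.1 p.2
  have e4 : (∫ p, f p ∂π) ^ 2 ≤ ∫ p, f p ^ 2 ∂π := sq_integral_le hfi hf2i
  have e5 : ∫⁻ p, ‖p.1 - p.2‖ₑ ^ (2 : ℕ) ∂π = ENNReal.ofReal (∫ p, f p ^ 2 ∂π) := by
    rw [ofReal_integral_eq_lintegral_ofReal hf2i (Filter.Eventually.of_forall fun p => by positivity)]
    refine lintegral_congr fun p => ?_
    rw [enorm_sq_eq]
  have hf0 : 0 ≤ ∫ p, f p ∂π := integral_nonneg fun p => norm_nonneg _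
  have hf20 : 0 ≤ ∫ p, f p ^ 2 ∂π := integral_nonneg fun p => by positivity
  rw [e1, e2, e5, ENNReal.ofReal_rpow_of_nonneg hf20 (by norm_num),
    ← ENNReal.ofReal_mul (by positivity)]
  apply ENNReal.ofReal_le_ofReal
  refine e3.trans (mul_le_mul_of_nonneg_left ?_ (by positivity))
  rw [← Real.sqrt_eq_rpow]
  exact Real.le_sqrt_of_sq_le e4

theorem PotData.gap_integral_le_W2 (h : PotData K φ ψ T S R RK) [IsProbabilityMeasure μ]
    [IsProbabilityMeasure ν]
    (hμ : (unifOn K).map T = μ) (hν : (unifOn K).map S = ν)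
    (hμR : μ (closedBall (0 : E d) R)ᶜ = 0) (hνR : ν (closedBall (0 : E d) R)ᶜ = 0) :
    ENNReal.ofReal (∫ x, gapFun K φ ψ T S x ∂(unifOn K)) ≤
      ENNReal.ofReal (2 * RK) * W2 μ ν := by
  by_cases hc : ENNReal.ofReal (2 * RK) = 0
  · -- the constant vanishes: use any coupling, for instance the product
    have hcoup : IsCoupling (μ.prod ν) μ ν := ⟨by simp, by simp⟩
    have := h.gap_integral_le hμ hν hμR hνR hcoup
    rw [hc, zero_mul] at this
    rw [hc, zero_mul]
    exact this
  · unfold W2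
    rw [ENNReal.mul_iInf_of_ne hc ENNReal.ofReal_ne_top]
    refine le_iInf fun π => ?_
    rw [ENNReal.mul_iInf_of_ne hc ENNReal.ofReal_ne_top]
    refine le_iInf fun hπ => ?_
    exact h.gap_integral_le hμ hν hμR hνR hπ

/-- The constant of the main estimate. -/
noncomputable def estC (d : ℕ) (R RK r : ℝ) : ℝ :=
  Real.sqrt ((12 * R ^ 2 * d ^ 2 / r + 2 * R * d + 4 * R ^ 2 / r) * Real.sqrt (2 * RK)) + 1

theorem sqrt_sqrt_eq_rpow {W : ℝ} (hW : 0 ≤ W) :
    Real.sqrt (Real.sqrt W) = W ^ (1 / 4 : ℝ) := by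
  rw [Real.sqrt_eq_rpow, Real.sqrt_eq_rpow, ← Real.rpow_mul hW]
  norm_num

/-- The main estimate given the potentials. -/
theorem PotData.main (h : PotData K φ ψ T S R RK) (hconv : Convex ℝ K) {c : E d} {r : ℝ}
    (hr : 0 < r) (hball : closedBall c r ⊆ K) [IsProbabilityMeasure μ] [IsProbabilityMeasure ν]
    (hμ : (unifOn K).map T = μ) (hν : (unifOn K).map S = ν)
    (hμR : μ (closedBall (0 : E d) R)ᶜ = 0) (hνR : ν (closedBall (0 : E d) R)ᶜ = 0)
    (hR0 : 0 ≤ R) (hRK0 : 0 ≤ RK) :
    l2Dist (unifOn K) T S ≤ ENNReal.ofReal (estC d R RK r) * W2 μ ν ^ (1 / 4 : ℝ) := by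
  have hK := h.hK
  have hKm := hK.isClosed.measurableSet
  have hcpos : 0 < estC d R RK r := by
    unfold estC
    positivity
  by_cases htop : W2 μ ν = ∞
  · rw [htop, ENNReal.top_rpow_of_pos (by norm_num), ENNReal.mul_top]
    · exact le_top
    · simpa using hcpos
  set W := (W2 μ ν).toReal with hWdef
  have hW0 : 0 ≤ W := ENNReal.toReal_nonneg
  have hWe : W2 μ ν = ENNReal.ofReal W := (ENNReal.ofReal_toReal htop).symm
  have hvolpos : 0 < volume K :=
    lt_of_lt_of_le (measure_closedBall_pos volume c hr) (measure_mono hball)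
  set V := (volume K).toReal with hV
  have hVpos : 0 < V := ENNReal.toReal_pos hvolpos.ne' hK.measure_lt_top.ne
  have hsm : ∀ f : E d → ℝ, ∫ x, f x ∂(unifOn K) = V⁻¹ * ∫ x in K, f x := by
    intro f
    rw [unifOn, integral_smul_measure, ENNReal.toReal_inv, smul_eq_mul]
  set E2 := ∫ x, ‖T x - S x‖ ^ 2 ∂(unifOn K) with hE2
  set Gh := ∫ x, gapFun K φ ψ T S x ∂(unifOn K) with hGh
  have hE2e : E2 = V⁻¹ * ∫ x in K, ‖T x - S x‖ ^ 2 := hsm _
  have hGhe : Gh = V⁻¹ * ∫ x in K, gapFun K φ ψ T S x := hsm _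
  have hGK : ∫ x in K, gapFun K φ ψ T S x = V * Gh := by
    rw [hGhe]; field_simp
  -- the bound in terms of `δ`
  have hδbd : ∀ δ, 0 < δ → δ ≤ r →
      E2 ≤ (12 * R ^ 2 * d ^ 2 / r) * δ + (2 * R * d) * Gh / δ := by
    intro δ hδ hδr
    have h1 := h.integral_sq_le hconv hr hball hδ hδr
    rw [hGK] at h1
    rw [hE2e]
    have h2 := mul_le_mul_of_nonneg_left h1 (inv_nonneg.mpr hVpos.le)
    refine h2.trans (le_of_eq ?_)
    field_simp
    ring
  -- the gap bound
  have hGW : Gh ≤ 2 * RK * W := by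
    have h1 := h.gap_integral_le_W2 hμ hν hμR hνR
    rw [hWe, ← ENNReal.ofReal_mul (by positivity)] at h1
    exact (ENNReal.ofReal_le_ofReal_iff (by positivity)).mp h1
  -- the trivial bound
  have hdb := h.diff_norm_le
  have hsqm : Measurable fun x => ‖T x - S x‖ ^ 2 := ((h.hTm.sub h.hSm).norm).pow_const 2
  have hE4 : E2 ≤ 4 * R ^ 2 := by
    rw [hE2e]
    have h1 := norm_setIntegral_le_of_norm_le_const_ae (μ := volume) (s := K)
      (f := fun x => ‖T x - S x‖ ^ 2) (C := (2 * R) ^ 2) hK.measure_lt_top (by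
        rw [ae_restrict_iff' hKm]
        filter_upwards [hdb] with x hx hxK
        rw [norm_pow, norm_norm]
        exact pow_le_pow_left₀ (norm_nonneg _) (hx hxK) 2)
    have h2 : (∫ x in K, ‖T x - S x‖ ^ 2) ≤ (2 * R) ^ 2 * V := by
      simpa [Measure.real, hV] using (le_abs_self _).trans h1
    have h3 := mul_le_mul_of_nonneg_left h2 (inv_nonneg.mpr hVpos.le)
    refine h3.trans (le_of_eq ?_)
    field_simp
    ring
  have hdn : (0 : ℝ) ≤ d := Nat.cast_nonneg d
  have hopt := optimize (E2 := E2) (G0 := 2 * RK * W) (A := 12 * R ^ 2 * d ^ 2 / r)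
    (B := 2 * R * d) (R2 := 4 * R ^ 2) (r := r) (by positivity) (by positivity) (by positivity)
    hr (by positivity) hE4 (by
      intro δ hδ hδr
      refine (hδbd δ hδ hδr).trans ?_
      have : (2 * R * d) * Gh / δ ≤ (2 * R * d) * (2 * RK * W) / δ :=
        div_le_div_of_nonneg_right (mul_le_mul_of_nonneg_left hGW (by positivity)) hδ.le
      linarith)
  -- back to extended reals
  have hρ : IsProbabilityMeasure (unifOn K) := by
    refine ⟨?_⟩
    simp only [unifOn, Measure.smul_apply, Measure.restrict_apply_univ, smul_eq_mul]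
    exact ENNReal.inv_mul_cancel hvolpos.ne' hK.measure_lt_top.ne
  have hiρ : Integrable (fun x => ‖T x - S x‖ ^ 2) (unifOn K) := by
    have hint1 : IntegrableOn (fun x => ‖T x - S x‖ ^ 2) K volume := by
      refine integrableOn_of_ae_bound hK hsqm (C := (2 * R) ^ 2) ?_
      filter_upwards [hdb] with x hx hxK
      rw [abs_of_nonneg (by positivity)]
      exact pow_le_pow_left₀ (norm_nonneg _) (hx hxK) 2
    exact hint1.smul_measure (ENNReal.inv_ne_top.mpr hvolpos.ne')
  have hE20 : 0 ≤ E2 := integral_nonneg fun x => by positivity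
  have hlint : ∫⁻ x, ‖T x - S x‖ₑ ^ (2 : ℕ) ∂(unifOn K) = ENNReal.ofReal E2 := by
    rw [hE2, ofReal_integral_eq_lintegral_ofReal hiρ
      (Filter.Eventually.of_forall fun p => by positivity)]
    refine lintegral_congr fun p => ?_
    rw [enorm_sq_eq]
  unfold l2Dist
  rw [hlint, hWe, ENNReal.ofReal_rpow_of_nonneg hE20 (by norm_num),
    ENNReal.ofReal_rpow_of_nonneg hW0 (by norm_num), ← ENNReal.ofReal_mul hcpos.le]
  apply ENNReal.ofReal_le_ofReal
  rw [← Real.sqrt_eq_rpow, ← sqrt_sqrt_eq_rpow hW0]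
  set C1 := 12 * R ^ 2 * d ^ 2 / r + 2 * R * d + 4 * R ^ 2 / r with hC1
  have hC10 : 0 ≤ C1 := by positivity
  have e1 : Real.sqrt (2 * RK * W) = Real.sqrt (2 * RK) * Real.sqrt W :=
    Real.sqrt_mul (by positivity) _
  rw [e1] at hopt
  have e2 : E2 ≤ (C1 * Real.sqrt (2 * RK)) * Real.sqrt W := by
    calc E2 ≤ C1 * (Real.sqrt (2 * RK) * Real.sqrt W) := hopt
      _ = _ := by ring
  have e3 : Real.sqrt E2 ≤ Real.sqrt (C1 * Real.sqrt (2 * RK)) * Real.sqrt (Real.sqrt W) := by
    rw [← Real.sqrt_mul (by positivity)]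
    exact Real.sqrt_le_sqrt e2
  unfold estC
  rw [← hC1]
  have e4 : 0 ≤ Real.sqrt (Real.sqrt W) := Real.sqrt_nonneg _
  nlinarith

end Gap

end Vale.Agent.P074
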