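import Vale.Agent.P074.Approx4

/-!
# The exponent one third is admissible in every dimension
-/

open MeasureTheory Set Metric Filter Topology
open scoped ENNReal NNReal

set_option linter.unusedSectionVars false
set_option linter.unusedSimpArgs false
set_option linter.unusedVariables false

namespace Vale.Agent.P074

variable {d : ℕ}

theorem constThird_nonneg {K : Set (E d)} {R RY r : ℝ} (hr : 0 < r) :
    0 ≤ constThird K R RY r := by
  unfold constThird
  positivity

/-- The function of the small parameter which bounds the distance of the maps. -/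
noncomputable def finalBound (Cq A W RY t : ℝ) : ℝ :=
  Cq * (2 * t) ^ (1 / 4 : ℝ) + Real.sqrt (A *
    (Real.sqrt ((W + t) ^ 2 + 8 * t * RY + 4 * t ^ 2)) ^ (2 / 3 : ℝ)) + Cq * (2 * t) ^ (1 / 4 : ℝ)

theorem finalBound_continuous (Cq A W RY : ℝ) : Continuous (finalBound Cq A W RY) := by
  unfold finalBound
  have h1 : Continuous fun t : ℝ => (2 * t) ^ (1 / 4 : ℝ) :=
    (continuous_const.mul continuous_id).rpow_const fun _ => Or.inr (by norm_num)
  have h2 : Continuous fun t : ℝ =>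
      (Real.sqrt ((W + t) ^ 2 + 8 * t * RY + 4 * t ^ 2)) ^ (2 / 3 : ℝ) := by
    refine Continuous.rpow_const ?_ fun _ => Or.inr (by norm_num)
    exact Real.continuous_sqrt.comp (by fun_prop)
  exact ((continuous_const.mul h1).add (Real.continuous_sqrt.comp (continuous_const.mul h2))).add
    (continuous_const.mul h1)

theorem finalBound_zero (Cq A W RY : ℝ) (hA : 0 ≤ A) (hW : 0 ≤ W) :
    finalBound Cq A W RY 0 = Real.sqrt A * W ^ (1 / 3 : ℝ) := by
  unfold finalBound
  have h0 : ((2 : ℝ) * 0) ^ (1 / 4 : ℝ) = 0 := by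
    rw [mul_zero, Real.zero_rpow (by norm_num)]
  rw [h0, mul_zero, zero_add, add_zero]
  have e : (W + 0) ^ 2 + 8 * 0 * RY + 4 * (0 : ℝ) ^ 2 = W ^ 2 := by ring
  rw [e, Real.sqrt_sq hW, Real.sqrt_mul hA]
  congr 1
  rw [Real.sqrt_eq_rpow, ← Real.rpow_mul hW]
  norm_num

theorem admissible_third (hd : 2 ≤ d) : Admissible d (1 / 3) := by
  intro K hconv hK hi Y hY hne
  obtain ⟨R, hR⟩ := hK.isBounded.exists_norm_le
  obtain ⟨RY, hRY⟩ := hY.isBounded.exists_norm_le
  obtain ⟨c, hc⟩ := id hi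
  obtain ⟨r, hr, hball⟩ :=
    Metric.nhds_basis_closedBall.mem_iff.mp (mem_interior_iff_mem_nhds.mp hc)
  have hRY0 : 0 ≤ RY := (norm_nonneg _).trans (hRY _ hne.some_mem)
  set Y' : Set (E d) := closedBall 0 (RY + 1) with hY'
  have hYY' : Y ⊆ Y' := by
    intro y hy
    simp only [hY', mem_closedBall, dist_zero_right]
    linarith [hRY y hy]
  obtain ⟨Cq, hCq⟩ := admissible_quarter K hconv hK hi Y' (isCompact_closedBall _ _)
    ⟨0, by simp [hY']; linarith⟩
  set A := constThird K R RY r with hAdef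
  have hA0 : 0 ≤ A := constThird_nonneg hr
  refine ⟨(Real.sqrt A).toNNReal + 1, ?_⟩
  intro μ ν hμ hν hμY hνY T S hT hS
  have hCpos : (((Real.sqrt A).toNNReal + 1 : ℝ≥0) : ℝ≥0∞) ≠ 0 := by
    simp
  by_cases htop : W2 μ ν = ∞
  · rw [htop, ENNReal.top_rpow_of_pos (by norm_num), ENNReal.mul_top hCpos]
    exact le_top
  set W := (W2 μ ν).toReal with hWdef
  have hW0 : 0 ≤ W := ENNReal.toReal_nonneg
  have hWe : W2 μ ν = ENNReal.ofReal W := (ENNReal.ofReal_toReal htop).symm
  have hYm : MeasurableSet Y := hY.isClosed.measurableSet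
  have hCq0 : (0 : ℝ) ≤ Cq := Cq.coe_nonneg
  -- the estimate for each value of the small parameter
  have key : ∀ t : ℝ, 0 < t → t ≤ 1 →
      l2Dist (unifOn K) T S ≤ ENNReal.ofReal (finalBound Cq A W RY t) := by
    intro t ht ht1
    have hlt : W2 μ ν < ENNReal.ofReal (W + t) := by
      rw [hWe]
      exact (ENNReal.ofReal_lt_ofReal_iff (by linarith)).mpr (by linarith)
    unfold W2 at hlt
    simp only [iInf_lt_iff] at hlt
    obtain ⟨π, hπ, hcost⟩ := hlt
    have hπp : IsProbabilityMeasure π := by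
      refine ⟨?_⟩
      have := Measure.map_apply (μ := π) measurable_fst MeasurableSet.univ
      rw [hπ.1] at this
      simpa using this.symm.trans measure_univ
    have hae1 := coupling_ae_fst hπ hYm hμY
    have hae2 := coupling_ae_snd hπ hYm hνY
    have hπY : π (Y ×ˢ Y)ᶜ = 0 := by
      rw [measure_eq_zero_iff_ae_notMem]
      filter_upwards [hae1, hae2] with x h1 h2
      simpa using (⟨h1, h2⟩ : x ∈ Y ×ˢ Y)
    -- the cost
    have hfm : Measurable fun x : E d × E d => ‖x.1 - x.2‖ ^ 2 :=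
      ((measurable_fst.sub measurable_snd).norm).pow_const 2
    have hfi : Integrable (fun x : E d × E d => ‖x.1 - x.2‖ ^ 2) π := by
      refine Integrable.of_bound hfm.aestronglyMeasurable ((2 * RY) ^ 2) ?_
      filter_upwards [hae1, hae2] with x h1 h2
      have h3 : ‖x.1 - x.2‖ ≤ 2 * RY := by
        have := norm_sub_le x.1 x.2
        linarith [hRY _ h1, hRY _ h2]
      rw [Real.norm_eq_abs, abs_of_nonneg (by positivity)]
      exact pow_le_pow_left₀ (norm_nonneg _) h3 2
    set c₀ := ∫ x, ‖x.1 - x.2‖ ^ 2 ∂π with hc₀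
    have hc₀0 : 0 ≤ c₀ := integral_nonneg fun x => by positivity
    have hlint : ∫⁻ x, ‖x.1 - x.2‖ₑ ^ (2 : ℕ) ∂π = ENNReal.ofReal c₀ := by
      rw [hc₀, ofReal_integral_eq_lintegral_ofReal hfi
        (Filter.Eventually.of_forall fun p => by positivity)]
      refine lintegral_congr fun p => ?_
      rw [enorm_sq_eq]
    rw [hlint, ENNReal.ofReal_rpow_of_nonneg hc₀0 (by norm_num),
      ENNReal.ofReal_lt_ofReal_iff (by linarith)] at hcost
    have hc₀le : c₀ ≤ (W + t) ^ 2 := by
      have h1 : c₀ = (c₀ ^ (1 / 2 : ℝ)) ^ 2 := by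
        rw [← Real.sqrt_eq_rpow, Real.sq_sqrt hc₀0]
      rw [h1]
      exact pow_le_pow_left₀ (Real.rpow_nonneg hc₀0 _) hcost.le 2
    obtain ⟨μ₀, μ₁, T₀, T₁, hμ₀, hμ₁, hμ₀Y, hμ₁Y, hT₀, hT₁, hW₀, hW₁, hL⟩ :=
      atomic_step hd hK hconv hi hR hr hball hY hRY hπY ht ht1
    rw [hπ.1] at hW₀
    rw [hπ.2] at hW₁
    have hμY' : μ Y'ᶜ = 0 := measure_mono_null (compl_subset_compl.mpr hYY') hμY
    have hνY' : ν Y'ᶜ = 0 := measure_mono_null (compl_subset_compl.mpr hYY') hνY
    have h1 := hCq μ μ₀ hμ hμ₀ hμY' hμ₀Y T T₀ hT hT₀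
    have h2 := hCq μ₁ ν hμ₁ hν hμ₁Y hνY' T₁ S hT₁ hS
    have hq : (Cq : ℝ≥0∞) * ENNReal.ofReal (2 * t) ^ (1 / 4 : ℝ) =
        ENNReal.ofReal (Cq * (2 * t) ^ (1 / 4 : ℝ)) := by
      rw [ENNReal.ofReal_rpow_of_nonneg (by positivity) (by norm_num),
        ENNReal.ofReal_mul hCq0, ENNReal.ofReal_coe_nnreal]
    have hq1 : l2Dist (unifOn K) T T₀ ≤ ENNReal.ofReal (Cq * (2 * t) ^ (1 / 4 : ℝ)) := by
      rw [← hq]
      refine h1.trans ?_
      gcongr
    have hq2 : l2Dist (unifOn K) T₁ S ≤ ENNReal.ofReal (Cq * (2 * t) ^ (1 / 4 : ℝ)) := by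
      rw [← hq]
      refine h2.trans ?_
      gcongr
    have hL2 : l2Dist (unifOn K) T₀ T₁ ≤ ENNReal.ofReal (Real.sqrt (A *
        (Real.sqrt ((W + t) ^ 2 + 8 * t * RY + 4 * t ^ 2)) ^ (2 / 3 : ℝ))) := by
      refine hL.trans (ENNReal.ofReal_le_ofReal (Real.sqrt_le_sqrt ?_))
      apply mul_le_mul_of_nonneg_left _ hA0
      apply Real.rpow_le_rpow (Real.sqrt_nonneg _) _ (by norm_num)
      apply Real.sqrt_le_sqrt
      linarith
    have htri := (l2Dist_triangle (ρ := unifOn K) hT.measurable hT₀.measurable hS.measurable).trans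
      (add_le_add_right (l2Dist_triangle (ρ := unifOn K) hT₀.measurable hT₁.measurable
        hS.measurable) _)
    refine htri.trans ?_
    unfold finalBound
    rw [ENNReal.ofReal_add (by positivity) (by positivity),
      ENNReal.ofReal_add (by positivity) (by positivity), add_assoc]
    gcongr
  -- the limit of the parameter
  have hlim : Tendsto (fun t => ENNReal.ofReal (finalBound Cq A W RY t)) (𝓝[>] 0)
      (𝓝 (ENNReal.ofReal (finalBound Cq A W RY 0))) :=
    (ENNReal.continuous_ofReal.comp (finalBound_continuous Cq A W RY)).continuousAt.tendsto.mono_left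
      nhdsWithin_le_nhds
  have hle : l2Dist (unifOn K) T S ≤ ENNReal.ofReal (finalBound Cq A W RY 0) := by
    refine ge_of_tendsto hlim ?_
    filter_upwards [Ioc_mem_nhdsGT (zero_lt_one' ℝ)] with t ht
    exact key t ht.1 ht.2
  rw [finalBound_zero Cq A W RY hA0 hW0, ENNReal.ofReal_mul (Real.sqrt_nonneg _)] at hle
  refine hle.trans ?_
  rw [hWe, ENNReal.ofReal_rpow_of_nonneg hW0 (by norm_num)]
  gcongr
  rw [ENNReal.ofReal]
  exact_mod_cast (le_self_add : (Real.sqrt A).toNNReal ≤ (Real.sqrt A).toNNReal + 1)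

/-- For `d ≥ 2` the exponent `1/3` is the largest admissible exponent. -/
theorem isGreatest_admissible (hd : 2 ≤ d) :
    IsGreatest {α : ℝ | 0 < α ∧ α ≤ 1 ∧ Admissible d α} (1 / 3) := by
  constructor
  · exact ⟨by norm_num, by norm_num, admissible_third hd⟩
  · rintro α ⟨-, -, hα⟩
    by_contra h
    exact not_admissible hd (not_le.mp h) hα

end Vale.Agent.P074
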