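import Vale.Agent.P074.Direction2

/-!
# The maps of cells and the `L²` bound of the gap for finitely supported targets
-/

open MeasureTheory Set Metric Filter Topology
open scoped ENNReal NNReal

set_option linter.unusedSectionVars false
set_option linter.unusedSimpArgs false
set_option linter.unusedVariables false

namespace Vale.Agent.P074

variable {d : ℕ} {I : Type} [Fintype I]

/-- The map sending the open part of the cell of index `i` to `w i`. -/
noncomputable def cellMap (K : Set (E d)) (w : I → E d) (a : I → ℝ) (x : E d) : E d :=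
  ∑ i, (ocell K w a i).indicator (fun _ => w i) x

section Main

variable {K : Set (E d)} {R : ℝ} {w w₀ w₁ : I → E d} {a a₀ a₁ : I → ℝ} {n : I → ℝ} {i : I} {x : E d}

theorem cellMap_eq (hx : x ∈ ocell K w a i) : cellMap K w a x = w i := by
  unfold cellMap
  rw [Finset.sum_eq_single i]
  · rw [indicator_of_mem hx]
  · intro j _ hj
    rw [indicator_of_notMem]
    intro hxj
    exact (Set.disjoint_left.mp (ocell_disjoint hj) hxj) hx
  · intro h
    exact absurd (Finset.mem_univ i) h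

theorem cellMap_measurable (hK : IsClosed K) (w : I → E d) (a : I → ℝ) :
    Measurable (cellMap K w a) := by
  unfold cellMap
  refine Finset.measurable_fun_sum _ fun i _ => ?_
  exact measurable_const.indicator (measurableSet_ocell hK w a i)

theorem cellMap_norm_le (K : Set (E d)) (w : I → E d) (a : I → ℝ) (x : E d) :
    ‖cellMap K w a x‖ ≤ ∑ i, ‖w i‖ := by
  unfold cellMap
  refine (norm_sum_le _ _).trans (Finset.sum_le_sum fun i _ => ?_)
  by_cases hx : x ∈ ocell K w a i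
  · rw [indicator_of_mem hx]
  · rw [indicator_of_notMem hx, norm_zero]
    exact norm_nonneg _

theorem ae_exists_ocell [Nonempty I] (hw : Function.Injective w) (a : I → ℝ) :
    ∀ᵐ x ∂(volume : Measure (E d)), x ∈ K → ∃ i, x ∈ ocell K w a i := by
  have h : ∀ i, ∀ᵐ x ∂(volume : Measure (E d)), x ∉ cell K w a i \ ocell K w a i := fun i =>
    measure_eq_zero_iff_ae_notMem.mp (cell_sdiff_ocell_null hw)
  filter_upwards [ae_all_iff.mpr h] with x hx hxK
  obtain ⟨i, hi⟩ := exists_mem_cell (K := K) w a hxK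
  refine ⟨i, ?_⟩
  by_contra hcon
  exact hx i ⟨hi, hcon⟩

theorem isSubgrad_of_mem_cell [Nonempty I] (hx : x ∈ cell K w a i) :
    IsSubgradOn K (pw w a) x (w i) := by
  intro z hz
  have h1 := pw_eq_of_mem_cell hx
  have h2 := le_pw w a z i
  rw [h1, inner_sub_left]
  linarith

/-- The potentials of two families of cells. -/
theorem potData_cells [Nonempty I] (hK : IsCompact K) (hne : K.Nonempty) (hR : ∀ x ∈ K, ‖x‖ ≤ R)
    (hw₀ : Function.Injective w₀) (hw₁ : Function.Injective w₁) (a₀ a₁ : I → ℝ) {Rw : ℝ}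
    (hR₀ : ∀ i, ‖w₀ i‖ ≤ Rw) (hR₁ : ∀ i, ‖w₁ i‖ ≤ Rw) :
    PotData K (pw w₀ a₀) (pw w₁ a₁) (cellMap K w₀ a₀) (cellMap K w₁ a₁) Rw R := by
  refine ⟨hK, hne, pw_continuous _ _, pw_continuous _ _, cellMap_measurable hK.isClosed _ _,
    cellMap_measurable hK.isClosed _ _, ?_, ?_, ?_, ?_, hR⟩
  · filter_upwards [ae_exists_ocell hw₀ a₀ (K := K)] with x hx hxK
    obtain ⟨i, hi⟩ := hx hxK
    rw [cellMap_eq hi]
    exact hR₀ i
  · filter_upwards [ae_exists_ocell hw₁ a₁ (K := K)] with x hx hxK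
    obtain ⟨i, hi⟩ := hx hxK
    rw [cellMap_eq hi]
    exact hR₁ i
  · filter_upwards [ae_exists_ocell hw₀ a₀ (K := K)] with x hx hxK
    obtain ⟨i, hi⟩ := hx hxK
    rw [cellMap_eq hi]
    exact isSubgrad_of_mem_cell (ocell_subset_cell hi)
  · filter_upwards [ae_exists_ocell hw₁ a₁ (K := K)] with x hx hxK
    obtain ⟨i, hi⟩ := hx hxK
    rw [cellMap_eq hi]
    exact isSubgrad_of_mem_cell (ocell_subset_cell hi)

theorem integral_ocells [Nonempty I] (hK : IsClosed K) (hw : Function.Injective w) (a : I → ℝ)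
    {f : E d → ℝ} (hf : IntegrableOn f K) : ∑ i, ∫ x in ocell K w a i, f x = ∫ x in K, f x := by
  rw [← integral_cells hK hw a hf]
  refine Finset.sum_congr rfl fun i _ => ?_
  exact (setIntegral_congr_set (cell_ae_eq_ocell hw)).symm

/-- A bound for one half of the gap, in abstract form. -/
theorem L2_side (hK : IsCompact K) {O O' : I → Set (E d)} (hOm : ∀ i, MeasurableSet (O i))
    (hOm' : ∀ i, MeasurableSet (O' i)) (hOK : ∀ i, O i ⊆ K) (hOK' : ∀ i, O' i ⊆ K)
    (hmass : ∀ i, ∫ _x in O i, (1 : ℝ) = n i) (hmass' : ∀ i, ∫ _x in O' i, (1 : ℝ) = n i)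
    (hsum : ∀ f : E d → ℝ, IntegrableOn f K → ∑ i, ∫ x in O i, f x = ∫ x in K, f x)
    (hsum' : ∀ f : E d → ℝ, IntegrableOn f K → ∑ i, ∫ x in O' i, f x = ∫ x in K, f x)
    {ub g : E d → ℝ} (hub : Measurable ub) (hg : Measurable g) {Cu Cg : ℝ}
    (hCu : ∀ x ∈ K, |ub x| ≤ Cu) (hCg : ∀ x ∈ K, |g x| ≤ Cg) {A e : I → ℝ} (hA : ∀ i, 0 ≤ A i)
    (he : ∀ i, 0 ≤ e i) (h1 : ∀ i, ∀ x ∈ O i, 0 ≤ g x ∧ g x ≤ A i + e i + |ub x|)
    (h2 : ∀ i, ∀ x ∈ O' i, A i ^ 2 ≤ ub x ^ 2) :
    ∫ x in K, g x ^ 2 ≤ 3 * ((∫ x in K, ub x ^ 2) + ∑ i, n i * e i ^ 2 + ∫ x in K, ub x ^ 2) := by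
  have hfinO : ∀ i, volume (O i) ≠ ∞ := fun i =>
    ((measure_mono (hOK i)).trans_lt hK.measure_lt_top).ne
  have hfinO' : ∀ i, volume (O' i) ≠ ∞ := fun i =>
    ((measure_mono (hOK' i)).trans_lt hK.measure_lt_top).ne
  have hCu0 : ∀ x ∈ K, |ub x ^ 2| ≤ Cu ^ 2 := by
    intro x hx
    rw [abs_pow]
    exact pow_le_pow_left₀ (abs_nonneg _) (hCu x hx) 2
  have hCg0 : ∀ x ∈ K, |g x ^ 2| ≤ Cg ^ 2 := by
    intro x hx
    rw [abs_pow]
    exact pow_le_pow_left₀ (abs_nonneg _) (hCg x hx) 2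
  have iu : IntegrableOn (fun x => ub x ^ 2) K :=
    integrableOn_of_bdd hK (hub.pow_const 2) hCu0
  have ig : IntegrableOn (fun x => g x ^ 2) K :=
    integrableOn_of_bdd hK (hg.pow_const 2) hCg0
  have hRHS : 3 * ((∫ x in K, ub x ^ 2) + ∑ i, n i * e i ^ 2 + ∫ x in K, ub x ^ 2) =
      ∑ i, 3 * ((∫ x in O' i, ub x ^ 2) + n i * e i ^ 2 + ∫ x in O i, ub x ^ 2) := by
    rw [← Finset.mul_sum, Finset.sum_add_distrib, Finset.sum_add_distrib, hsum _ iu, hsum' _ iu]
  rw [← hsum _ ig, hRHS]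
  refine Finset.sum_le_sum fun i _ => ?_
  have hreal : ∀ S : Set (E d), ∫ _x in S, (1 : ℝ) = (volume : Measure (E d)).real S := by
    intro S
    simp
  have hv : (volume : Measure (E d)).real (O i) = n i := by rw [← hreal, hmass i]
  have hv' : (volume : Measure (E d)).real (O' i) = n i := by rw [← hreal, hmass' i]
  -- the constant
  have hA2 : A i ^ 2 * n i ≤ ∫ x in O' i, ub x ^ 2 := by
    rw [← hv']
    exact le_sI (hOm' i) (hfinO' i) (iu.mono_set (hOK' i)) fun x hx => h2 i x hx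
  -- the pointwise bound
  have hpt : ∫ x in O i, g x ^ 2 ≤ ∫ x in O i, (3 * (A i ^ 2 + e i ^ 2) + 3 * ub x ^ 2) := by
    refine setIntegral_mono_on (ig.mono_set (hOK i)) ?_ (hOm i) fun x hx => ?_
    · have i1 : IntegrableOn (fun _ : E d => 3 * (A i ^ 2 + e i ^ 2)) (O i) :=
        integrableOn_const (hfinO i)
      exact i1.add ((iu.mono_set (hOK i)).const_mul 3)
    · obtain ⟨a1, a2⟩ := h1 i x hx
      have a3 : g x ^ 2 ≤ (A i + e i + |ub x|) ^ 2 := pow_le_pow_left₀ a1 a2 2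
      have a4 : (A i + e i + |ub x|) ^ 2 ≤ 3 * (A i ^ 2 + e i ^ 2 + |ub x| ^ 2) := by
        nlinarith [sq_nonneg (A i - e i), sq_nonneg (A i - |ub x|), sq_nonneg (e i - |ub x|)]
      rw [sq_abs] at a4
      linarith
  have e1 : ∫ x in O i, (3 * (A i ^ 2 + e i ^ 2) + 3 * ub x ^ 2) =
      3 * (A i ^ 2 + e i ^ 2) * n i + 3 * ∫ x in O i, ub x ^ 2 := by
    have i1 : IntegrableOn (fun _ : E d => 3 * (A i ^ 2 + e i ^ 2)) (O i) :=
      integrableOn_const (hfinO i)
    have i2 : IntegrableOn (fun x => 3 * ub x ^ 2) (O i) := (iu.mono_set (hOK i)).const_mul 3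
    have e0 := integral_add (μ := volume.restrict (O i)) i1 i2
    rw [e0, setIntegral_const, hv, smul_eq_mul, integral_const_mul]
    ring
  rw [e1] at hpt
  nlinarith

section Atomic

variable {φ ψ : E d → ℝ}

theorem u_le_legDiff [Nonempty I] (hK : IsCompact K) (hψ : Continuous ψ)
    (hx : x ∈ ocell K w₀ a₀ i) :
    pw w₀ a₀ x - ψ x ≤ legDiff K (pw w₀ a₀) ψ (w₀ i) := by
  have hsub := isSubgrad_of_mem_cell (ocell_subset_cell hx)
  have e1 := legendre_eq hK (pw_continuous w₀ a₀) hx.1 hsub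
  have e2 := le_legendre hK hψ hx.1 (w₀ i)
  unfold legDiff
  linarith

theorem legDiff_le_u [Nonempty I] (hK : IsCompact K) (hφ : Continuous φ)
    (hx : x ∈ ocell K w₁ a₁ i) :
    legDiff K φ (pw w₁ a₁) (w₁ i) ≤ φ x - pw w₁ a₁ x := by
  have hsub := isSubgrad_of_mem_cell (ocell_subset_cell hx)
  have e1 := legendre_eq hK (pw_continuous w₁ a₁) hx.1 hsub
  have e2 := le_legendre hK hφ hx.1 (w₁ i)
  unfold legDiff
  linarith

/-- The `L²` bound of the gap for two families of cells along a path of positions. -/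
theorem gap_sq_le [Nonempty I] (hK : IsCompact K) (hconv : Convex ℝ K)
    (hi : (interior K).Nonempty) (hR : ∀ x ∈ K, ‖x‖ ≤ R)
    (hpath : ∀ t ∈ Icc (0 : ℝ) 1, Function.Injective (wt w₀ w₁ t))
    (hn0 : ∀ i, 0 < n i) (hnK : ∑ i, n i = ∫ _x in K, (1 : ℝ))
    (ha₀ : ∀ i, ∫ _x in cell K w₀ a₀ i, (1 : ℝ) = n i)
    (ha₁ : ∀ i, ∫ _x in cell K w₁ a₁ i, (1 : ℝ) = n i) :
    ∫ x in K, gapFun K (pw w₀ a₀) (pw w₁ a₁) (cellMap K w₀ a₀) (cellMap K w₁ a₁) x ^ 2 ≤
      648 * R ^ 2 * ∑ i, n i * ‖w₁ i - w₀ i‖ ^ 2 := by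
  have hne : K.Nonempty := hi.mono interior_subset
  have hKc := hK.isClosed
  have hKm := hKc.measurableSet
  have hR0 : 0 ≤ R := (norm_nonneg _).trans (hR _ hne.some_mem)
  have hw₀ : Function.Injective w₀ := by
    have := hpath 0 ⟨le_rfl, zero_le_one⟩
    rwa [wt_zero] at this
  have hw₁ : Function.Injective w₁ := by
    have := hpath 1 ⟨zero_le_one, le_rfl⟩
    rwa [wt_one] at this
  set φ := pw w₀ a₀ with hφd
  set ψ := pw w₁ a₁ with hψd
  have hφ : Continuous φ := pw_continuous _ _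
  have hψ : Continuous ψ := pw_continuous _ _
  set u : E d → ℝ := fun x => φ x - ψ x with hu
  have huc : Continuous u := hφ.sub hψ
  set vK := ∫ _x in K, (1 : ℝ) with hvK
  have hvKpos : 0 < vK := by
    have h1 : 0 < volume K := by
      have : 0 < volume (interior K) := isOpen_interior.measure_pos _ hi
      exact this.trans_le (measure_mono interior_subset)
    rw [hvK]
    simp only [setIntegral_const, smul_eq_mul, mul_one, Measure.real]
    exact ENNReal.toReal_pos h1.ne' hK.measure_lt_top.ne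
  have iu : IntegrableOn u K := huc.continuousOn.integrableOn_compact hK
  set m := (∫ x in K, u x) / vK with hm
  set ub : E d → ℝ := fun x => u x - m with hub
  have hubc : Continuous ub := huc.sub continuous_const
  have iub : IntegrableOn ub K := hubc.continuousOn.integrableOn_compact hK
  obtain ⟨Cu, hCu⟩ := hK.exists_bound_of_continuousOn hubc.continuousOn
  have hCu' : ∀ x ∈ K, |ub x| ≤ Cu := fun x hx => hCu x hx
  have hub0 : ∫ x in K, ub x = 0 := by
    have i1 : IntegrableOn (fun _ : E d => m) K := integrableOn_const hK.measure_lt_top.ne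
    have e0 := integral_sub (μ := volume.restrict K) iu i1
    rw [hub, e0, setIntegral_const]
    have e1 : (volume : Measure (E d)).real K = vK := by
      rw [hvK]
      simp
    rw [e1, smul_eq_mul, hm]
    field_simp
    ring
  set Us := ∫ x in K, ub x ^ 2 with hUs
  have hUs0 : 0 ≤ Us := integral_nonneg fun _ => by positivity
  set W2 := ∑ i, n i * ‖w₁ i - w₀ i‖ ^ 2 with hW2
  have hW20 : 0 ≤ W2 := Finset.sum_nonneg fun i _ => mul_nonneg (hn0 i).le (by positivity)
  -- the bound on `ub`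
  have hUb : Us ≤ 25 * R ^ 2 * W2 := by
    have hpb := path_bound (R := R) (g := fun x => -ub x) (M := Cu) hK hconv hi hR hpath hn0 hnK
      hubc.neg.measurable (fun x hx => by rw [abs_neg]; exact hCu' x hx)
      (by rw [integral_neg, hub0, neg_zero])
      (a₀ := a₀) (a₁ := a₁) (by rwa [wt_zero]) (by rwa [wt_one])
    rw [wt_zero, wt_one] at hpb
    have e2 : ∫ x in K, (-ub x) ^ 2 = Us := by simp [hUs]
    rw [e2] at hpb
    have e3 : (∫ x in K, pw w₁ a₁ x * -ub x) - (∫ x in K, pw w₀ a₀ x * -ub x) = Us := by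
      have hM2 : ∀ x ∈ K, |-ub x| ≤ Cu := fun x hx => by rw [abs_neg]; exact hCu' x hx
      have i1 := pw_mul_int (g := fun x => -ub x) hK hubc.neg.measurable hM2 w₁ a₁
      have i2 := pw_mul_int (g := fun x => -ub x) hK hubc.neg.measurable hM2 w₀ a₀
      rw [← integral_sub i1 i2]
      have i3 : IntegrableOn (fun x => m * ub x) K := iub.const_mul m
      have e4 : Us = (∫ x in K, ub x ^ 2) + ∫ x in K, m * ub x := by
        rw [integral_const_mul, hub0]
        ring
      rw [e4]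
      have i4 : IntegrableOn (fun x => ub x ^ 2) K :=
        (hubc.pow 2).continuousOn.integrableOn_compact hK
      rw [← integral_add i4 i3]
      refine integral_congr_ae (Eventually.of_forall fun x => ?_)
      show pw w₁ a₁ x * -ub x - pw w₀ a₀ x * -ub x = ub x ^ 2 + m * ub x
      have : ub x = φ x - ψ x - m := rfl
      rw [hφd, hψd] at this
      rw [this]
      ring
    rw [e3] at hpb
    -- conclude
    rcases hUs0.eq_or_lt with h0 | h0
    · rw [← h0]
      positivity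
    · have hs := Real.sqrt_pos.mpr h0
      have hss : Real.sqrt Us * Real.sqrt Us = Us := Real.mul_self_sqrt hUs0
      have h3 : Real.sqrt Us * Real.sqrt Us ≤ Real.sqrt Us * (5 * R * Real.sqrt W2) := by
        rw [hss]
        refine hpb.trans (le_of_eq ?_)
        ring
      have h4 : Real.sqrt Us ≤ 5 * R * Real.sqrt W2 := le_of_mul_le_mul_left h3 hs
      have h5 : Real.sqrt W2 * Real.sqrt W2 = W2 := Real.mul_self_sqrt hW20
      have h6 := mul_self_le_mul_self (Real.sqrt_nonneg _) h4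
      rw [hss] at h6
      refine h6.trans (le_of_eq ?_)
      calc 5 * R * Real.sqrt W2 * (5 * R * Real.sqrt W2) =
          25 * R ^ 2 * (Real.sqrt W2 * Real.sqrt W2) := by ring
        _ = _ := by rw [h5]
  -- the function `legDiff`
  set Pf := legDiff K φ ψ with hPf
  have hPfc : Continuous Pf := legDiff_continuous hK hne hφ hψ hR
  have hLip : ∀ i, |Pf (w₀ i) - Pf (w₁ i)| ≤ 2 * R * ‖w₁ i - w₀ i‖ := by
    intro i
    rw [abs_le]
    have h1 := legDiff_lipschitz hK hne hφ hψ hR (w₀ i) (w₁ i)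
    have h2 := legDiff_lipschitz hK hne hφ hψ hR (w₁ i) (w₀ i)
    rw [norm_sub_rev] at h1
    constructor <;> linarith
  -- measurability and bounds of the halves
  set T := cellMap K w₀ a₀ with hT
  set S := cellMap K w₁ a₁ with hS
  have hTm : Measurable T := cellMap_measurable hKc _ _
  have hSm : Measurable S := cellMap_measurable hKc _ _
  obtain ⟨CP, hCP⟩ := (isCompact_closedBall (0 : E d) ((∑ i, ‖w₀ i‖) + ∑ i, ‖w₁ i‖)).exists_bound_of_continuousOn
    hPfc.continuousOn
  have hsum0 : 0 ≤ ∑ i, ‖w₀ i‖ := Finset.sum_nonneg fun _ _ => norm_nonneg _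
  have hsum1 : 0 ≤ ∑ i, ‖w₁ i‖ := Finset.sum_nonneg fun _ _ => norm_nonneg _
  have hPT : ∀ x, |Pf (T x)| ≤ CP := fun x => hCP _ (by
    rw [mem_closedBall_zero_iff]
    have := cellMap_norm_le K w₀ a₀ x
    linarith)
  have hPS : ∀ x, |Pf (S x)| ≤ CP := fun x => hCP _ (by
    rw [mem_closedBall_zero_iff]
    have := cellMap_norm_le K w₁ a₁ x
    linarith)
  obtain ⟨Cv, hCv⟩ := hK.exists_bound_of_continuousOn huc.continuousOn
  have hCv' : ∀ x ∈ K, |u x| ≤ Cv := fun x hx => hCv x hx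
  set g1 : E d → ℝ := fun x => Pf (T x) - u x with hg1
  set g2 : E d → ℝ := fun x => u x - Pf (S x) with hg2
  have hg1m : Measurable g1 := (hPfc.measurable.comp hTm).sub huc.measurable
  have hg2m : Measurable g2 := huc.measurable.sub (hPfc.measurable.comp hSm)
  have hCg1 : ∀ x ∈ K, |g1 x| ≤ CP + Cv := fun x hx =>
    (abs_sub _ _).trans (add_le_add (hPT x) (hCv' x hx))
  have hCg2 : ∀ x ∈ K, |g2 x| ≤ Cv + CP := fun x hx =>
    (abs_sub _ _).trans (add_le_add (hCv' x hx) (hPS x))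
  -- the open cells
  set O₀ : I → Set (E d) := fun i => ocell K w₀ a₀ i with hO₀
  set O₁ : I → Set (E d) := fun i => ocell K w₁ a₁ i with hO₁
  have hO₀m : ∀ i, MeasurableSet (O₀ i) := fun i => measurableSet_ocell hKc _ _ _
  have hO₁m : ∀ i, MeasurableSet (O₁ i) := fun i => measurableSet_ocell hKc _ _ _
  have hO₀K : ∀ i, O₀ i ⊆ K := fun i x hx => hx.1
  have hO₁K : ∀ i, O₁ i ⊆ K := fun i x hx => hx.1
  have hm₀ : ∀ i, ∫ _x in O₀ i, (1 : ℝ) = n i := fun i => by
    rw [← ha₀ i]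
    exact (setIntegral_congr_set (cell_ae_eq_ocell hw₀)).symm
  have hm₁ : ∀ i, ∫ _x in O₁ i, (1 : ℝ) = n i := fun i => by
    rw [← ha₁ i]
    exact (setIntegral_congr_set (cell_ae_eq_ocell hw₁)).symm
  have hs₀ : ∀ f : E d → ℝ, IntegrableOn f K → ∑ i, ∫ x in O₀ i, f x = ∫ x in K, f x :=
    fun f hf => integral_ocells hKc hw₀ a₀ hf
  have hs₁ : ∀ f : E d → ℝ, IntegrableOn f K → ∑ i, ∫ x in O₁ i, f x = ∫ x in K, f x :=
    fun f hf => integral_ocells hKc hw₁ a₁ hf
  -- the first half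
  have hB1 : ∫ x in K, g1 x ^ 2 ≤ 3 * (Us + ∑ i, n i * (2 * R * ‖w₁ i - w₀ i‖) ^ 2 + Us) := by
    refine L2_side (A := fun i => max (Pf (w₁ i) - m) 0) (e := fun i => 2 * R * ‖w₁ i - w₀ i‖) hK
      hO₀m hO₁m hO₀K hO₁K hm₀ hm₁ hs₀ hs₁ hubc.measurable hg1m hCu' hCg1
      (fun i => le_max_right _ _) (fun i => by positivity) ?_ ?_
    · intro i x hx
      have h1 : T x = w₀ i := cellMap_eq hx
      have h2 : u x ≤ Pf (w₀ i) := u_le_legDiff hK hψ hx
      have h3 := (abs_le.mp (hLip i)).2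
      have h4 : g1 x = Pf (w₀ i) - u x := by
        simp only [hg1, h1]
      rw [h4]
      constructor
      · linarith
      · have h5 := le_max_left (Pf (w₁ i) - m) 0
        have h6 := neg_le_abs (ub x)
        have h7 : ub x = u x - m := rfl
        linarith
    · intro i x hx
      have h2 : Pf (w₁ i) ≤ u x := legDiff_le_u hK hφ hx
      have h7 : ub x = u x - m := rfl
      rcases le_total (Pf (w₁ i) - m) 0 with h | h
      · rw [max_eq_right h]
        simp only [ne_eq, OfNat.ofNat_ne_zero, not_false_eq_true, zero_pow]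
        positivity
      · rw [max_eq_left h]
        exact pow_le_pow_left₀ h (by linarith) 2
  have hB2 : ∫ x in K, g2 x ^ 2 ≤ 3 * (Us + ∑ i, n i * (2 * R * ‖w₁ i - w₀ i‖) ^ 2 + Us) := by
    refine L2_side (A := fun i => max (m - Pf (w₀ i)) 0) (e := fun i => 2 * R * ‖w₁ i - w₀ i‖) hK
      hO₁m hO₀m hO₁K hO₀K hm₁ hm₀ hs₁ hs₀ hubc.measurable hg2m hCu' hCg2
      (fun i => le_max_right _ _) (fun i => by positivity) ?_ ?_
    · intro i x hx
      have h1 : S x = w₁ i := cellMap_eq hx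
      have h2 : Pf (w₁ i) ≤ u x := legDiff_le_u hK hφ hx
      have h3 := (abs_le.mp (hLip i)).2
      have h4 : g2 x = u x - Pf (w₁ i) := by
        simp only [hg2, h1]
      rw [h4]
      constructor
      · linarith
      · have h5 := le_max_left (m - Pf (w₀ i)) 0
        have h6 := le_abs_self (ub x)
        have h7 : ub x = u x - m := rfl
        linarith
    · intro i x hx
      have h2 : u x ≤ Pf (w₀ i) := u_le_legDiff hK hψ hx
      have h7 : ub x = u x - m := rfl
      rcases le_total (m - Pf (w₀ i)) 0 with h | h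
      · rw [max_eq_right h]
        simp only [ne_eq, OfNat.ofNat_ne_zero, not_false_eq_true, zero_pow]
        positivity
      · rw [max_eq_left h]
        have : (m - Pf (w₀ i)) ^ 2 ≤ (-ub x) ^ 2 := pow_le_pow_left₀ h (by linarith) 2
        simpa using this
  -- conclusion
  have e5 : ∑ i, n i * (2 * R * ‖w₁ i - w₀ i‖) ^ 2 = 4 * R ^ 2 * W2 := by
    rw [hW2, Finset.mul_sum]
    refine Finset.sum_congr rfl fun i _ => ?_
    ring
  rw [e5] at hB1 hB2
  have hgap : ∀ x, gapFun K φ ψ T S x = g1 x + g2 x := by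
    intro x
    show Pf (T x) - Pf (S x) = Pf (T x) - u x + (u x - Pf (S x))
    ring
  have i1 : IntegrableOn (fun x => g1 x ^ 2) K := integrableOn_of_bdd hK (hg1m.pow_const 2)
    (C := (CP + Cv) ^ 2) fun x hx => by
      rw [abs_pow]
      exact pow_le_pow_left₀ (abs_nonneg _) (hCg1 x hx) 2
  have i2 : IntegrableOn (fun x => g2 x ^ 2) K := integrableOn_of_bdd hK (hg2m.pow_const 2)
    (C := (Cv + CP) ^ 2) fun x hx => by
      rw [abs_pow]
      exact pow_le_pow_left₀ (abs_nonneg _) (hCg2 x hx) 2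
  have hGm : Measurable fun x => gapFun K φ ψ T S x ^ 2 := by
    have : (fun x => gapFun K φ ψ T S x ^ 2) = fun x => (g1 x + g2 x) ^ 2 := by
      funext x
      rw [hgap]
    rw [this]
    exact (hg1m.add hg2m).pow_const 2
  have i3 : IntegrableOn (fun x => gapFun K φ ψ T S x ^ 2) K := by
    refine integrableOn_of_bdd hK hGm (C := (CP + Cv + (Cv + CP)) ^ 2) fun x hx => ?_
    rw [hgap, abs_pow]
    exact pow_le_pow_left₀ (abs_nonneg _)
      ((abs_add_le _ _).trans (add_le_add (hCg1 x hx) (hCg2 x hx))) 2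
  have hle : ∫ x in K, gapFun K φ ψ T S x ^ 2 ≤ ∫ x in K, (2 * g1 x ^ 2 + 2 * g2 x ^ 2) := by
    refine setIntegral_mono_on i3 ((i1.const_mul 2).add (i2.const_mul 2)) hKm fun x _ => ?_
    rw [hgap]
    nlinarith [sq_nonneg (g1 x - g2 x)]
  have e6 := integral_add (μ := volume.restrict K) (i1.const_mul 2) (i2.const_mul 2)
  rw [e6, integral_const_mul, integral_const_mul] at hle
  nlinarith

end Atomic

end Main

end Vale.Agent.P074
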