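import Vale.Agent.P074.Legendre

/-!
# The boundary layer of a convex body under a small shift
-/

open MeasureTheory Set Metric
open scoped ENNReal NNReal

namespace Vale.Agent.P074

variable {d : ℕ}

/-- The set of points of `K` whose shift by `-δ e` stays in `K`. -/
def shiftIn (K : Set (E d)) (δ : ℝ) (e : E d) : Set (E d) := {x | x ∈ K ∧ x - δ • e ∈ K}

theorem measurableSet_shiftIn {K : Set (E d)} (hK : IsCompact K) (δ : ℝ) (e : E d) :
    MeasurableSet (shiftIn K δ e) := by
  have hm : MeasurableSet K := hK.isClosed.measurableSet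
  have : shiftIn K δ e = K ∩ (fun x => x - δ • e) ⁻¹' K := rfl
  rw [this]
  exact hm.inter ((measurable_id.sub_const _) hm)

theorem homothety_subset_shiftIn {K : Set (E d)} (hconv : Convex ℝ K) {c : E d} {r δ : ℝ}
    (hr : 0 < r) (hball : closedBall c r ⊆ K) (hδ : 0 < δ) (hδr : δ ≤ r) {e : E d}
    (he : ‖e‖ = 1) :
    (AffineMap.homothety c (1 - δ / r)) '' K ⊆ shiftIn K δ e := by
  rintro _ ⟨k, hk, rfl⟩
  have hcK : c ∈ K := hball (mem_closedBall_self hr.le)
  have hlam0 : 0 ≤ 1 - δ / r := by
    have : δ / r ≤ 1 := (div_le_one hr).mpr hδr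
    linarith
  have hmu0 : 0 < δ / r := div_pos hδ hr
  have hh : AffineMap.homothety c (1 - δ / r) k = (1 - δ / r) • k + (δ / r) • c := by
    rw [AffineMap.homothety_apply]
    simp only [vsub_eq_sub, vadd_eq_add, smul_sub, sub_smul, one_smul]
    abel
  rw [hh]
  constructor
  · exact hconv hk hcK hlam0 hmu0.le (by ring)
  · have hp : c - r • e ∈ K := by
      apply hball
      rw [mem_closedBall_iff_norm]
      simp [norm_smul, he, abs_of_pos hr]
    have e2 : (1 - δ / r) • k + (δ / r) • c - δ • e = (1 - δ / r) • k + (δ / r) • (c - r • e) := by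
      have : (δ / r) • (r • e) = δ • e := by
        rw [smul_smul]
        congr 1
        field_simp
      rw [smul_sub, this]
      abel
    rw [e2]
    exact hconv hk hp hlam0 hmu0.le (by ring)

/-- The layer of `K` lost under a shift by `δ` has measure at most `d δ / r` times `|K|`. -/
theorem layer_measure_le {K : Set (E d)} (hK : IsCompact K) (hconv : Convex ℝ K) {c : E d}
    {r δ : ℝ} (hr : 0 < r) (hball : closedBall c r ⊆ K) (hδ : 0 < δ) (hδr : δ ≤ r) {e : E d}
    (he : ‖e‖ = 1) :
    (volume (K \ shiftIn K δ e)).toReal ≤ (volume K).toReal * (d * δ / r) := by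
  have hfin : volume K ≠ ∞ := hK.measure_lt_top.ne
  have hm := measurableSet_shiftIn hK δ e
  have hsub : shiftIn K δ e ⊆ K := fun x hx => hx.1
  have hfin2 : volume (shiftIn K δ e) ≠ ∞ := (measure_mono hsub).trans_lt hK.measure_lt_top |>.ne
  rw [measure_sdiff hsub hm.nullMeasurableSet hfin2,
    ENNReal.toReal_sub_of_le (measure_mono hsub) hfin]
  have hlam0 : 0 ≤ 1 - δ / r := by
    have : δ / r ≤ 1 := (div_le_one hr).mpr hδr
    linarith
  have hhom := homothety_subset_shiftIn hconv hr hball hδ hδr he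
  have hvol : volume ((AffineMap.homothety c (1 - δ / r)) '' K) =
      ENNReal.ofReal ((1 - δ / r) ^ d) * volume K := by
    rw [Measure.addHaar_image_homothety]
    have hfr : Module.finrank ℝ (E d) = d := by simp
    rw [hfr, abs_of_nonneg (by positivity)]
  have h1 : (1 - δ / r) ^ d * (volume K).toReal ≤ (volume (shiftIn K δ e)).toReal := by
    have h2 := measure_mono (μ := volume) hhom
    rw [hvol] at h2
    have h3 := ENNReal.toReal_mono hfin2 h2
    rwa [ENNReal.toReal_mul, ENNReal.toReal_ofReal (by positivity)] at h3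
  have hb : 1 + (d : ℝ) * (-(δ / r)) ≤ (1 + -(δ / r)) ^ d := by
    apply one_add_mul_le_pow
    have : δ / r ≤ 1 := (div_le_one hr).mpr hδr
    linarith
  have hV : 0 ≤ (volume K).toReal := ENNReal.toReal_nonneg
  have e3 : (1 + -(δ / r)) = 1 - δ / r := by ring
  rw [e3] at hb
  have e4 : (d : ℝ) * δ / r = (d : ℝ) * (δ / r) := by ring
  rw [e4]
  nlinarith

end Vale.Agent.P074
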