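import Vale.Agent.P074.Counter

/-!
# Legendre transform over a compact set and the Fenchel gap
-/

open MeasureTheory Set Metric
open scoped ENNReal NNReal RealInnerProductSpace

namespace Vale.Agent.P074

variable {d : ℕ}

/-- The Legendre transform of `φ` over the set `K`. -/
noncomputable def legendre (K : Set (E d)) (φ : E d → ℝ) (y : E d) : ℝ :=
  sSup ((fun x => (inner ℝ x y) - φ x) '' K)

theorem legendre_bdd {K : Set (E d)} (hK : IsCompact K) {φ : E d → ℝ} (hφ : Continuous φ)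
    (y : E d) : BddAbove ((fun x => (inner ℝ x y) - φ x) '' K) := by
  have hc : Continuous fun x : E d => (inner ℝ x y) - φ x := by fun_prop
  exact (hK.image hc).bddAbove

theorem le_legendre {K : Set (E d)} (hK : IsCompact K) {φ : E d → ℝ} (hφ : Continuous φ)
    {x : E d} (hx : x ∈ K) (y : E d) : (inner ℝ x y) - φ x ≤ legendre K φ y :=
  le_csSup (legendre_bdd hK hφ y) ⟨x, hx, rfl⟩

theorem legendre_eq {K : Set (E d)} (hK : IsCompact K) {φ : E d → ℝ} (hφ : Continuous φ)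
    {x y : E d} (hx : x ∈ K) (hsub : ∀ z ∈ K, φ x + (inner ℝ (z - x) y) ≤ φ z) :
    legendre K φ y = (inner ℝ x y) - φ x := by
  apply le_antisymm _ (le_legendre hK hφ hx y)
  show sSup ((fun x => (inner ℝ x y) - φ x) '' K) ≤ _
  refine csSup_le (Set.Nonempty.image _ ⟨x, hx⟩) ?_
  rintro _ ⟨z, hz, rfl⟩
  have h := hsub z hz
  rw [inner_sub_left] at h
  simp only
  linarith

theorem legendre_lipschitz {K : Set (E d)} (hK : IsCompact K) (hne : K.Nonempty) {φ : E d → ℝ}
    (hφ : Continuous φ) {RK : ℝ} (hRK : ∀ x ∈ K, ‖x‖ ≤ RK) (y y' : E d) :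
    legendre K φ y ≤ legendre K φ y' + RK * ‖y - y'‖ := by
  show sSup ((fun x => (inner ℝ x y) - φ x) '' K) ≤ _
  refine csSup_le (hne.image _) ?_
  rintro _ ⟨x, hx, rfl⟩
  have h1 := le_legendre hK hφ hx y'
  have h2 : (inner ℝ x y) - (inner ℝ x y') ≤ RK * ‖y - y'‖ := by
    rw [← inner_sub_right]
    calc (inner ℝ x (y - y')) ≤ ‖x‖ * ‖y - y'‖ := real_inner_le_norm _ _
      _ ≤ RK * ‖y - y'‖ := mul_le_mul_of_nonneg_right (hRK x hx) (norm_nonneg _)
  simp only
  linarith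

/-- The difference of Legendre transforms of two functions. -/
noncomputable def legDiff (K : Set (E d)) (φ ψ : E d → ℝ) (y : E d) : ℝ :=
  legendre K ψ y - legendre K φ y

theorem legDiff_lipschitz {K : Set (E d)} (hK : IsCompact K) (hne : K.Nonempty) {φ ψ : E d → ℝ}
    (hφ : Continuous φ) (hψ : Continuous ψ) {RK : ℝ} (hRK : ∀ x ∈ K, ‖x‖ ≤ RK) (y y' : E d) :
    legDiff K φ ψ y - legDiff K φ ψ y' ≤ 2 * RK * ‖y - y'‖ := by
  have h1 := legendre_lipschitz hK hne hψ hRK y y'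
  have h2 := legendre_lipschitz hK hne hφ hRK y' y
  rw [norm_sub_rev] at h2
  unfold legDiff
  linarith

theorem legDiff_continuous {K : Set (E d)} (hK : IsCompact K) (hne : K.Nonempty) {φ ψ : E d → ℝ}
    (hφ : Continuous φ) (hψ : Continuous ψ) {RK : ℝ} (hRK : ∀ x ∈ K, ‖x‖ ≤ RK) :
    Continuous (legDiff K φ ψ) := by
  have hRK0 : 0 ≤ RK := (norm_nonneg _).trans (hRK _ hne.some_mem)
  have : LipschitzWith (2 * RK).toNNReal (legDiff K φ ψ) := by
    apply LipschitzWith.of_le_add_mul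
    intro y y'
    have := legDiff_lipschitz hK hne hφ hψ hRK y y'
    rw [Real.coe_toNNReal _ (by positivity), dist_eq_norm]
    linarith
  exact this.continuous

/-- The subgradient inequality at `x` with slope `y`, tested on `K`. -/
def IsSubgradOn (K : Set (E d)) (φ : E d → ℝ) (x y : E d) : Prop :=
  ∀ z ∈ K, φ x + (inner ℝ (z - x) y) ≤ φ z

/-- The Fenchel gap decomposition: when `T x` is a subgradient of `φ` at `x` and `S x` is a
subgradient of `ψ` at `x`, the quantity `G x = w (T x) - w (S x)` bounds both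
`⟪S z - T x, x - z⟫` and `⟪T z - S x, x - z⟫`. -/
theorem gap_bound {K : Set (E d)} (hK : IsCompact K) {φ ψ : E d → ℝ} (hφ : Continuous φ)
    (hψ : Continuous ψ) {x z Tx Sx Tz Sz : E d} (hx : x ∈ K) (hz : z ∈ K)
    (hTx : IsSubgradOn K φ x Tx) (hSx : IsSubgradOn K ψ x Sx)
    (hTz : IsSubgradOn K φ z Tz) (hSz : IsSubgradOn K ψ z Sz) :
    (inner ℝ (Sz - Tx) (x - z)) ≤ legDiff K φ ψ Tx - legDiff K φ ψ Sx ∧
    (inner ℝ (Tz - Sx) (x - z)) ≤ legDiff K φ ψ Tx - legDiff K φ ψ Sx ∧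
    0 ≤ legDiff K φ ψ Tx - legDiff K φ ψ Sx := by
  have e1 : legendre K φ Tx = (inner ℝ x Tx) - φ x := legendre_eq hK hφ hx hTx
  have e2 : legendre K ψ Sx = (inner ℝ x Sx) - ψ x := legendre_eq hK hψ hx hSx
  -- the two gaps
  have g1 : ∀ w ∈ K, (inner ℝ w Tx) - ψ w ≤ legendre K ψ Tx := fun w hw => le_legendre hK hψ hw Tx
  have g2 : ∀ w ∈ K, (inner ℝ w Sx) - φ w ≤ legendre K φ Sx := fun w hw => le_legendre hK hφ hw Sx
  have h1 := g1 z hz
  have h1' := g1 x hx
  have h2 := g2 z hz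
  have h2' := g2 x hx
  have s1 := hSz x hx
  have s2 := hTz x hx
  unfold legDiff
  rw [e1, e2]
  have i1 : (inner ℝ (Sz - Tx) (x - z)) = (inner ℝ (x - z) Sz) + (inner ℝ z Tx) - (inner ℝ x Tx) := by
    simp only [inner_sub_left, inner_sub_right]
    linarith [real_inner_comm x Sz, real_inner_comm z Sz, real_inner_comm x Tx, real_inner_comm z Tx]
  have i2 : (inner ℝ (Tz - Sx) (x - z)) = (inner ℝ (x - z) Tz) + (inner ℝ z Sx) - (inner ℝ x Sx) := by
    simp only [inner_sub_left, inner_sub_right]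
    linarith [real_inner_comm x Tz, real_inner_comm z Tz, real_inner_comm x Sx, real_inner_comm z Sx]
  rw [i1, i2]
  refine ⟨by linarith, by linarith, by linarith⟩

/-- Monotonicity of subgradients. -/
theorem subgrad_mono {K : Set (E d)} {φ : E d → ℝ} {x z Tx Tz : E d} (hx : x ∈ K) (hz : z ∈ K)
    (hTx : IsSubgradOn K φ x Tx) (hTz : IsSubgradOn K φ z Tz) :
    0 ≤ (inner ℝ (Tx - Tz) (x - z)) := by
  have h1 := hTx z hz
  have h2 := hTz x hx
  have e1 : (inner ℝ (z - x) Tx) = - (inner ℝ Tx (x - z)) := by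
    rw [real_inner_comm, ← inner_neg_right, neg_sub]
  have e2 : (inner ℝ (x - z) Tz) = (inner ℝ Tz (x - z)) := real_inner_comm _ _
  rw [inner_sub_left]
  linarith

end Vale.Agent.P074
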