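import Vale.Agent.P074.NstarCore

/-!
# The Lipschitz estimate for barycenters of cells in terms of the density
-/

open MeasureTheory Set Metric Filter Topology
open scoped ENNReal NNReal

set_option linter.unusedSectionVars false
set_option linter.unusedSimpArgs false
set_option linter.unusedVariables false

namespace Vale.Agent.P074

variable {d : ℕ} {I : Type} [Fintype I]

theorem noPlane_volume : NoPlane (volume : Measure (E d)) := by
  intro j t
  have hn : (EuclideanSpace.single j (1 : ℝ) : E d) ≠ 0 := by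
    intro h
    have := congrArg (fun x : E d => x j) h
    simp at this
  have := hyperplane_null hn t
  have e : {x : E d | inner ℝ x (EuclideanSpace.single j (1 : ℝ)) = t} = {x : E d | x j = t} := by
    ext x
    simp [EuclideanSpace.inner_single_right]
  rwa [e] at this

theorem noPlane_of_ac {ν : Measure (E d)} (h : ν ≪ volume) : NoPlane ν :=
  fun j t => h (noPlane_volume j t)

/-- The measure with density `r` on `B`. -/
noncomputable def nuB (B : Set (E d)) (r : E d → ℝ) : Measure (E d) :=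
  (volume.restrict B).withDensity fun x => ENNReal.ofReal (r x)

section Nu

variable {K B : Set (E d)} {r : E d → ℝ}

theorem nuB_ac (B : Set (E d)) (r : E d → ℝ) : nuB B r ≪ volume :=
  (withDensity_absolutelyContinuous _ _).trans Measure.restrict_le_self.absolutelyContinuous

theorem nuB_finite (hK : IsCompact K) (hr : Dens K r) (hBK : B ⊆ K) :
    IsFiniteMeasure (nuB B r) := by
  have h : IntegrableOn r B volume := (hr.integrableOn hK).mono_set hBK
  exact isFiniteMeasure_withDensity_ofReal h.2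

theorem nuB_integral (hr : Dens K r) (hBm : MeasurableSet B) (hBK : B ⊆ K) {S : Set (E d)}
    (hS : MeasurableSet S) (f : E d → ℝ) :
    ∫ x in S, f x ∂(nuB B r) = ∫ x in S ∩ B, r x * f x := by
  unfold nuB
  rw [setIntegral_withDensity_eq_setIntegral_toReal_smul hr.meas.ennreal_ofReal
    (Eventually.of_forall fun x => ENNReal.ofReal_lt_top) f hS, Measure.restrict_restrict hS]
  refine integral_congr_ae ?_
  have hm : ∀ᵐ x ∂(volume.restrict (S ∩ B)), x ∈ S ∩ B := ae_restrict_mem (hS.inter hBm)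
  filter_upwards [hm] with x hx
  rw [ENNReal.toReal_ofReal (by linarith [hr.lo x (hBK hx.2)]), smul_eq_mul]

theorem nuB_real (hr : Dens K r) (hBm : MeasurableSet B) (hBK : B ⊆ K) {S : Set (E d)}
    (hS : MeasurableSet S) : (nuB B r).real S = ∫ x in S ∩ B, r x := by
  rw [real_eq_integral_one, nuB_integral hr hBm hBK hS]
  simp

theorem nuB_integrable (hK : IsCompact K) (hr : Dens K r) (hBm : MeasurableSet B) (hBK : B ⊆ K)
    {g : E d → ℝ} (hg : Measurable g) {C : ℝ} (hC : ∀ x ∈ K, |g x| ≤ C) :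
    Integrable (fun x => g x / r x) (nuB B r) := by
  have hfin := nuB_finite hK hr hBK
  have hae : ∀ᵐ x ∂(nuB B r), x ∈ B := by
    have h1 : ∀ᵐ x ∂(volume.restrict B), x ∈ B := ae_restrict_mem hBm
    exact (withDensity_absolutelyContinuous _ _).ae_le h1
  refine Integrable.of_bound (hg.div hr.meas).aestronglyMeasurable (2 * C) ?_
  filter_upwards [hae] with x hx
  have hxK := hBK hx
  have h1 := hr.lo x hxK
  have h2 := hC x hxK
  have h3 : 0 ≤ C := (abs_nonneg _).trans h2
  rw [Real.norm_eq_abs, abs_div, abs_of_pos (by linarith : 0 < r x), div_le_iff₀ (by linarith)]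
  nlinarith

end Nu

section Main

variable {K : Set (E d)} {R : ℝ} {r : E d → ℝ} {w : I → E d} {a b : I → ℝ} {n : I → ℝ}

/-- A set contained in a half space and another one in the opposite half space overlap in a null
set. -/
theorem aedisj_of_halfspaces {S S' : Set (E d)} {m : E d} (hm : m ≠ 0) {c : ℝ}
    (h1 : ∀ x ∈ S, inner ℝ x m ≤ c) (h2 : ∀ x ∈ S', c ≤ inner ℝ x m) :
    AEDisjoint volume S S' := by
  refine measure_mono_null ?_ (hyperplane_null hm c)
  rintro x ⟨hx, hx'⟩
  exact le_antisymm (h1 x hx) (h2 x hx')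

theorem aedisj_of_coord {S S' : Set (E d)} {j : Fin d} {c : ℝ}
    (h1 : ∀ x ∈ S, x j ≤ c) (h2 : ∀ x ∈ S', c ≤ x j) : AEDisjoint volume S S' := by
  refine measure_mono_null ?_ (noPlane_volume j c)
  rintro x ⟨hx, hx'⟩
  exact le_antisymm (h1 x hx) (h2 x hx')

theorem aedisj_of_sep {τ : ℝ} (h0 : 0 ≤ τ) (h1 : τ ≤ 1) {P P' : Bx d × Bx d} (hs : Sep P P') :
    AEDisjoint volume (Bx.interp τ P).toSet (Bx.interp τ P').toSet := by
  obtain ⟨j, t, t', h2, h3, h4, h5⟩ := hs
  have hτ' : 0 ≤ 1 - τ := by linarith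
  refine aedisj_of_coord (j := j) (c := (1 - τ) * t + τ * t') ?_ ?_
  · intro x hx
    have := (hx j).2
    simp only [Bx.interp] at this
    have a1 := mul_le_mul_of_nonneg_left h2 hτ'
    have a2 := mul_le_mul_of_nonneg_left h4 h0
    linarith
  · intro x hx
    have := (hx j).1
    simp only [Bx.interp] at this
    have a1 := mul_le_mul_of_nonneg_left h3 hτ'
    have a2 := mul_le_mul_of_nonneg_left h5 h0
    linarith

theorem aedisj_of_cells (hw : Function.Injective w) {τ : ℝ} (h0 : 0 ≤ τ) (h1 : τ ≤ 1)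
    {P P' : Bx d × Bx d} (hP1 : P.1.le) (hP2 : P.2.le) (hP1' : P'.1.le) (hP2' : P'.2.le) {i i' : I}
    (hii : i ≠ i') (ha : P.1.toSet ⊆ cell K w a i) (hb : P.2.toSet ⊆ cell K w b i)
    (ha' : P'.1.toSet ⊆ cell K w a i') (hb' : P'.2.toSet ⊆ cell K w b i') :
    AEDisjoint volume (Bx.interp τ P).toSet (Bx.interp τ P').toSet := by
  have hτ' : 0 ≤ 1 - τ := by linarith
  have hm : w i' - w i ≠ 0 := sub_ne_zero.mpr fun e => hii (hw e.symm)
  refine aedisj_of_halfspaces hm (c := (1 - τ) * (a i' - a i) + τ * (b i' - b i)) ?_ ?_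
  · intro x hx
    obtain ⟨y, hy, y', hy', rfl⟩ := Bx.interp_decomp h0 h1 hP1 hP2 hx
    have a1 := (ha hy).2 i'
    have a2 := (hb hy').2 i'
    rw [inner_add_left, inner_smul_left, inner_smul_left, inner_sub_right, inner_sub_right]
    simp only [conj_trivial]
    have a3 := mul_le_mul_of_nonneg_left (by linarith :
      inner ℝ y (w i') - inner ℝ y (w i) ≤ a i' - a i) hτ'
    have a4 := mul_le_mul_of_nonneg_left (by linarith :
      inner ℝ y' (w i') - inner ℝ y' (w i) ≤ b i' - b i) h0
    linarith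
  · intro x hx
    obtain ⟨y, hy, y', hy', rfl⟩ := Bx.interp_decomp h0 h1 hP1' hP2' hx
    have a1 := (ha' hy).2 i
    have a2 := (hb' hy').2 i
    rw [inner_add_left, inner_smul_left, inner_smul_left, inner_sub_right, inner_sub_right]
    simp only [conj_trivial]
    have a3 := mul_le_mul_of_nonneg_left (by linarith :
      a i' - a i ≤ inner ℝ y (w i') - inner ℝ y (w i)) hτ'
    have a4 := mul_le_mul_of_nonneg_left (by linarith :
      b i' - b i ≤ inner ℝ y' (w i') - inner ℝ y' (w i)) h0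
    linarith

/-- The boundary layer of a closed convex set. -/
def thick (A : Set (E d)) (ρ : ℝ) : Set (E d) := A ∩ cthickening ρ Aᶜ

theorem measurableSet_thick {A : Set (E d)} (hA : IsClosed A) (ρ : ℝ) :
    MeasurableSet (thick A ρ) :=
  hA.measurableSet.inter isClosed_cthickening.measurableSet

theorem tendsto_thick {A : Set (E d)} (hA : IsCompact A) (hconv : Convex ℝ A) :
    Tendsto (fun ρ => volume (thick A ρ)) (𝓝 (0 : ℝ)) (𝓝 0) := by
  have hm := hA.isClosed.measurableSet
  have hfin : volume.restrict A univ ≠ ∞ := by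
    rw [Measure.restrict_apply_univ]
    exact hA.measure_lt_top.ne
  have h1 := tendsto_measure_cthickening (μ := volume.restrict A) (s := Aᶜ)
    ⟨1, one_pos, ((measure_mono (subset_univ _)).trans_lt hfin.lt_top).ne⟩
  have e1 : ∀ ρ, volume.restrict A (cthickening ρ Aᶜ) = volume (thick A ρ) := by
    intro ρ
    rw [Measure.restrict_apply isClosed_cthickening.measurableSet, thick, inter_comm]
  have e2 : volume.restrict A (closure Aᶜ) = 0 := by
    rw [Measure.restrict_apply isClosed_closure.measurableSet, closure_compl]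
    refine measure_mono_null ?_ (hconv.addHaar_frontier volume)
    rintro x ⟨h2, h3⟩
    exact ⟨subset_closure h3, h2⟩
  simp only [e1, e2] at h1
  exact h1

/-- A box containing `K`. -/
def bigBox (R : ℝ) : Bx d := ⟨fun _ => -R, fun _ => R⟩

theorem mem_bigBox (hR : ∀ x ∈ K, ‖x‖ ≤ R) {x : E d} (hx : x ∈ K) :
    x ∈ (bigBox R : Bx d).toSet := by
  intro j
  have h1 := PiLp.norm_apply_le x j
  have h2 := hR x hx
  rw [Real.norm_eq_abs] at h1
  exact abs_le.mp (h1.trans h2)

theorem integrable_bdd (hK : IsCompact K) {A : Set (E d)} (hA : A ⊆ K) {g : E d → ℝ}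
    (hg : Measurable g) {C : ℝ} (hC : ∀ x ∈ K, |g x| ≤ C) : IntegrableOn g A volume :=
  (integrableOn_of_bdd hK hg hC).mono_set hA

/-- Construction of the family of matched boxes. -/
theorem exists_refined [Nonempty I] (hK : IsCompact K) (hconv : Convex ℝ K) (hne : K.Nonempty)
    (hR : ∀ x ∈ K, ‖x‖ ≤ R) (hw : Function.Injective w) (hr : Dens K r)
    (hmA : ∀ i, ∫ _x in cell K w a i, (1 : ℝ) = n i) (hmB : ∀ i, ∫ x in cell K w b i, r x = n i)
    {h : ℝ} (hh : 0 < h) {ρ : ℝ} (hρ : (d : ℝ) * h ≤ ρ) :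
    ∃ (T : Type) (_ : Fintype T) (_ : DecidableEq T) (idx : T → I) (PA PB : T → Bx d)
      (SA SB : T → Set (E d)) (G : Finset T),
      Pieces K R r h PA PB SA SB G ∧
      (∀ v : I → E d, ∑ k, ((∫ x in SA k, inner ℝ x (v (idx k))) -
          ∫ x in SB k, inner ℝ x (v (idx k)) * r x) =
        ∑ i, ((∫ x in cell K w a i, inner ℝ x (v i)) - ∫ x in cell K w b i, inner ℝ x (v i) * r x)) ∧
      (∀ v : I → E d, ∑ k, (volume : Measure (E d)).real (SA k) * ‖v (idx k)‖ ^ 2 =
        ∑ i, n i * ‖v i‖ ^ 2) ∧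
      ∑ k ∈ Gᶜ, (volume : Measure (E d)).real (SA k) ≤
        ∑ i, ((volume : Measure (E d)).real (thick (cell K w a i) ρ) +
          3 / 2 * (volume : Measure (E d)).real (thick (cell K w b i) ρ)) := by
  classical
  have hKc := hK.isClosed
  have hR0 : 0 ≤ R := (norm_nonneg _).trans (hR _ hne.some_mem)
  set A : I → Set (E d) := fun i => cell K w a i with hA
  set B : I → Set (E d) := fun i => cell K w b i with hB
  have hAm : ∀ i, MeasurableSet (A i) := fun i => measurableSet_cell hKc w a i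
  have hBm : ∀ i, MeasurableSet (B i) := fun i => measurableSet_cell hKc w b i
  have hAK : ∀ i, A i ⊆ K := fun i => cell_subset
  have hBK : ∀ i, B i ⊆ K := fun i => cell_subset
  have hAfin : ∀ i, volume (A i) ≠ ∞ := fun i =>
    ((measure_mono (hAK i)).trans_lt hK.measure_lt_top).ne
  have hBfin : ∀ i, volume (B i) ≠ ∞ := fun i =>
    ((measure_mono (hBK i)).trans_lt hK.measure_lt_top).ne
  set Big : Bx d := bigBox R with hBig
  have hBigle : Big.le := fun j => by
    simp only [hBig, bigBox]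
    linarith
  have hAB : ∀ i, A i ⊆ Big.toSet := fun i x hx => mem_bigBox hR (hAK i hx)
  have hBB : ∀ i, B i ⊆ Big.toSet := fun i x hx => mem_bigBox hR (hBK i hx)
  -- the refinement in each cell
  have hRef : ∀ i, Refinable (volume.restrict (A i)) (nuB (B i) r) h Big Big := by
    intro i
    have : IsFiniteMeasure (volume.restrict (A i)) := ⟨by
      rw [Measure.restrict_apply_univ]
      exact (hAfin i).lt_top⟩
    have : IsFiniteMeasure (nuB (B i) r) := nuB_finite hK hr (hBK i)
    refine refinable (noPlane_of_ac Measure.restrict_le_self.absolutelyContinuous)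
      (noPlane_of_ac (nuB_ac _ _)) hh hBigle hBigle ?_
    rw [measureReal_restrict_apply Big.measurableSet_toSet, nuB_real hr (hBm i) (hBK i)
      Big.measurableSet_toSet, inter_eq_right.mpr (hAB i), inter_eq_right.mpr (hBB i), hmB i,
      ← hmA i]
    simp [hA]
  choose ι inst P hP using hRef
  let _ : ∀ i, Fintype (ι i) := inst
  let T : Type := Σ i, ι i
  let PA : T → Bx d := fun k => (P k.1 k.2).1
  let PB : T → Bx d := fun k => (P k.1 k.2).2
  let SA : T → Set (E d) := fun k => (PA k).toSet ∩ A k.1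
  let SB : T → Set (E d) := fun k => (PB k).toSet ∩ B k.1
  have hSAm : ∀ k, MeasurableSet (SA k) := fun k => (PA k).measurableSet_toSet.inter (hAm k.1)
  have hSBm : ∀ k, MeasurableSet (SB k) := fun k => (PB k).measurableSet_toSet.inter (hBm k.1)
  -- the sums in one cell
  have sumAi : ∀ (i : I) (g : E d → ℝ), Measurable g → ∀ C : ℝ, (∀ x ∈ K, |g x| ≤ C) →
      ∑ κ : ι i, ∫ x in SA ⟨i, κ⟩, g x = ∫ x in A i, g x := by
    intro i g hg C hC
    have h1 := (hP i).sum₁ g (integrable_bdd hK (hAK i) hg hC)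
    simp only [Measure.restrict_restrict (Bx.measurableSet_toSet _)] at h1
    rw [inter_eq_right.mpr (hAB i)] at h1
    exact h1
  have sumBi : ∀ (i : I) (g : E d → ℝ), Measurable g → ∀ C : ℝ, (∀ x ∈ K, |g x| ≤ C) →
      ∑ κ : ι i, ∫ x in SB ⟨i, κ⟩, g x = ∫ x in B i, g x := by
    intro i g hg C hC
    have h1 := (hP i).sum₂ (fun x => g x / r x) (nuB_integrable hK hr (hBm i) (hBK i) hg hC)
    simp only [nuB_integral hr (hBm i) (hBK i) (Bx.measurableSet_toSet _)] at h1
    rw [inter_eq_right.mpr (hBB i)] at h1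
    have e : ∀ S : Set (E d), MeasurableSet S → S ⊆ B i →
        ∫ x in S, r x * (g x / r x) = ∫ x in S, g x := by
      intro S hS hSB
      refine setIntegral_congr_fun hS fun x hx => ?_
      have : r x ≠ 0 := by linarith [hr.lo x (hBK i (hSB hx))]
      show r x * (g x / r x) = g x
      field_simp
    rw [e _ (hBm i) subset_rfl] at h1
    rw [← h1]
    refine Finset.sum_congr rfl fun κ _ => ?_
    exact (e _ (hSBm ⟨i, κ⟩) inter_subset_right).symm
  -- masses
  have hmass : ∀ k, (volume : Measure (E d)).real (SA k) = ∫ x in SB k, r x := by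
    intro k
    have h1 := (hP k.1).mass k.2
    rwa [measureReal_restrict_apply (Bx.measurableSet_toSet _),
      nuB_real hr (hBm k.1) (hBK k.1) (Bx.measurableSet_toSet _)] at h1
  let G : Finset T := Finset.univ.filter fun k =>
    (PA k).toSet ⊆ A k.1 ∧ (PB k).toSet ⊆ B k.1 ∧ 0 < (volume : Measure (E d)).real (SA k)
  have hG : ∀ k, k ∈ G ↔ (PA k).toSet ⊆ A k.1 ∧ (PB k).toSet ⊆ B k.1 ∧
      0 < (volume : Measure (E d)).real (SA k) := by
    intro k
    simp [G]
  have hleA : ∀ k, (PA k).le := fun k => (hP k.1).le₁ k.2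
  have hleB : ∀ k, (PB k).le := fun k => (hP k.1).le₂ k.2
  have hPieces : Pieces K R r h PA PB SA SB G := by
    constructor
    · exact hK
    · exact hconv
    · exact hR
    · exact hr
    · exact hh
    · exact hSAm
    · exact hSBm
    · exact fun k x hx => hAK k.1 hx.2
    · exact fun k x hx => hBK k.1 hx.2
    · intro g hg C hC
      rw [Fintype.sum_sigma]
      simp only [sumAi _ g hg C hC]
      exact integral_cells hKc hw a (integrableOn_of_bdd hK hg hC)
    · intro g hg C hC
      rw [Fintype.sum_sigma]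
      simp only [sumBi _ g hg C hC]
      exact integral_cells hKc hw b (integrableOn_of_bdd hK hg hC)
    · exact hmass
    · exact hleA
    · exact hleB
    · exact fun k j => (hP k.1).width₁ k.2 j
    · exact fun k j => (hP k.1).width₂ k.2 j
    · exact fun k hk => inter_eq_left.mpr ((hG k).mp hk).1
    · exact fun k hk => inter_eq_left.mpr ((hG k).mp hk).2.1
    · exact fun k hk => ((hG k).mp hk).2.2
    · intro τ h0 h1 k hk k' hk' hkk
      obtain ⟨i, κ⟩ := k
      obtain ⟨i', κ'⟩ := k'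
      have hk1 := (hG _).mp hk
      have hk2 := (hG _).mp hk'
      by_cases hii : i = i'
      · subst hii
        have hκ : κ ≠ κ' := fun e => hkk (by rw [e])
        rcases (hP i).sep κ κ' hκ with hs | hs
        · exact aedisj_of_sep h0.le h1.le hs
        · exact (aedisj_of_sep h0.le h1.le hs).symm
      · exact aedisj_of_cells hw h0.le h1.le (hleA _) (hleB _) (hleA _) (hleB _) hii hk1.1 hk1.2.1
          hk2.1 hk2.2.1
  refine ⟨T, inferInstance, inferInstance, fun k => k.1, PA, PB, SA, SB, G, hPieces, ?_, ?_, ?_⟩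
  · intro v
    rw [Fintype.sum_sigma]
    refine Finset.sum_congr rfl fun i _ => ?_
    rw [Finset.sum_sub_distrib]
    simp only
    have hC : ∃ C, ∀ x ∈ K, |inner ℝ x (v i)| ≤ C := by
      obtain ⟨C, hC⟩ := hK.exists_bound_of_continuousOn
        (f := fun x : E d => inner ℝ x (v i)) (Continuous.continuousOn (by fun_prop))
      exact ⟨C, hC⟩
    obtain ⟨C, hC⟩ := hC
    have hm1 : Measurable fun x : E d => inner ℝ x (v i) :=
      (continuous_id.inner continuous_const).measurable
    rw [sumAi i _ hm1 C hC]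
    rw [sumBi i (fun x => inner ℝ x (v i) * r x) (hm1.mul hr.meas) (C * (3 / 2)) ?_]
    intro x hx
    have h1 := hC x hx
    have h0 : 0 ≤ r x := by linarith [hr.lo x hx]
    rw [abs_mul, abs_of_nonneg h0]
    exact mul_le_mul h1 (hr.hi x hx) h0 ((abs_nonneg _).trans h1)
  · intro v
    rw [Fintype.sum_sigma]
    refine Finset.sum_congr rfl fun i _ => ?_
    show ∑ κ : ι i, (volume : Measure (E d)).real (SA ⟨i, κ⟩) * ‖v i‖ ^ 2 = n i * ‖v i‖ ^ 2
    rw [← Finset.sum_mul]
    congr 1
    have := sumAi i (fun _ => 1) measurable_const 1 (by simp)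
    rw [hmA i] at this
    rw [← this]
    refine Finset.sum_congr rfl fun κ _ => ?_
    simp
  · -- the bad mass
    have hthA : ∀ i, MeasurableSet (thick (A i) ρ) := fun i =>
      measurableSet_thick (isClosed_cell hKc w a i) ρ
    have hthB : ∀ i, MeasurableSet (thick (B i) ρ) := fun i =>
      measurableSet_thick (isClosed_cell hKc w b i) ρ
    have hterm : ∀ k ∈ Gᶜ, (volume : Measure (E d)).real (SA k) ≤
        (volume : Measure (E d)).real (SA k ∩ thick (A k.1) ρ) +
        3 / 2 * (volume : Measure (E d)).real (SB k ∩ thick (B k.1) ρ) := by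
      intro k hk
      have hk' : k ∉ G := Finset.mem_compl.mp hk
      rw [hG] at hk'
      have hn1 : 0 ≤ (volume : Measure (E d)).real (SA k ∩ thick (A k.1) ρ) := measureReal_nonneg
      have hn2 : 0 ≤ (volume : Measure (E d)).real (SB k ∩ thick (B k.1) ρ) := measureReal_nonneg
      by_cases hPA : (PA k).toSet ⊆ A k.1
      · by_cases hPB : (PB k).toSet ⊆ B k.1
        · have : ¬ 0 < (volume : Measure (E d)).real (SA k) := fun h3 => hk' ⟨hPA, hPB, h3⟩
          linarith
        · obtain ⟨y, hy, hy'⟩ := not_subset.mp hPB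
          have hsub : SB k ⊆ thick (B k.1) ρ := by
            rintro x ⟨hx1, hx2⟩
            refine ⟨hx2, mem_cthickening_of_dist_le x y ρ _ hy' ?_⟩
            rw [dist_eq_norm]
            exact (norm_sub_le_of_mem (hP k.1 |>.width₂ k.2) hx1 hy).trans hρ
          rw [inter_eq_left.mpr hsub]
          have := hPieces.V_le k
          linarith
      · obtain ⟨y, hy, hy'⟩ := not_subset.mp hPA
        have hsub : SA k ⊆ thick (A k.1) ρ := by
          rintro x ⟨hx1, hx2⟩
          refine ⟨hx2, mem_cthickening_of_dist_le x y ρ _ hy' ?_⟩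
          rw [dist_eq_norm]
          exact (norm_sub_le_of_mem (hP k.1 |>.width₁ k.2) hx1 hy).trans hρ
        rw [inter_eq_left.mpr hsub]
        linarith
    have hsum : ∑ k, ((volume : Measure (E d)).real (SA k ∩ thick (A k.1) ρ) +
        3 / 2 * (volume : Measure (E d)).real (SB k ∩ thick (B k.1) ρ)) =
        ∑ i, ((volume : Measure (E d)).real (thick (A i) ρ) +
          3 / 2 * (volume : Measure (E d)).real (thick (B i) ρ)) := by
      rw [Fintype.sum_sigma]
      refine Finset.sum_congr rfl fun i _ => ?_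
      rw [Finset.sum_add_distrib, ← Finset.mul_sum]
      have e1 : ∑ κ : ι i, (volume : Measure (E d)).real (SA ⟨i, κ⟩ ∩ thick (A i) ρ) =
          (volume : Measure (E d)).real (thick (A i) ρ) := by
        have := sumAi i ((thick (A i) ρ).indicator fun _ => (1 : ℝ))
          (measurable_const.indicator (hthA i)) 1 (fun x _ => by
            by_cases hx : x ∈ thick (A i) ρ
            · rw [indicator_of_mem hx]; simp
            · rw [indicator_of_notMem hx]; simp)
        simp only [setIntegral_indicator (hthA i)] at this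
        have hs : thick (A i) ρ ⊆ A i := inter_subset_left
        rw [inter_eq_right.mpr hs] at this
        simpa [Measure.real] using this
      have e2 : ∑ κ : ι i, (volume : Measure (E d)).real (SB ⟨i, κ⟩ ∩ thick (B i) ρ) =
          (volume : Measure (E d)).real (thick (B i) ρ) := by
        have := sumBi i ((thick (B i) ρ).indicator fun _ => (1 : ℝ))
          (measurable_const.indicator (hthB i)) 1 (fun x _ => by
            by_cases hx : x ∈ thick (B i) ρ
            · rw [indicator_of_mem hx]; simp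
            · rw [indicator_of_notMem hx]; simp)
        simp only [setIntegral_indicator (hthB i)] at this
        have hs : thick (B i) ρ ⊆ B i := inter_subset_left
        rw [inter_eq_right.mpr hs] at this
        simpa [Measure.real] using this
      rw [e1, e2]
    rw [← hsum]
    refine (Finset.sum_le_sum hterm).trans ?_
    exact Finset.sum_le_sum_of_subset_of_nonneg (Finset.subset_univ _) fun k _ _ =>
      add_nonneg measureReal_nonneg (mul_nonneg (by norm_num) measureReal_nonneg)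

theorem mul_le_of_le_div_succ {C x y : ℝ} (hC : 0 ≤ C) (hy : 0 ≤ y) (hx : x ≤ y / (C + 1)) :
    C * x ≤ y := by
  have h1 : 0 < C + 1 := by linarith
  have h2 : C * x ≤ C * (y / (C + 1)) := mul_le_mul_of_nonneg_left hx hC
  have h3 : C * (y / (C + 1)) ≤ y := by
    rw [← mul_div_assoc, div_le_iff₀ h1]
    nlinarith
  linarith

theorem choose_params {R vK W vm : ℝ} (hR : 0 ≤ R) (hvK : 0 ≤ vK) (hW : 0 ≤ W) (hvm : 0 ≤ vm)
    {ε : ℝ} (hε : 0 < ε) :
    ∃ τ : ℝ, 0 < τ ∧ τ < 1 ∧ ∃ b₀ : ℝ, 0 < b₀ ∧ ∃ ρ₀ : ℝ, 0 < ρ₀ ∧ ∀ β : ℝ, 0 ≤ β → β ≤ b₀ →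
      ∀ ρ : ℝ, 0 ≤ ρ → ρ ≤ ρ₀ →
        Real.sqrt (Pieces.Err R (2 * R * ρ) vK β τ) * W + 2 * ρ * vm * vK + 2 * R * vm * β ≤ ε := by
  set ε₁ := ε / (3 * (W + 1)) with hε₁
  have hε₁0 : 0 < ε₁ := by positivity
  set C := 13 * R ^ 2 * vK with hC
  have hC0 : 0 ≤ C := by positivity
  set τ := min (1 / 2) (ε₁ ^ 2 / 2 / (C + 1)) with hτ
  have hτ0 : 0 < τ := lt_min (by norm_num) (by positivity)
  have hτ1 : τ < 1 := (min_le_left _ _).trans_lt (by norm_num)
  have hτ2 : C * τ ≤ ε₁ ^ 2 / 2 := mul_le_of_le_div_succ hC0 (by positivity) (min_le_right _ _)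
  set M := 2 * R ^ 2 + R ^ 2 / τ with hM
  have hM0 : 0 ≤ M := by positivity
  set M₂ := (2 * vK + 2 * vK / τ) * (2 * R) with hM₂
  have hM₂0 : 0 ≤ M₂ := by positivity
  set C₁ := 2 * R * vm with hC₁
  have hC₁0 : 0 ≤ C₁ := by positivity
  set C₂ := 2 * vm * vK with hC₂
  have hC₂0 : 0 ≤ C₂ := by positivity
  refine ⟨τ, hτ0, hτ1, min (ε₁ ^ 2 / 4 / (M + 1)) (ε / 3 / (C₁ + 1)),
    lt_min (by positivity) (by positivity),
    min (ε₁ ^ 2 / 4 / (M₂ + 1)) (ε / 3 / (C₂ + 1)), lt_min (by positivity) (by positivity), ?_⟩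
  intro β hβ0 hβ ρ hρ0 hρ
  have a1 : M * β ≤ ε₁ ^ 2 / 4 :=
    mul_le_of_le_div_succ hM0 (by positivity) (hβ.trans (min_le_left _ _))
  have a2 : C₁ * β ≤ ε / 3 :=
    mul_le_of_le_div_succ hC₁0 (by positivity) (hβ.trans (min_le_right _ _))
  have a3 : M₂ * ρ ≤ ε₁ ^ 2 / 4 :=
    mul_le_of_le_div_succ hM₂0 (by positivity) (hρ.trans (min_le_left _ _))
  have a4 : C₂ * ρ ≤ ε / 3 :=
    mul_le_of_le_div_succ hC₂0 (by positivity) (hρ.trans (min_le_right _ _))
  have hE : Pieces.Err R (2 * R * ρ) vK β τ = M * β + M₂ * ρ + C * τ := by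
    unfold Pieces.Err
    rw [hM, hM₂, hC]
    field_simp
    ring
  have hE2 : Pieces.Err R (2 * R * ρ) vK β τ ≤ ε₁ ^ 2 := by
    rw [hE]
    linarith
  have hs : Real.sqrt (Pieces.Err R (2 * R * ρ) vK β τ) ≤ ε₁ := by
    rw [Real.sqrt_le_left hε₁0.le]
    exact hE2
  have hsW : Real.sqrt (Pieces.Err R (2 * R * ρ) vK β τ) * W ≤ ε / 3 := by
    have h1 := mul_le_mul_of_nonneg_right hs hW
    have h2 : ε₁ * W ≤ ε / 3 := by
      rw [hε₁, div_mul_eq_mul_div, div_le_iff₀ (by positivity)]
      nlinarith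
    linarith
  have e1 : 2 * ρ * vm * vK = C₂ * ρ := by rw [hC₂]; ring
  have e2 : 2 * R * vm * β = C₁ * β := by rw [hC₁]
  rw [e1, e2]
  linarith

theorem X_le {X t s : ℝ} (hX : 0 ≤ X) (ht : 0 ≤ t) (hs : 0 ≤ s)
    (h : X ^ 2 ≤ 3 * t * X + 3 * t ^ 2 + s ^ 2) : X ≤ 5 * t + s := by
  by_contra hcon
  push Not at hcon
  have h1 := mul_le_mul_of_nonneg_right hcon.le hX
  have h2 := mul_le_mul_of_nonneg_left hcon.le (by positivity : 0 ≤ 2 * t)
  have h3 := mul_le_mul_of_nonneg_left hcon.le hs
  have h4 : 0 < X := lt_of_le_of_lt (by positivity) hcon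
  by_cases ht0 : t = 0
  · subst ht0
    have : s < X := by linarith
    have := mul_lt_mul_of_pos_right this h4
    nlinarith
  · have ht1 : 0 < t := lt_of_le_of_ne ht (Ne.symm ht0)
    nlinarith [mul_pos ht1 ht1, mul_nonneg ht hs]

/-- The estimate for the cells of two densities. -/
theorem nstar [Nonempty I] (hK : IsCompact K) (hconv : Convex ℝ K) (hne : K.Nonempty)
    (hR : ∀ x ∈ K, ‖x‖ ≤ R) (hw : Function.Injective w) (hr : Dens K r)
    (hmA : ∀ i, ∫ _x in cell K w a i, (1 : ℝ) = n i) (hmB : ∀ i, ∫ x in cell K w b i, r x = n i)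
    (hn : ∀ i, 0 ≤ n i) (v : I → E d) :
    ∑ i, ((∫ x in cell K w a i, inner ℝ x (v i)) - ∫ x in cell K w b i, inner ℝ x (v i) * r x) ≤
      5 * (R * Real.sqrt (Pieces.energy K r)) * Real.sqrt (∑ i, n i * ‖v i‖ ^ 2) := by
  classical
  have hKc := hK.isClosed
  have hR0 : 0 ≤ R := (norm_nonneg _).trans (hR _ hne.some_mem)
  set W := Real.sqrt (∑ i, n i * ‖v i‖ ^ 2) with hW
  have hW0 : 0 ≤ W := Real.sqrt_nonneg _
  set vm := ∑ i, ‖v i‖ with hvm
  have hvm0 : 0 ≤ vm := Finset.sum_nonneg fun _ _ => norm_nonneg _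
  have hvmle : ∀ i, ‖v i‖ ≤ vm := fun i =>
    Finset.single_le_sum (f := fun i => ‖v i‖) (fun _ _ => norm_nonneg _) (Finset.mem_univ i)
  set vK := (volume : Measure (E d)).real K with hvK
  have hvK0 : 0 ≤ vK := measureReal_nonneg
  set t := R * Real.sqrt (Pieces.energy K r) with ht
  have ht0 : 0 ≤ t := by positivity
  apply le_of_forall_pos_le_add
  intro ε hε
  obtain ⟨τ, hτ0, hτ1, b₀, hb₀, ρ₀, hρ₀, hpar⟩ := choose_params hR0 hvK0 hW0 hvm0 hε
  -- a scale at which the boundary layers are small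
  set c := b₀ / (3 * ((Fintype.card I : ℝ) + 1)) with hc
  have hc0 : 0 < c := by positivity
  have hfinthick : ∀ {A : Set (E d)} {ρ : ℝ}, A ⊆ K → volume (thick A ρ) ≠ ∞ := fun hA =>
    ((measure_mono (inter_subset_left.trans hA)).trans_lt hK.measure_lt_top).ne
  have hev : ∀ i, ∀ᶠ ρ in 𝓝 (0 : ℝ), volume (thick (cell K w a i) ρ) < ENNReal.ofReal c ∧
      volume (thick (cell K w b i) ρ) < ENNReal.ofReal c := by
    intro i
    have hpos : (0 : ℝ≥0∞) < ENNReal.ofReal c := ENNReal.ofReal_pos.mpr hc0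
    have hcomp : ∀ b' : I → ℝ, IsCompact (cell K w b' i) := fun b' =>
      hK.of_isClosed_subset (isClosed_cell hKc w b' i) cell_subset
    exact ((tendsto_thick (hcomp a) (convex_cell hconv w a i)).eventually (gt_mem_nhds hpos)).and
      ((tendsto_thick (hcomp b) (convex_cell hconv w b i)).eventually (gt_mem_nhds hpos))
  have hev2 : ∀ᶠ ρ in 𝓝[>] (0 : ℝ), (∀ i, volume (thick (cell K w a i) ρ) < ENNReal.ofReal c ∧
      volume (thick (cell K w b i) ρ) < ENNReal.ofReal c) ∧ ρ ≤ ρ₀ ∧ 0 < ρ := by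
    refine Eventually.and (nhdsWithin_le_nhds (eventually_all.mpr hev)) ?_
    refine Eventually.and (nhdsWithin_le_nhds (ge_mem_nhds hρ₀)) self_mem_nhdsWithin
  obtain ⟨ρ, hρa, hρb, hρ0⟩ := hev2.exists
  set h := ρ / ((d : ℝ) + 1) with hh
  have hh0 : 0 < h := by positivity
  have hdh : (d : ℝ) * h ≤ ρ := by
    rw [hh, ← mul_div_assoc, div_le_iff₀ (by positivity)]
    nlinarith
  obtain ⟨T, _, _, idx, PA, PB, SA, SB, G, P, hpair, hsumn, hbad⟩ :=
    exists_refined (a := a) (b := b) hK hconv hne hR hw hr hmA hmB hh0 hdh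
  obtain ⟨X, hX0, hX2, hXp⟩ := P.core hne hτ0 hτ1 (fun k => v (idx k)) hvm0 (fun k => hvmle _)
  rw [hpair v, hsumn v] at hXp
  set β := ∑ k ∈ Gᶜ, (volume : Measure (E d)).real (SA k) with hβ
  have hβ0 : 0 ≤ β := Finset.sum_nonneg fun _ _ => measureReal_nonneg
  have hβb : β ≤ b₀ := by
    refine hbad.trans ?_
    have h1 : ∀ i ∈ (Finset.univ : Finset I), (volume : Measure (E d)).real (thick (cell K w a i) ρ) +
        3 / 2 * (volume : Measure (E d)).real (thick (cell K w b i) ρ) ≤ 3 * c := by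
      intro i _
      have h2 : (volume : Measure (E d)).real (thick (cell K w a i) ρ) ≤ c :=
        ENNReal.toReal_le_of_le_ofReal hc0.le (hρa i).1.le
      have h3 : (volume : Measure (E d)).real (thick (cell K w b i) ρ) ≤ c :=
        ENNReal.toReal_le_of_le_ofReal hc0.le (hρa i).2.le
      linarith
    refine (Finset.sum_le_sum h1).trans ?_
    simp only [Finset.sum_const, Finset.card_univ, nsmul_eq_mul]
    have hcard : (0 : ℝ) ≤ Fintype.card I := by positivity
    have e : (Fintype.card I : ℝ) * (3 * c) = b₀ * (Fintype.card I : ℝ) / ((Fintype.card I : ℝ) + 1) := by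
      rw [hc]
      field_simp
    rw [e, div_le_iff₀ (by positivity)]
    nlinarith
  have hpar' := hpar β hβ0 hβb (d * h) (by positivity) (hdh.trans hρb)
  -- the bound on `X`
  have hErr0 : 0 ≤ Pieces.Err R (2 * R * (d * h)) vK β τ := by
    unfold Pieces.Err
    positivity
  set s := Real.sqrt (Pieces.Err R (2 * R * (d * h)) vK β τ) with hs
  have hs0 : 0 ≤ s := Real.sqrt_nonneg _
  have hss : s ^ 2 = Pieces.Err R (2 * R * (d * h)) vK β τ := Real.sq_sqrt hErr0
  have hXle : X ≤ 5 * t + s := by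
    apply X_le hX0 ht0 hs0
    rw [hss]
    have hE0 := Pieces.energy_nonneg K r
    have e1 : Real.sqrt (2 * Pieces.energy K r) = Real.sqrt 2 * Real.sqrt (Pieces.energy K r) :=
      Real.sqrt_mul (by norm_num) _
    have e2 : Real.sqrt 2 ≤ 3 / 2 := by
      rw [Real.sqrt_le_left (by norm_num)]
      norm_num
    have e3 : t ^ 2 = R ^ 2 * Pieces.energy K r := by
      rw [ht, mul_pow, Real.sq_sqrt hE0]
    have e4 : 2 * R * Real.sqrt (2 * Pieces.energy K r) * X ≤ 3 * t * X := by
      rw [e1, ht]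
      have a1 : 0 ≤ R * Real.sqrt (Pieces.energy K r) * X := by positivity
      nlinarith
    have e5 : 3 * R ^ 2 * Pieces.energy K r = 3 * t ^ 2 := by rw [e3]; ring
    linarith
  have hfinal := mul_le_mul_of_nonneg_right hXle hW0
  have hsum : (5 * t + s) * W = 5 * t * W + s * W := by ring
  linarith

end Main

end Vale.Agent.P074
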