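import Vale.Agent.P074.BoxCalc

/-!
# The core inequality for a family of matched boxes
-/

open MeasureTheory Set Metric Filter Topology
open scoped ENNReal NNReal

set_option linter.unusedSectionVars false
set_option linter.unusedSimpArgs false
set_option linter.unusedVariables false

namespace Vale.Agent.P074

variable {d : ℕ}

theorem sI_le {S : Set (E d)} (hm : MeasurableSet S) (hfin : volume S ≠ ∞) {g : E d → ℝ}
    (hg : IntegrableOn g S) {c : ℝ} (h : ∀ x ∈ S, g x ≤ c) :
    ∫ x in S, g x ≤ c * (volume : Measure (E d)).real S := by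
  have h1 : ∫ x in S, g x ≤ ∫ _x in S, c :=
    setIntegral_mono_on hg (integrableOn_const hfin) hm h
  rw [setIntegral_const, smul_eq_mul, mul_comm] at h1
  exact h1

theorem le_sI {S : Set (E d)} (hm : MeasurableSet S) (hfin : volume S ≠ ∞) {g : E d → ℝ}
    (hg : IntegrableOn g S) {c : ℝ} (h : ∀ x ∈ S, c ≤ g x) :
    c * (volume : Measure (E d)).real S ≤ ∫ x in S, g x := by
  have h1 : ∫ _x in S, c ≤ ∫ x in S, g x :=
    setIntegral_mono_on (integrableOn_const hfin) hg hm h
  rw [setIntegral_const, smul_eq_mul, mul_comm] at h1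
  exact h1

/-- The weight `R² - |x|²`. -/
noncomputable def Fq (R : ℝ) (x : E d) : ℝ := R ^ 2 - ‖x‖ ^ 2

theorem Fq_continuous (R : ℝ) : Continuous (Fq R : E d → ℝ) := by
  unfold Fq
  fun_prop

theorem Fq_nonneg {R : ℝ} {x : E d} (hR : ‖x‖ ≤ R) : 0 ≤ Fq R x := by
  unfold Fq
  nlinarith [norm_nonneg x]

theorem Fq_le (R : ℝ) (x : E d) : Fq R x ≤ R ^ 2 := by
  unfold Fq
  nlinarith [norm_nonneg x]

theorem Fq_sub_le {R : ℝ} {x y : E d} (hx : ‖x‖ ≤ R) (hy : ‖y‖ ≤ R) :
    Fq R x - Fq R y ≤ 2 * R * ‖x - y‖ := by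
  unfold Fq
  have h1 : ‖y‖ - ‖x‖ ≤ ‖x - y‖ := by
    rw [norm_sub_rev]
    exact norm_sub_norm_le y x
  have h2 := norm_nonneg x
  have h3 := norm_nonneg y
  have h4 := norm_nonneg (x - y)
  nlinarith

theorem Fq_interp (R τ : ℝ) (c c' : E d) :
    Fq R ((1 - τ) • c + τ • c') =
      (1 - τ) * Fq R c + τ * Fq R c' + τ * (1 - τ) * ‖c' - c‖ ^ 2 := by
  unfold Fq
  have e1 : ‖(1 - τ) • c + τ • c'‖ ^ 2 = (1 - τ) ^ 2 * ‖c‖ ^ 2 +
      2 * ((1 - τ) * τ * inner ℝ c c') + τ ^ 2 * ‖c'‖ ^ 2 := by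
    rw [norm_add_sq_real, norm_smul, norm_smul, inner_smul_left, inner_smul_right]
    simp only [Real.norm_eq_abs, conj_trivial, mul_pow, sq_abs]
    ring
  have e2 : ‖c' - c‖ ^ 2 = ‖c'‖ ^ 2 - 2 * inner ℝ c c' + ‖c‖ ^ 2 := by
    rw [norm_sub_sq_real, real_inner_comm]
  rw [e1, e2]
  ring

/-- The data of a family of matched boxes. -/
structure Pieces (K : Set (E d)) (R : ℝ) (r : E d → ℝ) (h : ℝ) {T : Type} [Fintype T]
    (PA PB : T → Bx d) (SA SB : T → Set (E d)) (G : Finset T) : Prop where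
  hK : IsCompact K
  hconv : Convex ℝ K
  hR : ∀ x ∈ K, ‖x‖ ≤ R
  hr : Dens K r
  hh : 0 < h
  mA : ∀ k, MeasurableSet (SA k)
  mB : ∀ k, MeasurableSet (SB k)
  subA : ∀ k, SA k ⊆ K
  subB : ∀ k, SB k ⊆ K
  sumA : ∀ g : E d → ℝ, Measurable g → ∀ C : ℝ, (∀ x ∈ K, |g x| ≤ C) →
    ∑ k, ∫ x in SA k, g x = ∫ x in K, g x
  sumB : ∀ g : E d → ℝ, Measurable g → ∀ C : ℝ, (∀ x ∈ K, |g x| ≤ C) →
    ∑ k, ∫ x in SB k, g x = ∫ x in K, g x
  mass : ∀ k, (volume : Measure (E d)).real (SA k) = ∫ x in SB k, r x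
  leA : ∀ k, (PA k).le
  leB : ∀ k, (PB k).le
  wA : ∀ k j, (PA k).u j - (PA k).l j ≤ h
  wB : ∀ k j, (PB k).u j - (PB k).l j ≤ h
  goodA : ∀ k ∈ G, SA k = (PA k).toSet
  goodB : ∀ k ∈ G, SB k = (PB k).toSet
  goodV : ∀ k ∈ G, 0 < (volume : Measure (E d)).real (SA k)
  disj : ∀ τ : ℝ, 0 < τ → τ < 1 → ∀ k ∈ G, ∀ k' ∈ G, k ≠ k' →
    AEDisjoint volume (Bx.interp τ (PA k, PB k)).toSet (Bx.interp τ (PA k', PB k')).toSet

namespace Pieces

variable {K : Set (E d)} {R : ℝ} {r : E d → ℝ} {h : ℝ} {T : Type} [Fintype T]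
  {PA PB : T → Bx d} {SA SB : T → Set (E d)} {G : Finset T}

theorem finA (P : Pieces K R r h PA PB SA SB G) (k : T) : volume (SA k) ≠ ∞ :=
  ((measure_mono (P.subA k)).trans_lt P.hK.measure_lt_top).ne

theorem finB (P : Pieces K R r h PA PB SA SB G) (k : T) : volume (SB k) ≠ ∞ :=
  ((measure_mono (P.subB k)).trans_lt P.hK.measure_lt_top).ne

theorem r_int (P : Pieces K R r h PA PB SA SB G) (k : T) : IntegrableOn r (SB k) :=
  (P.hr.integrableOn P.hK).mono_set (P.subB k)

theorem V'_le (P : Pieces K R r h PA PB SA SB G) (k : T) : (volume : Measure (E d)).real (SB k) ≤ 2 * (volume : Measure (E d)).real (SA k) := by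
  rw [P.mass k]
  have := le_sI (P.mB k) (P.finB k) (P.r_int k) (c := 1 / 2)
    (fun x hx => P.hr.lo x (P.subB k hx))
  linarith

theorem V_le (P : Pieces K R r h PA PB SA SB G) (k : T) : (volume : Measure (E d)).real (SA k) ≤ 3 / 2 * (volume : Measure (E d)).real (SB k) := by
  rw [P.mass k]
  exact sI_le (P.mB k) (P.finB k) (P.r_int k) (fun x hx => P.hr.hi x (P.subB k hx))

theorem int_cont (P : Pieces K R r h PA PB SA SB G) {g : E d → ℝ} (hg : Continuous g) :
    IntegrableOn g K := hg.continuousOn.integrableOn_compact P.hK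

theorem sumV (P : Pieces K R r h PA PB SA SB G) : ∑ k, (volume : Measure (E d)).real (SA k) = (volume : Measure (E d)).real K := by
  have := P.sumA (fun _ => 1) measurable_const 1 (by simp)
  simpa [Measure.real, setIntegral_const] using this

theorem sumV' (P : Pieces K R r h PA PB SA SB G) : ∑ k, (volume : Measure (E d)).real (SB k) = (volume : Measure (E d)).real K := by
  have := P.sumB (fun _ => 1) measurable_const 1 (by simp)
  simpa [Measure.real, setIntegral_const] using this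

theorem realA (P : Pieces K R r h PA PB SA SB G) {k : T} (hk : k ∈ G) :
    (volume : Measure (E d)).real (SA k) = ∏ j, ((PA k).u j - (PA k).l j) := by
  rw [P.goodA k hk, Bx.real_volume_toSet (P.leA k)]

theorem realB (P : Pieces K R r h PA PB SA SB G) {k : T} (hk : k ∈ G) :
    (volume : Measure (E d)).real (SB k) = ∏ j, ((PB k).u j - (PB k).l j) := by
  rw [P.goodB k hk, Bx.real_volume_toSet (P.leB k)]

theorem V'_pos (P : Pieces K R r h PA PB SA SB G) {k : T} (hk : k ∈ G) : 0 < (volume : Measure (E d)).real (SB k) := by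
  have h1 := P.V_le k
  have h2 := P.goodV k hk
  linarith

theorem widthA_pos (P : Pieces K R r h PA PB SA SB G) {k : T} (hk : k ∈ G) (j : Fin d) :
    (PA k).l j < (PA k).u j := by
  refine lt_of_le_of_ne (P.leA k j) fun e => ?_
  have h1 := P.goodV k hk
  rw [P.realA hk, Finset.prod_eq_zero (Finset.mem_univ j) (by rw [← e]; ring)] at h1
  exact lt_irrefl _ h1

theorem widthB_pos (P : Pieces K R r h PA PB SA SB G) {k : T} (hk : k ∈ G) (j : Fin d) :
    (PB k).l j < (PB k).u j := by
  refine lt_of_le_of_ne (P.leB k j) fun e => ?_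
  have h1 := P.V'_pos hk
  rw [P.realB hk, Finset.prod_eq_zero (Finset.mem_univ j) (by rw [← e]; ring)] at h1
  exact lt_irrefl _ h1

theorem centerA_mem (P : Pieces K R r h PA PB SA SB G) {k : T} (hk : k ∈ G) :
    (PA k).center ∈ K := by
  apply P.subA k
  rw [P.goodA k hk]
  exact Bx.center_mem (P.leA k)

theorem centerB_mem (P : Pieces K R r h PA PB SA SB G) {k : T} (hk : k ∈ G) :
    (PB k).center ∈ K := by
  apply P.subB k
  rw [P.goodB k hk]
  exact Bx.center_mem (P.leB k)

/-- The interpolated box. -/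
noncomputable def Q (PA PB : T → Bx d) (τ : ℝ) (k : T) : Set (E d) :=
  (Bx.interp τ (PA k, PB k)).toSet

theorem Q_sub (P : Pieces K R r h PA PB SA SB G) {τ : ℝ} (h0 : 0 ≤ τ) (h1 : τ ≤ 1) {k : T}
    (hk : k ∈ G) : Q PA PB τ k ⊆ K := by
  intro p hp
  obtain ⟨y, hy, y', hy', rfl⟩ := Bx.interp_decomp h0 h1 (P := (PA k, PB k))
    (P.leA k) (P.leB k) hp
  have hyK : y ∈ K := P.subA k (by rw [P.goodA k hk]; exact hy)
  have hyK' : y' ∈ K := P.subB k (by rw [P.goodB k hk]; exact hy')
  exact P.hconv hyK hyK' (by linarith) h0 (by ring)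

theorem Q_real (P : Pieces K R r h PA PB SA SB G) {τ : ℝ} (h0 : 0 ≤ τ) (h1 : τ ≤ 1) (k : T) :
    (volume : Measure (E d)).real (Q PA PB τ k) = ∏ j, ((1 - τ) * ((PA k).u j - (PA k).l j) +
      τ * ((PB k).u j - (PB k).l j)) := by
  unfold Q
  rw [Bx.real_volume_toSet (Bx.interp_le (P := (PA k, PB k)) h0 h1 (P.leA k) (P.leB k))]
  refine Finset.prod_congr rfl fun j _ => ?_
  simp only [Bx.interp]
  ring

theorem Q_real_ge (P : Pieces K R r h PA PB SA SB G) {τ : ℝ} (h0 : 0 ≤ τ) (h1 : τ ≤ 1) {k : T}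
    (hk : k ∈ G) :
    (volume : Measure (E d)).real (SA k) * (1 + τ * Real.log ((volume : Measure (E d)).real (SB k) / (volume : Measure (E d)).real (SA k))) ≤ (volume : Measure (E d)).real (Q PA PB τ k) := by
  rw [P.Q_real h0 h1, P.realA hk, P.realB hk]
  exact prod_interp_ge (fun j => by linarith [P.widthA_pos hk j])
    (fun j => by linarith [P.widthB_pos hk j]) h0 h1

theorem center_dist_A (P : Pieces K R r h PA PB SA SB G) {k : T} (hk : k ∈ G) {x : E d}
    (hx : x ∈ SA k) : ‖x - (PA k).center‖ ≤ d * h := by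
  rw [P.goodA k hk] at hx
  exact norm_sub_le_of_mem (P.wA k) hx (Bx.center_mem (P.leA k))

theorem center_dist_B (P : Pieces K R r h PA PB SA SB G) {k : T} (hk : k ∈ G) {x : E d}
    (hx : x ∈ SB k) : ‖x - (PB k).center‖ ≤ d * h := by
  rw [P.goodB k hk] at hx
  exact norm_sub_le_of_mem (P.wB k) hx (Bx.center_mem (P.leB k))

theorem FA_le (P : Pieces K R r h PA PB SA SB G) {k : T} (hk : k ∈ G) {x : E d}
    (hx : x ∈ SA k) : Fq R x ≤ Fq R (PA k).center + 2 * R * (d * h) := by
  have h1 := Fq_sub_le (R := R) (P.hR x (P.subA k hx)) (P.hR _ (P.centerA_mem hk))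
  have hR0 : 0 ≤ R := (norm_nonneg _).trans (P.hR x (P.subA k hx))
  have h2 := mul_le_mul_of_nonneg_left (P.center_dist_A hk hx) (by positivity : 0 ≤ 2 * R)
  linarith

theorem FA_ge (P : Pieces K R r h PA PB SA SB G) {k : T} (hk : k ∈ G) {x : E d}
    (hx : x ∈ SA k) : Fq R (PA k).center - 2 * R * (d * h) ≤ Fq R x := by
  have h1 := Fq_sub_le (R := R) (P.hR _ (P.centerA_mem hk)) (P.hR x (P.subA k hx))
  have hR0 : 0 ≤ R := (norm_nonneg _).trans (P.hR x (P.subA k hx))
  have h2 := mul_le_mul_of_nonneg_left (P.center_dist_A hk hx) (by positivity : 0 ≤ 2 * R)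
  rw [norm_sub_rev] at h1
  linarith

theorem FB_le (P : Pieces K R r h PA PB SA SB G) {k : T} (hk : k ∈ G) {x : E d}
    (hx : x ∈ SB k) : Fq R x ≤ Fq R (PB k).center + 2 * R * (d * h) := by
  have h1 := Fq_sub_le (R := R) (P.hR x (P.subB k hx)) (P.hR _ (P.centerB_mem hk))
  have hR0 : 0 ≤ R := (norm_nonneg _).trans (P.hR x (P.subB k hx))
  have h2 := mul_le_mul_of_nonneg_left (P.center_dist_B hk hx) (by positivity : 0 ≤ 2 * R)
  linarith

/-- The lower bound of the weight on an interpolated box. -/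
theorem FQ_ge (P : Pieces K R r h PA PB SA SB G) {τ : ℝ} (h0 : 0 ≤ τ) (h1 : τ ≤ 1) {k : T}
    (hk : k ∈ G) {x : E d} (hx : x ∈ Q PA PB τ k) :
    (1 - τ) * Fq R (PA k).center + τ * Fq R (PB k).center +
      τ * (1 - τ) * ‖(PB k).center - (PA k).center‖ ^ 2 - 2 * R * (d * h) ≤ Fq R x := by
  rw [← Fq_interp]
  have hle := Bx.interp_le (P := (PA k, PB k)) h0 h1 (P.leA k) (P.leB k)
  have hc : (Bx.interp τ (PA k, PB k)).center ∈ Q PA PB τ k := Bx.center_mem hle
  have hxK := P.Q_sub h0 h1 hk hx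
  have hcK := P.Q_sub h0 h1 hk hc
  have h2 := Fq_sub_le (R := R) (P.hR _ hcK) (P.hR x hxK)
  have hR0 : 0 ≤ R := (norm_nonneg _).trans (P.hR x hxK)
  have h3 : ‖(Bx.interp τ (PA k, PB k)).center - x‖ ≤ d * h :=
    norm_sub_le_of_mem (Bx.interp_width (P := (PA k, PB k)) h0 h1 (P.wA k) (P.wB k)) hc hx
  have h4 := mul_le_mul_of_nonneg_left h3 (by positivity : 0 ≤ 2 * R)
  have e := Bx.center_interp τ (PA k, PB k)
  simp only at e
  rw [e] at h2 h4
  linarith

/-- The first order quantity of a piece. -/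
noncomputable def E1 (R : ℝ) (PA PB : T → Bx d) (SA SB : T → Set (E d)) (k : T) : ℝ :=
  (volume : Measure (E d)).real (SB k) * Fq R (PB k).center - (volume : Measure (E d)).real (SA k) * Fq R (PA k).center -
    |(volume : Measure (E d)).real (SB k) - (volume : Measure (E d)).real (SA k)| * (2 * R * ‖(PB k).center - (PA k).center‖) +
    (volume : Measure (E d)).real (SA k) * ‖(PB k).center - (PA k).center‖ ^ 2 -
    3 / 2 * R ^ 2 * (((volume : Measure (E d)).real (SB k) - (volume : Measure (E d)).real (SA k)) ^ 2 / (volume : Measure (E d)).real (SA k))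

theorem piece (P : Pieces K R r h PA PB SA SB G) {τ : ℝ} (h0 : 0 ≤ τ) (h1 : τ ≤ 1) {k : T}
    (hk : k ∈ G) :
    (volume : Measure (E d)).real (SA k) * Fq R (PA k).center + τ * E1 R PA PB SA SB k - 13 * R ^ 2 * τ ^ 2 * (volume : Measure (E d)).real (SA k) ≤
      (∫ x in Q PA PB τ k, Fq R x) + 2 * R * (d * h) * (volume : Measure (E d)).real (Q PA PB τ k) := by
  have hcK := P.centerA_mem hk
  have hcK' := P.centerB_mem hk
  have hRc := P.hR _ hcK
  have hRc' := P.hR _ hcK'
  have hR0 : 0 ≤ R := (norm_nonneg _).trans hRc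
  have hD : ‖(PB k).center - (PA k).center‖ ≤ 2 * R := by
    calc _ ≤ ‖(PB k).center‖ + ‖(PA k).center‖ := norm_sub_le _ _
      _ ≤ _ := by linarith
  have hff : |Fq R (PB k).center - Fq R (PA k).center| ≤
      2 * R * ‖(PB k).center - (PA k).center‖ := by
    rw [abs_le]
    constructor
    · have := Fq_sub_le hRc hRc'
      rw [norm_sub_rev] at this
      linarith
    · exact Fq_sub_le hRc' hRc
  have hpiece := piece_alg (V := (volume : Measure (E d)).real (SA k)) (V' := (volume : Measure (E d)).real (SB k)) (f := Fq R (PA k).center)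
    (f' := Fq R (PB k).center) (D := ‖(PB k).center - (PA k).center‖) (R := R) (τ := τ)
    (Vτ := (volume : Measure (E d)).real (Q PA PB τ k)) (P.goodV k hk) (by linarith [P.V_le k]) (P.V'_le k)
    (Fq_nonneg hRc) (Fq_le _ _) (Fq_nonneg hRc') (Fq_le _ _) (norm_nonneg _) hD hff h0 h1
    (P.Q_real_ge h0 h1 hk)
  have hm : MeasurableSet (Q PA PB τ k) := Bx.measurableSet_toSet _
  have hfin : volume (Q PA PB τ k) ≠ ∞ :=
    ((measure_mono (P.Q_sub h0 h1 hk)).trans_lt P.hK.measure_lt_top).ne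
  have hint : IntegrableOn (Fq R : E d → ℝ) (Q PA PB τ k) :=
    (P.int_cont (Fq_continuous R)).mono_set (P.Q_sub h0 h1 hk)
  have hlow := le_sI hm hfin hint (fun x hx => P.FQ_ge h0 h1 hk hx)
  unfold E1
  nlinarith

/-- Packing of the interpolated boxes. -/
theorem packing (P : Pieces K R r h PA PB SA SB G) {τ : ℝ} (h0 : 0 < τ) (h1 : τ < 1)
    {g : E d → ℝ} (hg : IntegrableOn g K) (hg0 : ∀ x ∈ K, 0 ≤ g x) :
    ∑ k ∈ G, ∫ x in Q PA PB τ k, g x ≤ ∫ x in K, g x := by
  have hsub : (⋃ k : G, Q PA PB τ k) ⊆ K := by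
    refine iUnion_subset fun k => ?_
    exact P.Q_sub h0.le h1.le k.2
  have h2 := integral_iUnion_ae (μ := volume) (s := fun k : G => Q PA PB τ k) (f := g)
    (fun k => (Bx.measurableSet_toSet _).nullMeasurableSet)
    (fun k k' hkk => P.disj τ h0 h1 k k.2 k' k'.2 (fun e => hkk (Subtype.ext e)))
    (hg.mono_set hsub)
  rw [tsum_fintype] at h2
  rw [← Finset.sum_coe_sort G, ← h2]
  apply setIntegral_mono_set hg
  · rw [Filter.EventuallyLE, ae_restrict_iff' P.hK.isClosed.measurableSet]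
    exact Eventually.of_forall fun x hx => hg0 x hx
  · exact hsub.eventuallyLE

theorem sum_G_V_le (P : Pieces K R r h PA PB SA SB G) :
    ∑ k ∈ G, (volume : Measure (E d)).real (SA k) ≤ (volume : Measure (E d)).real K := by
  rw [← P.sumV]
  exact Finset.sum_le_sum_of_subset_of_nonneg (Finset.subset_univ G)
    (fun _ _ _ => measureReal_nonneg)

theorem sum_G_V'_le (P : Pieces K R r h PA PB SA SB G) :
    ∑ k ∈ G, (volume : Measure (E d)).real (SB k) ≤ (volume : Measure (E d)).real K := by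
  rw [← P.sumV']
  exact Finset.sum_le_sum_of_subset_of_nonneg (Finset.subset_univ G)
    (fun _ _ _ => measureReal_nonneg)

theorem R_nonneg_of (P : Pieces K R r h PA PB SA SB G) (hne : K.Nonempty) : 0 ≤ R :=
  (norm_nonneg _).trans (P.hR _ hne.some_mem)

theorem F_int (P : Pieces K R r h PA PB SA SB G) : IntegrableOn (Fq R : E d → ℝ) K :=
  P.int_cont (Fq_continuous R)

theorem F_abs_le (P : Pieces K R r h PA PB SA SB G) (x : E d) (hx : x ∈ K) :
    |Fq R x| ≤ R ^ 2 := by
  rw [abs_of_nonneg (Fq_nonneg (P.hR x hx))]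
  exact Fq_le R x

theorem F_sumA (P : Pieces K R r h PA PB SA SB G) :
    ∑ k, ∫ x in SA k, Fq R x = ∫ x in K, Fq R x :=
  P.sumA _ (Fq_continuous R).measurable _ P.F_abs_le

theorem F_sumB (P : Pieces K R r h PA PB SA SB G) :
    ∑ k, ∫ x in SB k, Fq R x = ∫ x in K, Fq R x :=
  P.sumB _ (Fq_continuous R).measurable _ P.F_abs_le

/-- First bound on the total weight. -/
theorem core_sum1 (P : Pieces K R r h PA PB SA SB G) (hne : K.Nonempty) {τ : ℝ} (h0 : 0 < τ)
    (h1 : τ < 1) :
    ∑ k ∈ G, ((volume : Measure (E d)).real (SA k) * Fq R (PA k).center +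
        τ * E1 R PA PB SA SB k - 13 * R ^ 2 * τ ^ 2 * (volume : Measure (E d)).real (SA k)) ≤
      (∫ x in K, Fq R x) + 2 * R * (d * h) * (volume : Measure (E d)).real K := by
  have hR0 := P.R_nonneg_of hne
  have hh := P.hh
  have h2 : ∑ k ∈ G, ((volume : Measure (E d)).real (SA k) * Fq R (PA k).center +
        τ * E1 R PA PB SA SB k - 13 * R ^ 2 * τ ^ 2 * (volume : Measure (E d)).real (SA k)) ≤
      ∑ k ∈ G, ((∫ x in Q PA PB τ k, Fq R x) +
        2 * R * (d * h) * (volume : Measure (E d)).real (Q PA PB τ k)) :=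
    Finset.sum_le_sum fun k hk => P.piece h0.le h1.le hk
  rw [Finset.sum_add_distrib, ← Finset.mul_sum] at h2
  have h3 := P.packing h0 h1 P.F_int (fun x hx => Fq_nonneg (P.hR x hx))
  have h4 := P.packing h0 h1 (P.int_cont continuous_const) (g := fun _ => (1 : ℝ))
    (fun x hx => zero_le_one)
  simp only [setIntegral_const, smul_eq_mul, mul_one] at h4
  have h5 := mul_le_mul_of_nonneg_left h4 (by positivity : 0 ≤ 2 * R * (d * h))
  linarith

theorem core_sum2 (P : Pieces K R r h PA PB SA SB G) [DecidableEq T] (hne : K.Nonempty) :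
    (∫ x in K, Fq R x) ≤ ∑ k ∈ G, (volume : Measure (E d)).real (SA k) * Fq R (PA k).center +
      2 * R * (d * h) * (volume : Measure (E d)).real K +
      R ^ 2 * ∑ k ∈ Gᶜ, (volume : Measure (E d)).real (SA k) := by
  have hR0 := P.R_nonneg_of hne
  have hh := P.hh
  rw [← P.F_sumA, ← Finset.sum_add_sum_compl G]
  have h1 : ∑ k ∈ G, ∫ x in SA k, Fq R x ≤ ∑ k ∈ G, ((Fq R (PA k).center + 2 * R * (d * h)) *
      (volume : Measure (E d)).real (SA k)) :=
    Finset.sum_le_sum fun k hk => sI_le (P.mA k) (P.finA k) (P.F_int.mono_set (P.subA k))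
      fun x hx => P.FA_le hk hx
  have h2 : ∑ k ∈ Gᶜ, ∫ x in SA k, Fq R x ≤ ∑ k ∈ Gᶜ, (R ^ 2 *
      (volume : Measure (E d)).real (SA k)) :=
    Finset.sum_le_sum fun k hk => sI_le (P.mA k) (P.finA k) (P.F_int.mono_set (P.subA k))
      fun x hx => Fq_le R x
  rw [← Finset.mul_sum] at h2
  have h3 : ∑ k ∈ G, ((Fq R (PA k).center + 2 * R * (d * h)) *
      (volume : Measure (E d)).real (SA k)) = ∑ k ∈ G, (volume : Measure (E d)).real (SA k) *
        Fq R (PA k).center + 2 * R * (d * h) * ∑ k ∈ G, (volume : Measure (E d)).real (SA k) := by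
    rw [Finset.mul_sum, ← Finset.sum_add_distrib]
    exact Finset.sum_congr rfl fun k _ => by ring
  have h4 := mul_le_mul_of_nonneg_left P.sum_G_V_le (by positivity : 0 ≤ 2 * R * (d * h))
  linarith

theorem core_sum3 (P : Pieces K R r h PA PB SA SB G) [DecidableEq T] (hne : K.Nonempty) :
    ∑ k ∈ G, (volume : Measure (E d)).real (SA k) * Fq R (PA k).center -
      2 * R * (d * h) * (volume : Measure (E d)).real K ≤ ∫ x in K, Fq R x := by
  have hR0 := P.R_nonneg_of hne
  have hh := P.hh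
  rw [← P.F_sumA, ← Finset.sum_add_sum_compl G]
  have h1 : ∑ k ∈ G, ((Fq R (PA k).center - 2 * R * (d * h)) *
      (volume : Measure (E d)).real (SA k)) ≤ ∑ k ∈ G, ∫ x in SA k, Fq R x :=
    Finset.sum_le_sum fun k hk => le_sI (P.mA k) (P.finA k) (P.F_int.mono_set (P.subA k))
      fun x hx => P.FA_ge hk hx
  have h2 : 0 ≤ ∑ k ∈ Gᶜ, ∫ x in SA k, Fq R x :=
    Finset.sum_nonneg fun k _ => setIntegral_nonneg (P.mA k) fun x hx =>
      Fq_nonneg (P.hR x (P.subA k hx))
  have h3 : ∑ k ∈ G, ((Fq R (PA k).center - 2 * R * (d * h)) *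
      (volume : Measure (E d)).real (SA k)) = ∑ k ∈ G, (volume : Measure (E d)).real (SA k) *
        Fq R (PA k).center - 2 * R * (d * h) * ∑ k ∈ G, (volume : Measure (E d)).real (SA k) := by
    rw [Finset.mul_sum, ← Finset.sum_sub_distrib]
    exact Finset.sum_congr rfl fun k _ => by ring
  have h4 := mul_le_mul_of_nonneg_left P.sum_G_V_le (by positivity : 0 ≤ 2 * R * (d * h))
  linarith

theorem core_sum4 (P : Pieces K R r h PA PB SA SB G) [DecidableEq T] (hne : K.Nonempty) :
    (∫ x in K, Fq R x) ≤ ∑ k ∈ G, (volume : Measure (E d)).real (SB k) * Fq R (PB k).center +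
      2 * R * (d * h) * (volume : Measure (E d)).real K +
      2 * R ^ 2 * ∑ k ∈ Gᶜ, (volume : Measure (E d)).real (SA k) := by
  have hR0 := P.R_nonneg_of hne
  have hh := P.hh
  rw [← P.F_sumB, ← Finset.sum_add_sum_compl G]
  have h1 : ∑ k ∈ G, ∫ x in SB k, Fq R x ≤ ∑ k ∈ G, ((Fq R (PB k).center + 2 * R * (d * h)) *
      (volume : Measure (E d)).real (SB k)) :=
    Finset.sum_le_sum fun k hk => sI_le (P.mB k) (P.finB k) (P.F_int.mono_set (P.subB k))
      fun x hx => P.FB_le hk hx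
  have h2 : ∑ k ∈ Gᶜ, ∫ x in SB k, Fq R x ≤ ∑ k ∈ Gᶜ, (2 * R ^ 2 *
      (volume : Measure (E d)).real (SA k)) := by
    refine Finset.sum_le_sum fun k hk => ?_
    have h5 := sI_le (P.mB k) (P.finB k) (P.F_int.mono_set (P.subB k)) fun x hx => Fq_le R x
    have h6 := mul_le_mul_of_nonneg_left (P.V'_le k) (by positivity : 0 ≤ R ^ 2)
    linarith
  rw [← Finset.mul_sum] at h2
  have h3 : ∑ k ∈ G, ((Fq R (PB k).center + 2 * R * (d * h)) *
      (volume : Measure (E d)).real (SB k)) = ∑ k ∈ G, (volume : Measure (E d)).real (SB k) *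
        Fq R (PB k).center + 2 * R * (d * h) * ∑ k ∈ G, (volume : Measure (E d)).real (SB k) := by
    rw [Finset.mul_sum, ← Finset.sum_add_distrib]
    exact Finset.sum_congr rfl fun k _ => by ring
  have h4 := mul_le_mul_of_nonneg_left P.sum_G_V'_le (by positivity : 0 ≤ 2 * R * (d * h))
  linarith

/-- The error term. -/
noncomputable def Err (R δ vK β τ : ℝ) : ℝ :=
  2 * R ^ 2 * β + 2 * δ * vK + (R ^ 2 * β + 2 * δ * vK) / τ + 13 * R ^ 2 * τ * vK

/-- The main summation. -/
theorem core_X (P : Pieces K R r h PA PB SA SB G) [DecidableEq T] (hne : K.Nonempty) {τ : ℝ}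
    (h0 : 0 < τ) (h1 : τ < 1) :
    ∑ k ∈ G, (volume : Measure (E d)).real (SA k) * ‖(PB k).center - (PA k).center‖ ^ 2 ≤
      2 * R * ∑ k ∈ G, (|(volume : Measure (E d)).real (SB k) - (volume : Measure (E d)).real (SA k)| *
          ‖(PB k).center - (PA k).center‖) +
      3 / 2 * R ^ 2 * ∑ k ∈ G, (((volume : Measure (E d)).real (SB k) -
          (volume : Measure (E d)).real (SA k)) ^ 2 / (volume : Measure (E d)).real (SA k)) +
      Err R (2 * R * (d * h)) ((volume : Measure (E d)).real K)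
        (∑ k ∈ Gᶜ, (volume : Measure (E d)).real (SA k)) τ := by
  have hR0 := P.R_nonneg_of hne
  have hh := P.hh
  set vK := (volume : Measure (E d)).real K with hvK
  set β := ∑ k ∈ Gᶜ, (volume : Measure (E d)).real (SA k) with hβ
  set δ := 2 * R * (d * h) with hδ
  set S0 := ∑ k ∈ G, (volume : Measure (E d)).real (SA k) * Fq R (PA k).center with hS0
  set S1 := ∑ k ∈ G, (volume : Measure (E d)).real (SB k) * Fq R (PB k).center with hS1
  set X2 := ∑ k ∈ G, (volume : Measure (E d)).real (SA k) * ‖(PB k).center - (PA k).center‖ ^ 2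
    with hX2
  set A := ∑ k ∈ G, (|(volume : Measure (E d)).real (SB k) - (volume : Measure (E d)).real (SA k)| *
          ‖(PB k).center - (PA k).center‖) with hA
  set Y := ∑ k ∈ G, (((volume : Measure (E d)).real (SB k) -
          (volume : Measure (E d)).real (SA k)) ^ 2 / (volume : Measure (E d)).real (SA k)) with hY
  have hδ0 : 0 ≤ δ := by positivity
  have hE : ∑ k ∈ G, E1 R PA PB SA SB k = S1 - S0 - 2 * R * A + X2 - 3 / 2 * R ^ 2 * Y := by
    rw [hS1, hS0, hA, hX2, hY, Finset.mul_sum, Finset.mul_sum, ← Finset.sum_sub_distrib,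
      ← Finset.sum_sub_distrib, ← Finset.sum_add_distrib, ← Finset.sum_sub_distrib]
    refine Finset.sum_congr rfl fun k _ => ?_
    unfold E1
    ring
  have c1 := P.core_sum1 hne h0 h1
  have c2 := P.core_sum2 hne
  have c3 := P.core_sum3 hne
  have c4 := P.core_sum4 hne
  have e1 : ∑ k ∈ G, ((volume : Measure (E d)).real (SA k) * Fq R (PA k).center +
        τ * E1 R PA PB SA SB k - 13 * R ^ 2 * τ ^ 2 * (volume : Measure (E d)).real (SA k)) =
      S0 + τ * (S1 - S0 - 2 * R * A + X2 - 3 / 2 * R ^ 2 * Y) -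
        13 * R ^ 2 * τ ^ 2 * ∑ k ∈ G, (volume : Measure (E d)).real (SA k) := by
    rw [← hE, Finset.sum_sub_distrib, Finset.sum_add_distrib, ← Finset.mul_sum, ← Finset.mul_sum]
  rw [e1] at c1
  have c5 : 13 * R ^ 2 * τ ^ 2 * ∑ k ∈ G, (volume : Measure (E d)).real (SA k) ≤
      13 * R ^ 2 * τ ^ 2 * vK :=
    mul_le_mul_of_nonneg_left P.sum_G_V_le (by positivity)
  -- isolate the first order term
  have c6 : τ * (S1 - S0 - 2 * R * A + X2 - 3 / 2 * R ^ 2 * Y) ≤
      R ^ 2 * β + 2 * δ * vK + 13 * R ^ 2 * τ ^ 2 * vK := by linarith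
  have c7 : S1 - S0 - 2 * R * A + X2 - 3 / 2 * R ^ 2 * Y ≤
      (R ^ 2 * β + 2 * δ * vK) / τ + 13 * R ^ 2 * τ * vK := by
    have e2 : (R ^ 2 * β + 2 * δ * vK) / τ + 13 * R ^ 2 * τ * vK =
        (R ^ 2 * β + 2 * δ * vK + 13 * R ^ 2 * τ ^ 2 * vK) / τ := by
      field_simp
    rw [e2, le_div_iff₀ h0, mul_comm]
    exact c6
  unfold Err
  linarith

/-- Cauchy-Schwarz on a set. -/
theorem sq_setIntegral_le {S : Set (E d)} (hm : MeasurableSet S) (hfin : volume S ≠ ∞) {f : E d → ℝ}
    (hf : IntegrableOn f S) (hf2 : IntegrableOn (fun x => f x ^ 2) S) :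
    (∫ x in S, f x) ^ 2 ≤ (volume : Measure (E d)).real S * ∫ x in S, f x ^ 2 := by
  have hi : ∀ t : ℝ, 0 ≤ (volume : Measure (E d)).real S * (t * t) +
      (-(2 * ∫ x in S, f x)) * t + ∫ x in S, f x ^ 2 := by
    intro t
    have h0 : 0 ≤ ∫ x in S, (f x - t) ^ 2 := setIntegral_nonneg hm fun x _ => by positivity
    have e : (fun x => (f x - t) ^ 2) = fun x => f x ^ 2 - (2 * t) * f x + t ^ 2 := by
      ext x; ring
    rw [e] at h0
    have i1 : IntegrableOn (fun x => (2 * t) * f x) S := hf.const_mul _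
    have i2 : IntegrableOn (fun _ : E d => t ^ 2) S := integrableOn_const hfin
    have i3 : IntegrableOn (fun x => f x ^ 2 - (2 * t) * f x) S := hf2.sub i1
    have a1 := integral_add (μ := volume.restrict S) i3 i2
    have a2 := integral_sub (μ := volume.restrict S) hf2 i1
    rw [a1, a2, integral_const_mul, setIntegral_const, smul_eq_mul] at h0
    linarith
  have := discrim_le_zero hi
  unfold discrim at this
  nlinarith

theorem Y_le (P : Pieces K R r h PA PB SA SB G) {k : T} (hk : k ∈ G) :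
    ((volume : Measure (E d)).real (SB k) - (volume : Measure (E d)).real (SA k)) ^ 2 /
      (volume : Measure (E d)).real (SA k) ≤ 2 * ∫ x in SB k, (r x - 1) ^ 2 := by
  have hV := P.goodV k hk
  rw [div_le_iff₀ hV]
  have hint : IntegrableOn (fun x => r x - 1) (SB k) :=
    (P.r_int k).sub (integrableOn_const (P.finB k))
  have hbd : ∀ x ∈ SB k, |(r x - 1) ^ 2| ≤ 1 := by
    intro x hx
    have h1 := P.hr.lo x (P.subB k hx)
    have h2 := P.hr.hi x (P.subB k hx)
    rw [abs_of_nonneg (by positivity)]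
    nlinarith
  have hm2 : Measurable fun x => (r x - 1) ^ 2 := (P.hr.meas.sub_const 1).pow_const 2
  have hint2 : IntegrableOn (fun x => (r x - 1) ^ 2) (SB k) := by
    refine Measure.integrableOn_of_bounded (P.finB k) hm2.aestronglyMeasurable (M := 1) ?_
    rw [ae_restrict_iff' (P.mB k)]
    exact Eventually.of_forall fun x hx => by simpa using hbd x hx
  have hcs := sq_setIntegral_le (P.mB k) (P.finB k) hint hint2
  have e : ∫ x in SB k, (r x - 1) =
      (volume : Measure (E d)).real (SA k) - (volume : Measure (E d)).real (SB k) := by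
    rw [integral_sub (P.r_int k) (integrableOn_const (P.finB k)), ← P.mass k]
    simp
  rw [e] at hcs
  have h0 : 0 ≤ ∫ x in SB k, (r x - 1) ^ 2 := setIntegral_nonneg (P.mB k) fun x _ => by positivity
  have h3 := mul_le_mul_of_nonneg_right (P.V'_le k) h0
  nlinarith

/-- The energy of the density. -/
noncomputable def energy (K : Set (E d)) (r : E d → ℝ) : ℝ := ∫ x in K, (r x - 1) ^ 2

theorem energy_nonneg (K : Set (E d)) (r : E d → ℝ) : 0 ≤ energy K r :=
  integral_nonneg fun _ => by positivity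

theorem sum_Y_le (P : Pieces K R r h PA PB SA SB G) :
    ∑ k ∈ G, (((volume : Measure (E d)).real (SB k) -
      (volume : Measure (E d)).real (SA k)) ^ 2 / (volume : Measure (E d)).real (SA k)) ≤
      2 * energy K r := by
  have hm2 : Measurable fun x => (r x - 1) ^ 2 := (P.hr.meas.sub_const 1).pow_const 2
  have hint : ∀ x ∈ K, |(r x - 1) ^ 2| ≤ 1 := by
    intro x hx
    have h1 := P.hr.lo x hx
    have h2 := P.hr.hi x hx
    rw [abs_of_nonneg (by positivity)]
    nlinarith
  calc _ ≤ ∑ k ∈ G, (2 * ∫ x in SB k, (r x - 1) ^ 2) := Finset.sum_le_sum fun k hk => P.Y_le hk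
    _ ≤ ∑ k, (2 * ∫ x in SB k, (r x - 1) ^ 2) :=
      Finset.sum_le_sum_of_subset_of_nonneg (Finset.subset_univ G) fun k _ _ =>
        mul_nonneg (by norm_num) (setIntegral_nonneg (P.mB k) fun x _ => by positivity)
    _ = 2 * energy K r := by
      rw [← Finset.mul_sum, P.sumB _ hm2 _ hint]
      rfl

theorem inner_int_A (P : Pieces K R r h PA PB SA SB G) (k : T) (v : E d) :
    IntegrableOn (fun x => inner ℝ x v) (SA k) volume :=
  (P.int_cont (g := fun x => inner ℝ x v) (by fun_prop)).mono_set (P.subA k)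

theorem inner_int_B (P : Pieces K R r h PA PB SA SB G) (k : T) (v : E d) :
    IntegrableOn (fun x => inner ℝ x v * r x) (SB k) volume :=
  (integrableOn_inner_mul P.hK P.hr v).mono_set (P.subB k)

/-- One term of the pairing at a good piece. -/
theorem pair_good (P : Pieces K R r h PA PB SA SB G) (hne : K.Nonempty) {k : T} (hk : k ∈ G)
    (v : E d) :
    (∫ x in SA k, inner ℝ x v) - ∫ x in SB k, inner ℝ x v * r x ≤
      (volume : Measure (E d)).real (SA k) * (‖(PB k).center - (PA k).center‖ * ‖v‖) +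
      2 * (d * h) * ‖v‖ * (volume : Measure (E d)).real (SA k) := by
  have hh := P.hh
  have h1 : ∫ x in SA k, inner ℝ x v ≤
      (inner ℝ (PA k).center v + d * h * ‖v‖) * (volume : Measure (E d)).real (SA k) := by
    refine sI_le (P.mA k) (P.finA k) (P.inner_int_A k v) fun x hx => ?_
    have h2 := P.center_dist_A hk hx
    have h3 : inner ℝ (x - (PA k).center) v ≤ ‖x - (PA k).center‖ * ‖v‖ := real_inner_le_norm _ _
    have h4 := mul_le_mul_of_nonneg_right h2 (norm_nonneg v)
    rw [inner_sub_left] at h3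
    linarith
  have h5 : (inner ℝ (PB k).center v - d * h * ‖v‖) * (volume : Measure (E d)).real (SA k) ≤
      ∫ x in SB k, inner ℝ x v * r x := by
    rw [P.mass k, ← integral_const_mul]
    refine setIntegral_mono_on ((P.r_int k).const_mul _) (P.inner_int_B k v) (P.mB k) fun x hx => ?_
    have h2 := P.center_dist_B hk hx
    have h3 : -(‖x - (PB k).center‖ * ‖v‖) ≤ inner ℝ (x - (PB k).center) v :=
      (abs_le.mp (abs_real_inner_le_norm _ _)).1
    have h4 := mul_le_mul_of_nonneg_right h2 (norm_nonneg v)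
    rw [inner_sub_left] at h3
    have h6 : 0 ≤ r x := by linarith [P.hr.lo x (P.subB k hx)]
    apply mul_le_mul_of_nonneg_right _ h6
    linarith
  have h7 : inner ℝ (PA k).center v - inner ℝ (PB k).center v ≤
      ‖(PB k).center - (PA k).center‖ * ‖v‖ := by
    rw [← inner_sub_left]
    refine (real_inner_le_norm _ _).trans ?_
    rw [norm_sub_rev]
  have h8 := mul_le_mul_of_nonneg_left h7 (measureReal_nonneg (μ := (volume : Measure (E d))) (s := SA k))
  nlinarith

/-- One term of the pairing at any piece. -/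
theorem pair_bad (P : Pieces K R r h PA PB SA SB G) (hne : K.Nonempty) (k : T) (v : E d) :
    (∫ x in SA k, inner ℝ x v) - ∫ x in SB k, inner ℝ x v * r x ≤
      2 * R * ‖v‖ * (volume : Measure (E d)).real (SA k) := by
  have hR0 := P.R_nonneg_of hne
  have h1 : ∫ x in SA k, inner ℝ x v ≤ (R * ‖v‖) * (volume : Measure (E d)).real (SA k) := by
    refine sI_le (P.mA k) (P.finA k) (P.inner_int_A k v) fun x hx => ?_
    have h3 : inner ℝ x v ≤ ‖x‖ * ‖v‖ := real_inner_le_norm _ _
    have h4 := mul_le_mul_of_nonneg_right (P.hR x (P.subA k hx)) (norm_nonneg v)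
    linarith
  have h5 : (-(R * ‖v‖)) * (volume : Measure (E d)).real (SA k) ≤
      ∫ x in SB k, inner ℝ x v * r x := by
    rw [P.mass k, ← integral_const_mul]
    refine setIntegral_mono_on ((P.r_int k).const_mul _) (P.inner_int_B k v) (P.mB k) fun x hx => ?_
    have h3 : -(‖x‖ * ‖v‖) ≤ inner ℝ x v := (abs_le.mp (abs_real_inner_le_norm _ _)).1
    have h4 := mul_le_mul_of_nonneg_right (P.hR x (P.subB k hx)) (norm_nonneg v)
    have h6 : 0 ≤ r x := by linarith [P.hr.lo x (P.subB k hx)]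
    apply mul_le_mul_of_nonneg_right _ h6
    linarith
  nlinarith

/-- The pairing bound. -/
theorem core_pair (P : Pieces K R r h PA PB SA SB G) [DecidableEq T] (hne : K.Nonempty)
    (v : T → E d) {vm : ℝ} (hvm0 : 0 ≤ vm) (hvm : ∀ k, ‖v k‖ ≤ vm) :
    ∑ k, ((∫ x in SA k, inner ℝ x (v k)) - ∫ x in SB k, inner ℝ x (v k) * r x) ≤
      ∑ k ∈ G, (volume : Measure (E d)).real (SA k) * (‖(PB k).center - (PA k).center‖ * ‖v k‖) +
      2 * (d * h) * vm * (volume : Measure (E d)).real K +
      2 * R * vm * ∑ k ∈ Gᶜ, (volume : Measure (E d)).real (SA k) := by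
  have hh := P.hh
  have hR0 := P.R_nonneg_of hne
  rw [← Finset.sum_add_sum_compl G]
  have h1 : ∑ k ∈ G, ((∫ x in SA k, inner ℝ x (v k)) - ∫ x in SB k, inner ℝ x (v k) * r x) ≤
      ∑ k ∈ G, ((volume : Measure (E d)).real (SA k) * (‖(PB k).center - (PA k).center‖ * ‖v k‖) +
        2 * (d * h) * vm * (volume : Measure (E d)).real (SA k)) := by
    refine Finset.sum_le_sum fun k hk => (P.pair_good hne hk (v k)).trans ?_
    have h5 : 2 * (d * h) * ‖v k‖ ≤ 2 * (d * h) * vm :=
      mul_le_mul_of_nonneg_left (hvm k) (by positivity)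
    have h6 := mul_le_mul_of_nonneg_right h5
      (measureReal_nonneg (μ := (volume : Measure (E d))) (s := SA k))
    linarith
  have h2 : ∑ k ∈ Gᶜ, ((∫ x in SA k, inner ℝ x (v k)) - ∫ x in SB k, inner ℝ x (v k) * r x) ≤
      ∑ k ∈ Gᶜ, (2 * R * vm * (volume : Measure (E d)).real (SA k)) := by
    refine Finset.sum_le_sum fun k hk => (P.pair_bad hne k (v k)).trans ?_
    have h5 : 2 * R * ‖v k‖ ≤ 2 * R * vm := mul_le_mul_of_nonneg_left (hvm k) (by positivity)
    exact mul_le_mul_of_nonneg_right h5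
      (measureReal_nonneg (μ := (volume : Measure (E d))) (s := SA k))
  rw [Finset.sum_add_distrib, ← Finset.mul_sum] at h1
  rw [← Finset.mul_sum] at h2
  have h3 := mul_le_mul_of_nonneg_left P.sum_G_V_le
    (by positivity : 0 ≤ 2 * (d * h) * vm)
  linarith

/-- The conclusion for a family of matched boxes. -/
theorem core (P : Pieces K R r h PA PB SA SB G) [DecidableEq T] (hne : K.Nonempty) {τ : ℝ}
    (h0 : 0 < τ) (h1 : τ < 1) (v : T → E d) {vm : ℝ} (hvm0 : 0 ≤ vm) (hvm : ∀ k, ‖v k‖ ≤ vm) :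
    ∃ X : ℝ, 0 ≤ X ∧
      X ^ 2 ≤ 2 * R * Real.sqrt (2 * energy K r) * X + 3 * R ^ 2 * energy K r +
        Err R (2 * R * (d * h)) ((volume : Measure (E d)).real K)
          (∑ k ∈ Gᶜ, (volume : Measure (E d)).real (SA k)) τ ∧
      ∑ k, ((∫ x in SA k, inner ℝ x (v k)) - ∫ x in SB k, inner ℝ x (v k) * r x) ≤
        X * Real.sqrt (∑ k, (volume : Measure (E d)).real (SA k) * ‖v k‖ ^ 2) +
        2 * (d * h) * vm * (volume : Measure (E d)).real K +
        2 * R * vm * ∑ k ∈ Gᶜ, (volume : Measure (E d)).real (SA k) := by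
  have hR0 := P.R_nonneg_of hne
  set X2 := ∑ k ∈ G, (volume : Measure (E d)).real (SA k) * ‖(PB k).center - (PA k).center‖ ^ 2
    with hX2
  have hX20 : 0 ≤ X2 := Finset.sum_nonneg fun k _ => mul_nonneg measureReal_nonneg (by positivity)
  set X := Real.sqrt X2 with hX
  have hXX : X ^ 2 = X2 := Real.sq_sqrt hX20
  have hsV : ∀ k ∈ G, Real.sqrt ((volume : Measure (E d)).real (SA k)) ≠ 0 := fun k hk =>
    (Real.sqrt_pos.mpr (P.goodV k hk)).ne'
  refine ⟨X, Real.sqrt_nonneg _, ?_, ?_⟩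
  · have c1 := P.core_X hne h0 h1
    have c2 := P.sum_Y_le
    -- Cauchy-Schwarz
    have c3 := Real.sum_mul_le_sqrt_mul_sqrt G
      (fun k => |(volume : Measure (E d)).real (SB k) - (volume : Measure (E d)).real (SA k)| /
        Real.sqrt ((volume : Measure (E d)).real (SA k)))
      (fun k => Real.sqrt ((volume : Measure (E d)).real (SA k)) *
        ‖(PB k).center - (PA k).center‖)
    have e1 : ∑ k ∈ G, (|(volume : Measure (E d)).real (SB k) -
        (volume : Measure (E d)).real (SA k)| / Real.sqrt ((volume : Measure (E d)).real (SA k))) *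
        (Real.sqrt ((volume : Measure (E d)).real (SA k)) * ‖(PB k).center - (PA k).center‖) =
        ∑ k ∈ G, (|(volume : Measure (E d)).real (SB k) - (volume : Measure (E d)).real (SA k)| *
          ‖(PB k).center - (PA k).center‖) := by
      refine Finset.sum_congr rfl fun k hk => ?_
      have := hsV k hk
      field_simp
    have e2 : ∑ k ∈ G, (|(volume : Measure (E d)).real (SB k) -
        (volume : Measure (E d)).real (SA k)| /
          Real.sqrt ((volume : Measure (E d)).real (SA k))) ^ 2 =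
        ∑ k ∈ G, (((volume : Measure (E d)).real (SB k) -
          (volume : Measure (E d)).real (SA k)) ^ 2 / (volume : Measure (E d)).real (SA k)) := by
      refine Finset.sum_congr rfl fun k hk => ?_
      rw [div_pow, sq_abs, Real.sq_sqrt measureReal_nonneg]
    have e3 : ∑ k ∈ G, (Real.sqrt ((volume : Measure (E d)).real (SA k)) *
        ‖(PB k).center - (PA k).center‖) ^ 2 = X2 := by
      refine Finset.sum_congr rfl fun k hk => ?_
      rw [mul_pow, Real.sq_sqrt measureReal_nonneg]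
    rw [e1, e2, e3] at c3
    have c4 : Real.sqrt (∑ k ∈ G, (((volume : Measure (E d)).real (SB k) -
        (volume : Measure (E d)).real (SA k)) ^ 2 / (volume : Measure (E d)).real (SA k))) ≤
        Real.sqrt (2 * energy K r) := Real.sqrt_le_sqrt c2
    have c5 := mul_le_mul_of_nonneg_right c4 (Real.sqrt_nonneg X2)
    have c6 : 2 * R * ∑ k ∈ G, (|(volume : Measure (E d)).real (SB k) -
        (volume : Measure (E d)).real (SA k)| * ‖(PB k).center - (PA k).center‖) ≤
        2 * R * (Real.sqrt (2 * energy K r) * X) :=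
      mul_le_mul_of_nonneg_left (c3.trans c5) (by positivity)
    have c7 := mul_le_mul_of_nonneg_left c2 (by positivity : 0 ≤ 3 / 2 * R ^ 2)
    rw [hXX]
    have c8 : 3 / 2 * R ^ 2 * (2 * energy K r) = 3 * R ^ 2 * energy K r := by ring
    have c9 : 2 * R * (Real.sqrt (2 * energy K r) * X) = 2 * R * Real.sqrt (2 * energy K r) * X := by
      ring
    linarith
  · have c1 := P.core_pair hne v hvm0 hvm
    have c3 := Real.sum_mul_le_sqrt_mul_sqrt G
      (fun k => Real.sqrt ((volume : Measure (E d)).real (SA k)) *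
        ‖(PB k).center - (PA k).center‖)
      (fun k => Real.sqrt ((volume : Measure (E d)).real (SA k)) * ‖v k‖)
    have e1 : ∑ k ∈ G, (Real.sqrt ((volume : Measure (E d)).real (SA k)) *
        ‖(PB k).center - (PA k).center‖) * (Real.sqrt ((volume : Measure (E d)).real (SA k)) * ‖v k‖) =
        ∑ k ∈ G, (volume : Measure (E d)).real (SA k) * (‖(PB k).center - (PA k).center‖ * ‖v k‖) := by
      refine Finset.sum_congr rfl fun k hk => ?_
      have := Real.mul_self_sqrt (measureReal_nonneg (μ := (volume : Measure (E d))) (s := SA k))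
      calc Real.sqrt ((volume : Measure (E d)).real (SA k)) * ‖(PB k).center - (PA k).center‖ *
            (Real.sqrt ((volume : Measure (E d)).real (SA k)) * ‖v k‖) =
          (Real.sqrt ((volume : Measure (E d)).real (SA k)) *
            Real.sqrt ((volume : Measure (E d)).real (SA k))) *
            (‖(PB k).center - (PA k).center‖ * ‖v k‖) := by ring
        _ = _ := by rw [this]
    have e3 : ∑ k ∈ G, (Real.sqrt ((volume : Measure (E d)).real (SA k)) *
        ‖(PB k).center - (PA k).center‖) ^ 2 = X2 := by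
      refine Finset.sum_congr rfl fun k hk => ?_
      rw [mul_pow, Real.sq_sqrt measureReal_nonneg]
    have e4 : ∑ k ∈ G, (Real.sqrt ((volume : Measure (E d)).real (SA k)) * ‖v k‖) ^ 2 =
        ∑ k ∈ G, (volume : Measure (E d)).real (SA k) * ‖v k‖ ^ 2 := by
      refine Finset.sum_congr rfl fun k hk => ?_
      rw [mul_pow, Real.sq_sqrt measureReal_nonneg]
    rw [e1, e3, e4] at c3
    have c4 : Real.sqrt (∑ k ∈ G, (volume : Measure (E d)).real (SA k) * ‖v k‖ ^ 2) ≤
        Real.sqrt (∑ k, (volume : Measure (E d)).real (SA k) * ‖v k‖ ^ 2) := by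
      apply Real.sqrt_le_sqrt
      exact Finset.sum_le_sum_of_subset_of_nonneg (Finset.subset_univ G)
        fun k _ _ => mul_nonneg measureReal_nonneg (by positivity)
    have c5 := mul_le_mul_of_nonneg_left c4 (Real.sqrt_nonneg X2)
    linarith

end Pieces

end Vale.Agent.P074
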