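import Vale.Agent.P074.Nstar

/-!
# Integrating the estimate along a path of positions
-/

open MeasureTheory Set Metric Filter Topology
open scoped ENNReal NNReal

set_option linter.unusedSectionVars false
set_option linter.unusedSimpArgs false
set_option linter.unusedVariables false

namespace Vale.Agent.P074

variable {d : ℕ} {I : Type} [Fintype I]

/-- The linear path of positions. -/
noncomputable def wt (w₀ w₁ : I → E d) (t : ℝ) (i : I) : E d := (1 - t) • w₀ i + t • w₁ i

theorem wt_zero (w₀ w₁ : I → E d) : wt w₀ w₁ 0 = w₀ := by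
  funext i
  simp [wt]

theorem wt_one (w₀ w₁ : I → E d) : wt w₀ w₁ 1 = w₁ := by
  funext i
  simp [wt]

theorem wt_sub (w₀ w₁ : I → E d) (t t' : ℝ) (i : I) :
    wt w₀ w₁ t' i - wt w₀ w₁ t i = (t' - t) • (w₁ i - w₀ i) := by
  simp only [wt, smul_sub, sub_smul, one_smul]
  abel

/-- The correlation of the cells with a family of vectors. -/
noncomputable def pairing (K : Set (E d)) (r : E d → ℝ) (w : I → E d) (a : I → ℝ) (v : I → E d) : ℝ :=
  ∑ i, ∫ x in cell K w a i, inner ℝ x (v i) * r x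

section Main

variable {K : Set (E d)} {R : ℝ} {r : E d → ℝ} {w w' w₀ w₁ : I → E d} {a a' a₀ a₁ : I → ℝ}
  {n : I → ℝ}

theorem pairing_smul (c : ℝ) (v : I → E d) :
    pairing K r w a (fun i => c • v i) = c * pairing K r w a v := by
  unfold pairing
  rw [Finset.mul_sum]
  refine Finset.sum_congr rfl fun i _ => ?_
  rw [← integral_const_mul]
  refine integral_congr_ae (Eventually.of_forall fun x => ?_)
  simp only [inner_smul_right]
  ring

theorem sandwich [Nonempty I] (hK : IsCompact K) (hr : Dens K r) (hw : Function.Injective w)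
    (hmass : ∀ i, ∫ x in cell K w a i, r x = n i) (w' : I → E d) (a' : I → ℝ) :
    kant K n r w a + pairing K r w a (fun i => w' i - w i) ≤ kant K n r w' a' := by
  rw [kant_eq_prim hK hr hw hmass]
  refine le_trans (le_of_eq ?_) (prim_le_kant hK hr hw hmass w' a')
  unfold pairing
  rw [← Finset.sum_add_distrib]
  refine Finset.sum_congr rfl fun i _ => ?_
  have i1 := (integrableOn_inner_mul hK hr (w i)).mono_set (cell_subset (K := K) (w := w) (a := a) (i := i))
  have i2 := (integrableOn_inner_mul hK hr (w' i - w i)).mono_set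
    (cell_subset (K := K) (w := w) (a := a) (i := i))
  rw [← integral_add i1 i2]
  refine integral_congr_ae (Eventually.of_forall fun x => ?_)
  simp only [inner_sub_right]
  ring

/-- The density `1 + s g`. -/
noncomputable def rs (s : ℝ) (g : E d → ℝ) (x : E d) : ℝ := 1 + s * g x

theorem rs_dens {g : E d → ℝ} (hg : Measurable g) {M s : ℝ} (hM : ∀ x ∈ K, |g x| ≤ M) (hs0 : 0 ≤ s)
    (hsM : s * M ≤ 1 / 2) : Dens K (rs s g) := by
  refine ⟨measurable_const.add (measurable_const.mul hg), fun x hx => ?_, fun x hx => ?_⟩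
  · have h1 := (abs_le.mp (hM x hx)).1
    have h2 := mul_le_mul_of_nonneg_left h1 hs0
    simp only [rs]
    linarith
  · have h1 := (abs_le.mp (hM x hx)).2
    have h2 := mul_le_mul_of_nonneg_left h1 hs0
    simp only [rs]
    linarith

theorem g_integrableOn (hK : IsCompact K) {g : E d → ℝ} (hg : Measurable g) {M : ℝ}
    (hM : ∀ x ∈ K, |g x| ≤ M) : IntegrableOn g K volume := integrableOn_of_bdd hK hg hM

theorem integral_rs (hK : IsCompact K) {g : E d → ℝ} (hg : Measurable g) {M : ℝ}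
    (hM : ∀ x ∈ K, |g x| ≤ M) (hg0 : ∫ x in K, g x = 0) (s : ℝ) :
    ∫ x in K, rs s g x = ∫ _x in K, (1 : ℝ) := by
  have i1 : IntegrableOn (fun _ : E d => (1 : ℝ)) K volume :=
    integrableOn_const hK.measure_lt_top.ne
  have i2 : IntegrableOn (fun x => s * g x) K volume := (g_integrableOn hK hg hM).const_mul s
  unfold rs
  rw [integral_add i1 i2, integral_const_mul, hg0]
  simp

theorem pw_mul_int [Nonempty I] (hK : IsCompact K) {g : E d → ℝ} (hg : Measurable g) {M : ℝ}
    (hM : ∀ x ∈ K, |g x| ≤ M) (w : I → E d) (a : I → ℝ) :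
    IntegrableOn (fun x => pw w a x * g x) K volume := by
  obtain ⟨C, hC⟩ := hK.exists_bound_of_continuousOn (pw_continuous w a).continuousOn
  refine integrableOn_of_bdd hK ((pw_continuous w a).measurable.mul hg) (C := C * M) fun x hx => ?_
  rw [abs_mul]
  have h1 := hC x hx
  have h2 := hM x hx
  exact mul_le_mul h1 h2 (abs_nonneg _) ((norm_nonneg _).trans h1)

theorem kant_rs [Nonempty I] (hK : IsCompact K) {g : E d → ℝ} (hg : Measurable g) {M : ℝ}
    (hM : ∀ x ∈ K, |g x| ≤ M) (s : ℝ) (w : I → E d) (a : I → ℝ) :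
    kant K n (rs s g) w a = kant K n (fun _ => 1) w a + s * ∫ x in K, pw w a x * g x := by
  unfold kant rs
  have i1 : IntegrableOn (fun x => pw w a x * 1) K volume :=
    (dens_one K).integrableOn_mul hK (pw_continuous w a)
  have i2 : IntegrableOn (fun x => s * (pw w a x * g x)) K volume :=
    (pw_mul_int hK hg hM w a).const_mul s
  have e : ∫ x in K, pw w a x * (1 + s * g x) =
      (∫ x in K, pw w a x * 1) + s * ∫ x in K, pw w a x * g x := by
    rw [← integral_const_mul, ← integral_add i1 i2]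
    refine integral_congr_ae (Eventually.of_forall fun x => ?_)
    simp only
    ring
  rw [e]
  ring

theorem energy_rs {g : E d → ℝ} {s : ℝ} (hs0 : 0 ≤ s) :
    Real.sqrt (Pieces.energy K (rs s g)) = s * Real.sqrt (∫ x in K, g x ^ 2) := by
  unfold Pieces.energy rs
  have e : ∀ x, (1 + s * g x - 1) ^ 2 = s ^ 2 * g x ^ 2 := fun x => by ring
  simp only [e]
  rw [integral_const_mul, Real.sqrt_mul (by positivity), Real.sqrt_sq hs0]

/-- The telescoping estimate at a fixed positive `s`. -/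
theorem telescoped [Nonempty I] (hK : IsCompact K) (hconv : Convex ℝ K) (hne : K.Nonempty)
    (hR : ∀ x ∈ K, ‖x‖ ≤ R) (hpath : ∀ t ∈ Icc (0 : ℝ) 1, Function.Injective (wt w₀ w₁ t))
    (hn0 : ∀ i, 0 < n i) (hnK : ∑ i, n i = ∫ _x in K, (1 : ℝ))
    {g : E d → ℝ} (hg : Measurable g) {M : ℝ} (hM : ∀ x ∈ K, |g x| ≤ M) (hg0 : ∫ x in K, g x = 0)
    {s : ℝ} (hs0 : 0 < s) (hsM : s * M ≤ 1 / 2)
    (ha₀ : ∀ i, ∫ _x in cell K (wt w₀ w₁ 0) a₀ i, (1 : ℝ) = n i)
    {c₁ : I → ℝ} (hc₁ : ∀ i, ∫ x in cell K (wt w₀ w₁ 1) c₁ i, rs s g x = n i) :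
    (∫ x in K, pw (wt w₀ w₁ 1) c₁ x * g x) - (∫ x in K, pw (wt w₀ w₁ 0) a₀ x * g x) ≤
      5 * (R * Real.sqrt (∫ x in K, g x ^ 2)) * Real.sqrt (∑ i, n i * ‖w₁ i - w₀ i‖ ^ 2) := by
  classical
  set W := Real.sqrt (∑ i, n i * ‖w₁ i - w₀ i‖ ^ 2) with hW
  set G2 := Real.sqrt (∫ x in K, g x ^ 2) with hG2
  set v : I → E d := fun i => w₁ i - w₀ i with hv
  have hR0 : 0 ≤ R := (norm_nonneg _).trans (hR _ hne.some_mem)
  have hW0 : 0 ≤ W := Real.sqrt_nonneg _
  have hG20 : 0 ≤ G2 := Real.sqrt_nonneg _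
  set r := rs s g with hrdef
  have hr : Dens K r := rs_dens hg hM hs0.le hsM
  have hr1 : Dens K (fun _ => (1 : ℝ)) := dens_one K
  have hnr : ∑ i, n i = ∫ x in K, r x := by rw [hnK, hrdef, integral_rs hK hg hM hg0]
  obtain ⟨RK, hRK⟩ : ∃ RK, ∀ x ∈ K, ‖x‖ ≤ RK := ⟨R, hR⟩
  obtain ⟨i₀, hi₀⟩ := Finite.exists_min n
  have hnm : 0 < n i₀ := hn0 i₀
  -- a bound for the correlations
  set B := ∑ i, R * ‖v i‖ * n i with hB
  have hP0 : ∀ (w : I → E d) (a : I → ℝ), (∀ i, ∫ _x in cell K w a i, (1 : ℝ) = n i) →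
      |pairing K (fun _ => 1) w a v| ≤ B := by
    intro w a hma
    unfold pairing
    refine (Finset.abs_sum_le_sum_abs _ _).trans (Finset.sum_le_sum fun i _ => ?_)
    have hm := measurableSet_cell hK.isClosed w a i
    have hfin : volume (cell K w a i) ≠ ∞ :=
      ((measure_mono cell_subset).trans_lt hK.measure_lt_top).ne
    have h1 := norm_setIntegral_le_of_norm_le_const (μ := volume) (s := cell K w a i)
      (f := fun x => inner ℝ x (v i) * 1) (C := R * ‖v i‖) hfin.lt_top (fun x hx => by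
        rw [mul_one]
        rw [Real.norm_eq_abs]
        refine (abs_real_inner_le_norm _ _).trans ?_
        exact mul_le_mul_of_nonneg_right (hR x (cell_subset hx)) (norm_nonneg _))
    rw [Real.norm_eq_abs] at h1
    have e : (volume : Measure (E d)).real (cell K w a i) = n i := by
      rw [← hma i]
      simp
    rwa [e] at h1
  -- for every `N`
  have hN : ∀ N : ℕ, 0 < N →
      s * ((∫ x in K, pw (wt w₀ w₁ 1) c₁ x * g x) - (∫ x in K, pw (wt w₀ w₁ 0) a₀ x * g x)) ≤
        s * (5 * (R * G2) * W) + 2 * B / N := by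
    intro N hN
    have hNr : (0 : ℝ) < N := by exact_mod_cast hN
    let τ : ℕ → ℝ := fun k => min ((k : ℝ) / N) 1
    have hτ : ∀ k, τ k ∈ Icc (0 : ℝ) 1 := fun k =>
      ⟨le_min (by positivity) zero_le_one, min_le_right _ _⟩
    have hτ0 : τ 0 = 0 := by simp [τ]
    have hτN : τ N = 1 := by
      simp only [τ]
      rw [div_self hNr.ne']
      simp
    have hτs : ∀ k, k < N → τ (k + 1) - τ k = 1 / N := by
      intro k hk
      have h1 : ((k : ℝ) + 1) / N ≤ 1 := by
        rw [div_le_one hNr]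
        exact_mod_cast hk
      have h2 : (k : ℝ) / N ≤ 1 := by
        refine le_trans ?_ h1
        apply div_le_div_of_nonneg_right _ hNr.le
        linarith
      simp only [τ]
      rw [min_eq_left h2]
      push_cast
      rw [min_eq_left h1]
      field_simp
      ring
    -- the heights
    have hb : ∀ k, ∃ b : I → ℝ, (∀ i, ∫ _x in cell K (wt w₀ w₁ (τ k)) b i, (1 : ℝ) = n i) ∧
        (k = 0 → b = a₀) := by
      intro k
      by_cases hk : k = 0
      · subst hk
        exact ⟨a₀, by rwa [hτ0], fun _ => rfl⟩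
      · obtain ⟨b, _, hb⟩ := exists_heights (r := fun _ => 1) hK hRK hne hr1 hn0 hnK
          (hpath _ (hτ k)) hnm hi₀
        exact ⟨b, hb, fun h => absurd h hk⟩
    have hc : ∀ k, ∃ c : I → ℝ, (∀ i, ∫ x in cell K (wt w₀ w₁ (τ k)) c i, r x = n i) ∧
        (k = N → c = c₁) := by
      intro k
      by_cases hk : k = N
      · subst hk
        exact ⟨c₁, by rwa [hτN], fun _ => rfl⟩
      · obtain ⟨c, _, hc⟩ := exists_heights (r := r) hK hRK hne hr hn0 hnr
          (hpath _ (hτ k)) hnm hi₀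
        exact ⟨c, hc, fun h => absurd h hk⟩
    choose b hb hb0 using hb
    choose c hc hcN using hc
    -- the values
    let C₀ : ℕ → ℝ := fun k => kant K n (fun _ => 1) (wt w₀ w₁ (τ k)) (b k)
    let Cs : ℕ → ℝ := fun k => kant K n r (wt w₀ w₁ (τ k)) (c k)
    let P₀ : ℕ → ℝ := fun k => pairing K (fun _ => 1) (wt w₀ w₁ (τ k)) (b k) v
    let Ps : ℕ → ℝ := fun k => pairing K r (wt w₀ w₁ (τ k)) (c k) v
    have hstep : ∀ k ∈ Finset.range N, (Cs (k + 1) - C₀ (k + 1)) - (Cs k - C₀ k) ≤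
        (1 / N) * (s * (5 * (R * G2) * W)) + (1 / N) * (P₀ (k + 1) - P₀ k) := by
      intro k hk
      have hk' : k < N := Finset.mem_range.mp hk
      have hts := hτs k hk'
      -- upper sandwich for `r`
      have s1 := sandwich hK hr (hpath _ (hτ (k + 1))) (hc (k + 1)) (wt w₀ w₁ (τ k)) (c k)
      have e1 : (fun i => wt w₀ w₁ (τ k) i - wt w₀ w₁ (τ (k + 1)) i) =
          fun i => (-(1 / (N : ℝ))) • v i := by
        funext i
        rw [wt_sub, ← hts, neg_sub]
      rw [e1, pairing_smul] at s1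
      -- lower sandwich for `1`
      have s2 := sandwich hK hr1 (hpath _ (hτ k)) (hb k) (wt w₀ w₁ (τ (k + 1))) (b (k + 1))
      have e2 : (fun i => wt w₀ w₁ (τ (k + 1)) i - wt w₀ w₁ (τ k) i) =
          fun i => (1 / (N : ℝ)) • v i := by
        funext i
        rw [wt_sub, hts]
      rw [e2, pairing_smul] at s2
      -- the estimate between the cells
      have hns := nstar (a := b (k + 1)) (b := c (k + 1)) (n := n) hK hconv hne hR
        (hpath _ (hτ (k + 1))) hr (hb (k + 1)) (hc (k + 1)) (fun i => (hn0 i).le)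
        (fun i => -(v i))
      have e3 : ∑ i, ((∫ x in cell K (wt w₀ w₁ (τ (k + 1))) (b (k + 1)) i, inner ℝ x (-(v i))) -
          ∫ x in cell K (wt w₀ w₁ (τ (k + 1))) (c (k + 1)) i, inner ℝ x (-(v i)) * r x) =
          Ps (k + 1) - P₀ (k + 1) := by
        simp only [Ps, P₀, pairing]
        rw [← Finset.sum_sub_distrib]
        refine Finset.sum_congr rfl fun i _ => ?_
        simp only [inner_neg_right, neg_mul, integral_neg, mul_one]
        ring
      rw [e3] at hns
      have e4 : Real.sqrt (∑ i, n i * ‖-(v i)‖ ^ 2) = W := by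
        simp only [norm_neg]
        rfl
      rw [e4, energy_rs hs0.le] at hns
      have e5 : 5 * (R * (s * G2)) * W = s * (5 * (R * G2) * W) := by ring
      rw [e5] at hns
      have hNinv : 0 ≤ 1 / (N : ℝ) := by positivity
      have hns2 := mul_le_mul_of_nonneg_left hns hNinv
      simp only [Cs, C₀, Ps, P₀] at *
      nlinarith
    have hsum := Finset.sum_le_sum hstep
    rw [Finset.sum_range_sub (fun k => Cs k - C₀ k), Finset.sum_add_distrib, Finset.sum_const,
      Finset.card_range, ← Finset.mul_sum, Finset.sum_range_sub P₀] at hsum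
    -- the ends
    have h0end : Cs 0 - C₀ 0 ≤ s * ∫ x in K, pw (wt w₀ w₁ 0) a₀ x * g x := by
      have h1 := min_of_mass hK hr (hpath _ (hτ 0)) (hc 0) (b 0)
      have h2 := kant_rs (n := n) hK hg hM s (wt w₀ w₁ (τ 0)) (b 0)
      rw [← hrdef] at h2
      simp only [Cs, C₀]
      rw [hb0 0 rfl] at h1 h2 ⊢
      rw [hτ0] at h1 h2 ⊢
      linarith
    have h1end : s * (∫ x in K, pw (wt w₀ w₁ 1) c₁ x * g x) ≤ Cs N - C₀ N := by
      have h1 := min_of_mass hK hr1 (hpath _ (hτ N)) (hb N) (c N)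
      have h2 := kant_rs (n := n) hK hg hM s (wt w₀ w₁ (τ N)) (c N)
      rw [← hrdef] at h2
      simp only [Cs, C₀]
      rw [hcN N rfl] at h1 h2 ⊢
      rw [hτN] at h1 h2 ⊢
      linarith
    have hP1 : P₀ N - P₀ 0 ≤ 2 * B := by
      have a1 := abs_le.mp (hP0 _ _ (hb N))
      have a2 := abs_le.mp (hP0 _ _ (hb 0))
      simp only [P₀]
      linarith [a1.2, a2.1]
    have e6 : (N : ℝ) • ((1 / (N : ℝ)) * (s * (5 * (R * G2) * W))) = s * (5 * (R * G2) * W) := by
      rw [smul_eq_mul]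
      field_simp
    simp only [nsmul_eq_mul] at hsum
    have e7 : (N : ℝ) * ((1 / (N : ℝ)) * (s * (5 * (R * G2) * W))) = s * (5 * (R * G2) * W) := by
      field_simp
    rw [e7] at hsum
    have h5 : (1 / (N : ℝ)) * (P₀ N - P₀ 0) ≤ 2 * B / N := by
      have e9 : (1 / (N : ℝ)) * (P₀ N - P₀ 0) = (P₀ N - P₀ 0) / N := by ring
      rw [e9]
      exact div_le_div_of_nonneg_right hP1 hNr.le
    have e8 : s * ((∫ x in K, pw (wt w₀ w₁ 1) c₁ x * g x) - ∫ x in K, pw (wt w₀ w₁ 0) a₀ x * g x) =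
        s * (∫ x in K, pw (wt w₀ w₁ 1) c₁ x * g x) - s * ∫ x in K, pw (wt w₀ w₁ 0) a₀ x * g x := by
      ring
    rw [e8]
    linarith
  -- let `N` go to infinity
  have hB0 : 0 ≤ B := Finset.sum_nonneg fun i _ => by
    have := (hn0 i).le
    positivity
  have hlim : s * ((∫ x in K, pw (wt w₀ w₁ 1) c₁ x * g x) - (∫ x in K, pw (wt w₀ w₁ 0) a₀ x * g x)) ≤
      s * (5 * (R * G2) * W) := by
    apply le_of_forall_pos_le_add
    intro ε hε
    obtain ⟨N, hN'⟩ := exists_nat_gt (2 * B / ε)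
    have hNpos : 0 < N := by
      have : (0 : ℝ) < N := lt_of_le_of_lt (by positivity) hN'
      exact_mod_cast this
    have hNr : (0 : ℝ) < N := by exact_mod_cast hNpos
    refine (hN N hNpos).trans ?_
    have : 2 * B / N ≤ ε := by
      rw [div_le_iff₀ hNr]
      rw [div_lt_iff₀ hε] at hN'
      linarith
    linarith
  exact le_of_mul_le_mul_left hlim hs0

theorem Jg_le [Nonempty I] (hK : IsCompact K) {g : E d → ℝ} (hg : Measurable g) {M : ℝ}
    (hM : ∀ x ∈ K, |g x| ≤ M) (w : I → E d) (a b : I → ℝ) :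
    (∫ x in K, pw w a x * g x) ≤ (∫ x in K, pw w b x * g x) + (∫ x in K, |g x|) * ‖a - b‖ := by
  have i1 := pw_mul_int hK hg hM w a
  have i2 := pw_mul_int hK hg hM w b
  have i3 : IntegrableOn (fun x => |g x|) K volume := (g_integrableOn hK hg hM).abs
  rw [← integral_mul_const, ← integral_add i2 (i3.mul_const _)]
  refine setIntegral_mono_on i1 (i2.add (i3.mul_const _)) hK.isClosed.measurableSet fun x hx => ?_
  have h1 := pw_heights_le w a b x
  have h2 := pw_heights_le w b a x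
  rw [norm_sub_rev] at h2
  have h3 : |pw w a x - pw w b x| ≤ ‖a - b‖ := by
    rw [abs_le]
    constructor <;> linarith
  have h4 : (pw w a x - pw w b x) * g x ≤ ‖a - b‖ * |g x| := by
    refine (le_abs_self _).trans ?_
    rw [abs_mul]
    exact mul_le_mul_of_nonneg_right h3 (abs_nonneg _)
  show pw w a x * g x ≤ pw w b x * g x + |g x| * ‖a - b‖
  linarith

theorem Jg_continuous [Nonempty I] (hK : IsCompact K) {g : E d → ℝ} (hg : Measurable g) {M : ℝ}
    (hM : ∀ x ∈ K, |g x| ≤ M) (w : I → E d) :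
    Continuous fun a : I → ℝ => ∫ x in K, pw w a x * g x := by
  have h0 : 0 ≤ ∫ x in K, |g x| := integral_nonneg fun _ => abs_nonneg _
  have : LipschitzWith (∫ x in K, |g x|).toNNReal (fun a : I → ℝ => ∫ x in K, pw w a x * g x) := by
    apply LipschitzWith.of_le_add_mul
    intro a b
    have := Jg_le hK hg hM w a b
    rw [Real.coe_toNNReal _ h0, dist_eq_norm]
    exact this
  exact this.continuous

/-- The estimate along a path of positions, for heights with the right masses. -/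
theorem path_bound [Nonempty I] (hK : IsCompact K) (hconv : Convex ℝ K)
    (hi : (interior K).Nonempty) (hR : ∀ x ∈ K, ‖x‖ ≤ R)
    (hpath : ∀ t ∈ Icc (0 : ℝ) 1, Function.Injective (wt w₀ w₁ t))
    (hn0 : ∀ i, 0 < n i) (hnK : ∑ i, n i = ∫ _x in K, (1 : ℝ))
    {g : E d → ℝ} (hg : Measurable g) {M : ℝ} (hM : ∀ x ∈ K, |g x| ≤ M) (hg0 : ∫ x in K, g x = 0)
    (ha₀ : ∀ i, ∫ _x in cell K (wt w₀ w₁ 0) a₀ i, (1 : ℝ) = n i)
    (ha₁ : ∀ i, ∫ _x in cell K (wt w₀ w₁ 1) a₁ i, (1 : ℝ) = n i) :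
    (∫ x in K, pw (wt w₀ w₁ 1) a₁ x * g x) - (∫ x in K, pw (wt w₀ w₁ 0) a₀ x * g x) ≤
      5 * (R * Real.sqrt (∫ x in K, g x ^ 2)) * Real.sqrt (∑ i, n i * ‖w₁ i - w₀ i‖ ^ 2) := by
  have hne : K.Nonempty := hi.mono interior_subset
  have hM0 : 0 ≤ M := (abs_nonneg _).trans (hM _ hne.some_mem)
  set w := wt w₀ w₁ 1 with hw
  have hwinj : Function.Injective w := hpath 1 ⟨zero_le_one, le_rfl⟩
  set s₀ := 1 / (2 * (M + 1)) with hs₀
  have hs₀pos : 0 < s₀ := by positivity
  let s : ℕ → ℝ := fun m => s₀ * (1 / ((m : ℝ) + 1))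
  have hs : ∀ m, 0 < s m := fun m => by
    simp only [s]
    positivity
  have hsle : ∀ m, s m * M ≤ 1 / 2 := by
    intro m
    have h1 : s m ≤ s₀ := by
      simp only [s]
      have h2 : 1 / ((m : ℝ) + 1) ≤ 1 := by
        rw [div_le_one (by positivity)]
        linarith [(Nat.cast_nonneg m : (0 : ℝ) ≤ m)]
      nlinarith
    have h2 : s₀ * M ≤ 1 / 2 := by
      rw [hs₀, div_mul_eq_mul_div, div_le_iff₀ (by positivity)]
      nlinarith
    nlinarith [mul_le_mul_of_nonneg_right h1 hM0]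
  have hstend : Tendsto s atTop (𝓝 0) := by
    have := (tendsto_one_div_add_atTop_nhds_zero_nat (𝕜 := ℝ)).const_mul s₀
    simpa [s] using this
  obtain ⟨i₀, hi₀⟩ := Finite.exists_min n
  have hnm : 0 < n i₀ := hn0 i₀
  -- the heights
  have hex : ∀ m, ∃ c : I → ℝ, (∀ i, c i ∈ Icc 0 (heightBound R w n (n i₀))) ∧
      ∀ i, ∫ x in cell K w c i, rs (s m) g x = n i := by
    intro m
    have hnr : ∑ i, n i = ∫ x in K, rs (s m) g x := by rw [hnK, integral_rs hK hg hM hg0]
    exact exists_heights hK hR hne (rs_dens hg hM (hs m).le (hsle m)) hn0 hnr hwinj hnm hi₀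
  choose c hcb hc using hex
  have hboxc : IsCompact (Set.pi univ fun _ : I => Icc (0 : ℝ) (heightBound R w n (n i₀))) :=
    isCompact_univ_pi fun _ => isCompact_Icc
  obtain ⟨ĉ, _, φ, hφ, hlim⟩ := hboxc.tendsto_subseq (x := c) (fun m i _ => hcb m i)
  have hsφ : Tendsto (fun m => s (φ m)) atTop (𝓝 0) := hstend.comp hφ.tendsto_atTop
  have hJc := Jg_continuous hK hg hM w
  have hKc : Continuous (kant K n (fun _ => 1) w) := kant_continuous hK (dens_one K) hn0 w
  have hJlim : Tendsto (fun m => ∫ x in K, pw w (c (φ m)) x * g x) atTop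
      (𝓝 (∫ x in K, pw w ĉ x * g x)) := (hJc.tendsto ĉ).comp hlim
  have hKlim : Tendsto (fun m => kant K n (fun _ => 1) w (c (φ m))) atTop
      (𝓝 (kant K n (fun _ => 1) w ĉ)) := (hKc.tendsto ĉ).comp hlim
  -- the limit is a minimizer
  have hmin : ∀ b, kant K n (fun _ => 1) w ĉ ≤ kant K n (fun _ => 1) w b := by
    intro b
    have hl : Tendsto (fun m => kant K n (fun _ => 1) w (c (φ m)) +
        s (φ m) * ∫ x in K, pw w (c (φ m)) x * g x) atTop
        (𝓝 (kant K n (fun _ => 1) w ĉ + 0 * ∫ x in K, pw w ĉ x * g x)) :=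
      hKlim.add (hsφ.mul hJlim)
    have hr : Tendsto (fun m => kant K n (fun _ => 1) w b +
        s (φ m) * ∫ x in K, pw w b x * g x) atTop
        (𝓝 (kant K n (fun _ => 1) w b + 0 * ∫ x in K, pw w b x * g x)) :=
      tendsto_const_nhds.add (hsφ.mul tendsto_const_nhds)
    have hle := le_of_tendsto_of_tendsto' hl hr (fun m => by
      have h1 := min_of_mass hK (rs_dens hg hM (hs (φ m)).le (hsle (φ m))) hwinj (hc (φ m)) b
      rw [kant_rs hK hg hM, kant_rs hK hg hM] at h1
      exact h1)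
    simpa using hle
  -- comparison with the given heights
  have hmin₁ : ∀ b, kant K n (fun _ => 1) w a₁ ≤ kant K n (fun _ => 1) w b :=
    fun b => min_of_mass hK (dens_one K) hwinj ha₁ b
  obtain ⟨C, hC⟩ := pw_sub_eq_const hK hconv hi (dens_one K) hmin hmin₁
  have hJeq : ∫ x in K, pw w ĉ x * g x = ∫ x in K, pw w a₁ x * g x := by
    have e : ∫ x in K, pw w ĉ x * g x = ∫ x in K, (pw w a₁ x * g x + C * g x) := by
      refine setIntegral_congr_fun hK.isClosed.measurableSet fun x hx => ?_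
      have := hC x hx
      show pw w ĉ x * g x = pw w a₁ x * g x + C * g x
      rw [show pw w ĉ x = pw w a₁ x + C by linarith]
      ring
    rw [e, integral_add (pw_mul_int hK hg hM w a₁) ((g_integrableOn hK hg hM).const_mul C),
      integral_const_mul, hg0]
    simp
  rw [← hJeq]
  -- pass to the limit in the telescoping estimate
  have hfin := le_of_tendsto' (hJlim.sub_const (∫ x in K, pw (wt w₀ w₁ 0) a₀ x * g x))
    (fun m => telescoped hK hconv hne hR hpath hn0 hnK hg hM hg0 (hs (φ m)) (hsle (φ m)) ha₀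
      (hc (φ m)))
  exact hfin

end Main

end Vale.Agent.P074
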