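import Vale.Agent.P074.Estimate

/-!
# Rearrangements of small balls and the cyclical inequality at Lebesgue points
-/

open MeasureTheory Set Metric Filter Topology
open scoped ENNReal NNReal

namespace Vale.Agent.P074

variable {d : ℕ} {ι : Type*} [Fintype ι]

/-- The piecewise translation sending the ball around `a i` to the ball around `a (q i)`. -/
noncomputable def rearr (a : ι → E d) (q : Equiv.Perm ι) (ε : ℝ) (x : E d) : E d :=
  x + ∑ j, (closedBall (a j) ε).indicator (fun _ => a (q j) - a j) x

variable {a : ι → E d} {q : Equiv.Perm ι} {ε : ℝ}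

theorem rearr_of_mem (hd : Pairwise (Function.onFun Disjoint fun j => closedBall (a j) ε)) {i : ι}
    {x : E d} (hx : x ∈ closedBall (a i) ε) : rearr a q ε x = x + (a (q i) - a i) := by
  classical
  unfold rearr
  congr 1
  rw [Finset.sum_eq_single i]
  · rw [indicator_of_mem hx]
  · intro j _ hj
    rw [indicator_of_notMem]
    intro hxj
    exact Set.disjoint_left.mp (hd hj) hxj hx
  · simp

theorem rearr_of_not_mem {x : E d} (hx : ∀ j, x ∉ closedBall (a j) ε) : rearr a q ε x = x := by
  unfold rearr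
  rw [Finset.sum_eq_zero, add_zero]
  intro j _
  exact indicator_of_notMem (hx j) _

theorem measurable_rearr : Measurable (rearr a q ε) := by
  unfold rearr
  refine measurable_id.add ?_
  refine Finset.measurable_sum _ fun j _ => ?_
  exact measurable_const.indicator measurableSet_closedBall

theorem preimage_add_closedBall (p t : E d) (ε : ℝ) :
    (fun x => x + t) ⁻¹' closedBall (p + t) ε = closedBall p ε := by
  ext x
  simp [mem_closedBall, dist_eq_norm]

theorem setLIntegral_translate {g : E d → ℝ≥0∞} (hg : Measurable g) (p t : E d) (ε : ℝ) :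
    ∫⁻ x in closedBall p ε, g (x + t) = ∫⁻ y in closedBall (p + t) ε, g y := by
  rw [← (measurePreserving_add_right volume t).setLIntegral_comp_preimage
    measurableSet_closedBall hg, preimage_add_closedBall]

theorem setIntegral_translate (g : E d → ℝ) (p t : E d) (ε : ℝ) :
    ∫ x in closedBall p ε, g (x + t) = ∫ y in closedBall (p + t) ε, g y := by
  have := (measurePreserving_add_right (volume : Measure (E d)) t).setIntegral_preimage_emb
    (measurableEmbedding_addRight t) g (closedBall (p + t) ε)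
  rw [preimage_add_closedBall] at this
  exact this

theorem lintegral_rearr (hd : Pairwise (Function.onFun Disjoint fun j => closedBall (a j) ε))
    {g : E d → ℝ≥0∞} (hg : Measurable g) : ∫⁻ x, g (rearr a q ε x) = ∫⁻ x, g x := by
  set U := ⋃ i, closedBall (a i) ε with hUdef
  have hU : MeasurableSet U := MeasurableSet.iUnion fun i => measurableSet_closedBall
  rw [← lintegral_add_compl _ hU, ← lintegral_add_compl (fun x => g x) hU]
  congr 1
  · rw [lintegral_iUnion (fun i => measurableSet_closedBall) hd,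
      lintegral_iUnion (fun i => measurableSet_closedBall) hd, tsum_fintype, tsum_fintype]
    have hterm : ∀ i, ∫⁻ x in closedBall (a i) ε, g (rearr a q ε x) =
        ∫⁻ y in closedBall (a (q i)) ε, g y := by
      intro i
      rw [setLIntegral_congr_fun (g := fun x => g (x + (a (q i) - a i))) measurableSet_closedBall
        (fun x hx => by simp only; rw [rearr_of_mem hd hx])]
      rw [setLIntegral_translate hg, add_sub_cancel]
    simp only [hterm]
    exact Equiv.sum_comp q (fun i => ∫⁻ y in closedBall (a i) ε, g y)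
  · apply setLIntegral_congr_fun hU.compl
    intro x hx
    have hx' : ∀ j, x ∉ closedBall (a j) ε := by
      intro j hj
      exact hx (mem_iUnion.mpr ⟨j, hj⟩)
    simp only
    rw [rearr_of_not_mem hx']

theorem measurePreserving_rearr
    (hd : Pairwise (Function.onFun Disjoint fun j => closedBall (a j) ε)) :
    MeasurePreserving (rearr a q ε) (volume : Measure (E d)) volume :=
  ⟨measurable_rearr, Measure.ext_of_lintegral _ fun f hf => by
    rw [lintegral_map hf measurable_rearr]
    exact lintegral_rearr hd hf⟩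

theorem preimage_rearr {K : Set (E d)}
    (hd : Pairwise (Function.onFun Disjoint fun j => closedBall (a j) ε))
    (hsub : ∀ i, closedBall (a i) ε ⊆ K) : rearr a q ε ⁻¹' K = K := by
  ext x
  by_cases h : ∃ i, x ∈ closedBall (a i) ε
  · obtain ⟨i, hi⟩ := h
    have hxK : x ∈ K := hsub i hi
    simp only [mem_preimage, hxK, iff_true]
    rw [rearr_of_mem hd hi]
    apply hsub (q i)
    rw [mem_closedBall] at hi ⊢
    rw [dist_eq_norm] at hi ⊢
    have : x + (a (q i) - a i) - a (q i) = x - a i := by abel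
    rwa [this]
  · push Not at h
    rw [mem_preimage, rearr_of_not_mem h]

theorem map_rearr_unifOn {K : Set (E d)} (hK : MeasurableSet K)
    (hd : Pairwise (Function.onFun Disjoint fun j => closedBall (a j) ε))
    (hsub : ∀ i, closedBall (a i) ε ⊆ K) :
    (unifOn K).map (rearr a q ε) = unifOn K := by
  unfold unifOn
  rw [Measure.map_smul]
  have := (measurePreserving_rearr (q := q) hd).restrict_preimage hK
  rw [preimage_rearr hd hsub] at this
  rw [this.map_eq]

section Opt

variable {K : Set (E d)} {μ : Measure (E d)} {T : E d → E d} {R RK : ℝ}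

theorem integrable_unifOn_of_bound (hK : IsCompact K) (hpos : volume K ≠ 0) {F : E d → ℝ}
    (hF : Measurable F) {C : ℝ} (h : ∀ x ∈ K, |F x| ≤ C) : Integrable F (unifOn K) :=
  (integrableOn_of_ae_bound hK hF (ae_of_all _ h)).smul_measure (ENNReal.inv_ne_top.mpr hpos)

/-- Comparison with a measure preserving rearrangement. -/
theorem optimal_compare (hopt : IsOptimalMap K μ T) (hb : ∀ x, ‖T x‖ ≤ R) (hK : IsCompact K)
    (hpos : volume K ≠ 0) (hRK : ∀ x ∈ K, ‖x‖ ≤ RK) {σ : E d → E d} (hσ : Measurable σ)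
    (hmap : (unifOn K).map σ = unifOn K) :
    ∫ x in K, inner ℝ x (T (σ x)) ≤ ∫ x in K, inner ℝ x (T x) := by
  have hT := hopt.measurable
  have hT' : Measurable fun x => T (σ x) := hT.comp hσ
  have hmap' : (unifOn K).map (fun x => T (σ x)) = μ := by
    have := Measure.map_map (μ := unifOn K) hT hσ
    rw [hmap] at this
    rw [← hopt.map_eq]
    exact this.symm
  have hle := hopt.le_of_map_eq _ hT' hmap'
  have hRK0 : ∀ x ∈ K, ‖x‖ * R ≤ RK * R := fun x hx =>
    mul_le_mul_of_nonneg_right (hRK x hx) ((norm_nonneg _).trans (hb 0))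
  have hR0 : 0 ≤ R := (norm_nonneg _).trans (hb 0)
  -- integrability
  have hinner : ∀ {G : E d → E d}, Measurable G → (∀ x, ‖G x‖ ≤ R) →
      Integrable (fun x => inner ℝ x (G x)) (unifOn K) := by
    intro G hG hGb
    refine integrable_unifOn_of_bound hK hpos (C := RK * R) (measurable_id.inner hG) ?_
    intro x hx
    refine (abs_real_inner_le_norm _ _).trans ((mul_le_mul_of_nonneg_left (hGb x)
      (norm_nonneg _)).trans (hRK0 x hx))
  have hnsq : ∀ {G : E d → E d}, Measurable G → (∀ x, ‖G x‖ ≤ R) →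
      Integrable (fun x => ‖G x‖ ^ 2) (unifOn K) := by
    intro G hG hGb
    refine integrable_unifOn_of_bound hK hpos (C := R ^ 2) (hG.norm.pow_const 2) ?_
    intro x _
    rw [abs_of_nonneg (by positivity)]
    exact pow_le_pow_left₀ (norm_nonneg _) (hGb x) 2
  have hxsq : Integrable (fun x : E d => ‖x‖ ^ 2) (unifOn K) := by
    refine integrable_unifOn_of_bound hK hpos (C := RK ^ 2) (measurable_id.norm.pow_const 2) ?_
    intro x hx
    rw [abs_of_nonneg (by positivity)]
    exact pow_le_pow_left₀ (norm_nonneg _) (hRK x hx) 2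
  have hexp : ∀ {G : E d → E d}, Measurable G → (∀ x, ‖G x‖ ≤ R) →
      ∫⁻ x, ‖x - G x‖ₑ ^ (2 : ℕ) ∂(unifOn K) =
      ENNReal.ofReal ((∫ x, ‖x‖ ^ 2 ∂(unifOn K)) - 2 * (∫ x, inner ℝ x (G x) ∂(unifOn K)) +
        ∫ x, ‖G x‖ ^ 2 ∂(unifOn K)) := by
    intro G hG hGb
    have i1 : Integrable (fun x => 2 * inner ℝ x (G x)) (unifOn K) := (hinner hG hGb).const_mul 2
    have i2 : Integrable (fun x => ‖x‖ ^ 2 - 2 * inner ℝ x (G x)) (unifOn K) := hxsq.sub i1
    have i3 : Integrable (fun x => ‖x‖ ^ 2 - 2 * inner ℝ x (G x) + ‖G x‖ ^ 2) (unifOn K) :=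
      i2.add (hnsq hG hGb)
    have e1 : ∀ x, ‖x - G x‖ ^ 2 = ‖x‖ ^ 2 - 2 * inner ℝ x (G x) + ‖G x‖ ^ 2 := fun x =>
      norm_sub_sq_real x (G x)
    have e2 : ∫ x, (‖x‖ ^ 2 - 2 * inner ℝ x (G x) + ‖G x‖ ^ 2) ∂(unifOn K) =
        (∫ x, ‖x‖ ^ 2 ∂(unifOn K)) - 2 * (∫ x, inner ℝ x (G x) ∂(unifOn K)) +
        ∫ x, ‖G x‖ ^ 2 ∂(unifOn K) := by
      have a1 := integral_add (μ := unifOn K) i2 (hnsq hG hGb)
      have a2 := integral_sub (μ := unifOn K) hxsq i1
      have a3 := integral_const_mul (μ := unifOn K) 2 (fun x => inner ℝ x (G x))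
      rw [a1, a2, a3]
    rw [← e2, ofReal_integral_eq_lintegral_ofReal i3
      (Filter.Eventually.of_forall fun x => by
        show 0 ≤ ‖x‖ ^ 2 - 2 * inner ℝ x (G x) + ‖G x‖ ^ 2
        rw [← e1]; positivity)]
    refine lintegral_congr fun x => ?_
    rw [enorm_sq_eq, e1]
  rw [hexp hT hb, hexp hT' (fun x => hb _)] at hle
  -- the squares of the norms agree
  have hsq : ∫ x, ‖T (σ x)‖ ^ 2 ∂(unifOn K) = ∫ x, ‖T x‖ ^ 2 ∂(unifOn K) := by
    have := integral_map (μ := unifOn K) hσ.aemeasurable
      (f := fun y => ‖T y‖ ^ 2) (hT.norm.pow_const 2).aestronglyMeasurable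
    rw [hmap] at this
    exact this.symm
  rw [hsq] at hle
  have hRHS : 0 ≤ (∫ x, ‖x‖ ^ 2 ∂(unifOn K)) - 2 * (∫ x, inner ℝ x (T (σ x)) ∂(unifOn K)) +
      ∫ x, ‖T x‖ ^ 2 ∂(unifOn K) := by
    have : 0 ≤ ∫ x, ‖x - T (σ x)‖ ^ 2 ∂(unifOn K) := integral_nonneg fun x => by positivity
    have e1 : ∀ x, ‖x - T (σ x)‖ ^ 2 = ‖x‖ ^ 2 - 2 * inner ℝ x (T (σ x)) + ‖T (σ x)‖ ^ 2 :=
      fun x => norm_sub_sq_real x _
    simp only [e1] at this
    have i1 : Integrable (fun x => 2 * inner ℝ x (T (σ x))) (unifOn K) :=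
      (hinner hT' fun x => hb _).const_mul 2
    have i2 : Integrable (fun x => ‖x‖ ^ 2 - 2 * inner ℝ x (T (σ x))) (unifOn K) := hxsq.sub i1
    have a1 := integral_add (μ := unifOn K) i2 (hnsq hT' fun x => hb _)
    have a2 := integral_sub (μ := unifOn K) hxsq i1
    have a3 := integral_const_mul (μ := unifOn K) 2 (fun x => inner ℝ x (T (σ x)))
    rw [a1, a2, a3, hsq] at this
    exact this
  have hle' := (ENNReal.ofReal_le_ofReal_iff hRHS).mp hle
  have hcmp : ∫ x, inner ℝ x (T (σ x)) ∂(unifOn K) ≤ ∫ x, inner ℝ x (T x) ∂(unifOn K) := by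
    linarith
  have hVpos : 0 < (volume K).toReal := ENNReal.toReal_pos hpos hK.measure_lt_top.ne
  have hsm : ∀ f : E d → ℝ, ∫ x, f x ∂(unifOn K) = (volume K).toReal⁻¹ * ∫ x in K, f x := by
    intro f
    rw [unifOn, integral_smul_measure, ENNReal.toReal_inv, smul_eq_mul]
  rw [hsm, hsm] at hcmp
  exact le_of_mul_le_mul_left hcmp (inv_pos.mpr hVpos)

/-- The integral over a small ball, with the moving point replaced by the center plus a vector. -/
noncomputable def ballInt (T : E d → E d) (p v : E d) (ε : ℝ) : ℝ :=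
  ∫ y in closedBall p ε, inner ℝ (v + (y - p)) (T y)

theorem sum_ball_le (hopt : IsOptimalMap K μ T) (hb : ∀ x, ‖T x‖ ≤ R) (hK : IsCompact K)
    (hpos : volume K ≠ 0) (hRK : ∀ x ∈ K, ‖x‖ ≤ RK)
    (hd : Pairwise (Function.onFun Disjoint fun j => closedBall (a j) ε))
    (hsub : ∀ i, closedBall (a i) ε ⊆ K) :
    ∑ i, (ballInt T (a (q i)) (a i) ε - ballInt T (a i) (a i) ε) ≤ 0 := by
  have hKm := hK.isClosed.measurableSet
  have hT := hopt.measurable
  have hσ : Measurable (rearr a q ε) := measurable_rearr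
  have hcmp := optimal_compare hopt hb hK hpos hRK hσ (map_rearr_unifOn hKm hd hsub)
  have hR0 : 0 ≤ R := (norm_nonneg _).trans (hb 0)
  have hRK0 : ∀ x ∈ K, ‖x‖ * R ≤ RK * R := fun x hx =>
    mul_le_mul_of_nonneg_right (hRK x hx) hR0
  have hinner : ∀ {G : E d → E d}, Measurable G → (∀ x, ‖G x‖ ≤ R) →
      IntegrableOn (fun x => inner ℝ x (G x)) K volume := by
    intro G hG hGb
    refine integrableOn_of_ae_bound hK (measurable_id.inner hG) (C := RK * R) (ae_of_all _ ?_)
    intro x hx
    refine (abs_real_inner_le_norm _ _).trans ((mul_le_mul_of_nonneg_left (hGb x)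
      (norm_nonneg _)).trans (hRK0 x hx))
  have i1 := hinner (hT.comp hσ) (fun x => hb _)
  have i2 := hinner hT hb
  set F : E d → ℝ := fun x => inner ℝ x (T (rearr a q ε x)) - inner ℝ x (T x) with hF
  have iF : IntegrableOn F K volume := i1.sub i2
  have hFle : ∫ x in K, F x ≤ 0 := by
    have := integral_sub (μ := volume.restrict K) i1 i2
    simp only [Function.comp] at this
    rw [hF, this]
    linarith
  set U := ⋃ i, closedBall (a i) ε with hUdef
  have hU : MeasurableSet U := MeasurableSet.iUnion fun i => measurableSet_closedBall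
  have hUK : U ⊆ K := iUnion_subset hsub
  have hFU : ∫ x in K \ U, F x = 0 := by
    apply setIntegral_eq_zero_of_forall_eq_zero
    intro x hx
    have hx' : ∀ j, x ∉ closedBall (a j) ε := by
      intro j hj
      exact hx.2 (mem_iUnion.mpr ⟨j, hj⟩)
    simp only [hF]
    rw [rearr_of_not_mem hx', sub_self]
  have e1 := setIntegral_sdiff hU iF hUK
  have e2 : ∫ x in U, F x = ∑ i, ∫ x in closedBall (a i) ε, F x :=
    integral_iUnion_fintype (fun i => measurableSet_closedBall) hd
      (fun i => iF.mono_set (hsub i))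
  have e3 : ∀ i, ∫ x in closedBall (a i) ε, F x =
      ballInt T (a (q i)) (a i) ε - ballInt T (a i) (a i) ε := by
    intro i
    have hBsub := hsub i
    have j1 : IntegrableOn (fun x => inner ℝ x (T (rearr a q ε x))) (closedBall (a i) ε) volume :=
      i1.mono_set hBsub
    have j2 : IntegrableOn (fun x => inner ℝ x (T x)) (closedBall (a i) ε) volume :=
      i2.mono_set hBsub
    have e4 := integral_sub (μ := volume.restrict (closedBall (a i) ε)) j1 j2
    simp only [hF]
    rw [e4]
    congr 1
    · -- the change of variables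
      have e5 : ∫ x in closedBall (a i) ε, inner ℝ x (T (rearr a q ε x)) =
          ∫ x in closedBall (a i) ε, inner ℝ x (T (x + (a (q i) - a i))) := by
        apply setIntegral_congr_fun measurableSet_closedBall
        intro x hx
        simp only
        rw [rearr_of_mem hd hx]
      rw [e5]
      have e6 := setIntegral_translate (fun y => inner ℝ (a i + (y - a (q i))) (T y)) (a i)
        (a (q i) - a i) ε
      rw [add_sub_cancel] at e6
      unfold ballInt
      rw [← e6]
      apply setIntegral_congr_fun measurableSet_closedBall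
      intro x _
      simp only
      congr 1
      abel
    · unfold ballInt
      apply setIntegral_congr_fun measurableSet_closedBall
      intro x _
      simp only
      congr 1
      abel
  simp only [e3] at e2
  rw [← e2]
  linarith

end Opt

/-- `p` is a Lebesgue point of `T` for closed balls. -/
def IsLeb (T : E d → E d) (p : E d) : Prop :=
  Tendsto (fun ε => ⨍ y in closedBall p ε, T y) (𝓝[>] 0) (𝓝 (T p))

theorem ae_isLeb {T : E d → E d} (hT : Measurable T) {R : ℝ} (hb : ∀ x, ‖T x‖ ≤ R) :
    ∀ᵐ x ∂(volume : Measure (E d)), IsLeb T x := by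
  have hloc : LocallyIntegrable T (volume : Measure (E d)) := by
    refine (locallyIntegrable_const (R)).mono hT.aestronglyMeasurable ?_
    refine ae_of_all _ fun x => (hb x).trans ?_
    rw [Real.norm_eq_abs]
    exact le_abs_self _
  filter_upwards [IsUnifLocDoublingMeasure.ae_tendsto_average (volume : Measure (E d)) hloc 1] with x hx
  refine hx (fun _ => x) id tendsto_id ?_
  filter_upwards [self_mem_nhdsWithin] with ε hε
  exact mem_closedBall_self (by simpa using (le_of_lt hε))

theorem tendsto_ballInt {T : E d → E d} (hT : Measurable T) {R : ℝ} (hb : ∀ x, ‖T x‖ ≤ R)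
    {p : E d} (hp : IsLeb T p) (v : E d) :
    Tendsto (fun ε => ballInt T p v ε / (volume (closedBall (0 : E d) ε)).toReal) (𝓝[>] 0)
      (𝓝 (inner ℝ v (T p))) := by
  have hR0 : 0 ≤ R := (norm_nonneg _).trans (hb 0)
  have h1 : Tendsto (fun ε => inner ℝ v (⨍ y in closedBall p ε, T y)) (𝓝[>] (0 : ℝ))
      (𝓝 (inner ℝ v (T p))) :=
    (tendsto_const_nhds).inner hp
  have h2 : Tendsto (fun ε => (∫ y in closedBall p ε, inner ℝ (y - p) (T y)) /
      (volume (closedBall (0 : E d) ε)).toReal) (𝓝[>] (0 : ℝ)) (𝓝 0) := by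
    have h3 : Tendsto (fun ε : ℝ => ε * R) (𝓝[>] (0 : ℝ)) (𝓝 0) := by
      have : Tendsto (fun ε : ℝ => ε * R) (𝓝 (0 : ℝ)) (𝓝 (0 * R)) :=
        tendsto_id.mul tendsto_const_nhds
      rw [zero_mul] at this
      exact this.mono_left nhdsWithin_le_nhds
    refine squeeze_zero_norm' ?_ h3
    filter_upwards [self_mem_nhdsWithin] with ε hε
    have hε' : (0 : ℝ) < ε := hε
    have hvpos : 0 < (volume (closedBall (0 : E d) ε)).toReal :=
      ENNReal.toReal_pos (measure_closedBall_pos volume _ hε').ne' measure_closedBall_lt_top.ne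
    have hvol : (volume (closedBall p ε)).toReal = (volume (closedBall (0 : E d) ε)).toReal := by
      rw [Measure.addHaar_closedBall_center]
    rw [norm_div, Real.norm_of_nonneg hvpos.le, div_le_iff₀ hvpos]
    have := norm_setIntegral_le_of_norm_le_const (μ := volume) (s := closedBall p ε)
      (f := fun y => inner ℝ (y - p) (T y)) (C := ε * R) measure_closedBall_lt_top (by
        intro y hy
        have hy' : ‖y - p‖ ≤ ε := by
          rw [← dist_eq_norm]
          exact hy
        calc ‖inner ℝ (y - p) (T y)‖ ≤ ‖y - p‖ * ‖T y‖ := norm_inner_le_norm _ _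
          _ ≤ ε * R := mul_le_mul hy' (hb y) (norm_nonneg _) hε'.le)
    simpa [Measure.real, hvol] using this
  have h4 := h1.add h2
  rw [add_zero] at h4
  refine h4.congr' ?_
  filter_upwards [self_mem_nhdsWithin] with ε hε
  have hε' : (0 : ℝ) < ε := hε
  have hvpos : 0 < (volume (closedBall (0 : E d) ε)).toReal :=
    ENNReal.toReal_pos (measure_closedBall_pos volume _ hε').ne' measure_closedBall_lt_top.ne
  have hvol : volume.real (closedBall p ε) = (volume (closedBall (0 : E d) ε)).toReal := by
    rw [Measure.real, Measure.addHaar_closedBall_center]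
  have hTint : IntegrableOn T (closedBall p ε) volume :=
    Measure.integrableOn_of_bounded measure_closedBall_lt_top.ne hT.aestronglyMeasurable
      (M := R) (ae_of_all _ hb)
  have hin2 : IntegrableOn (fun y => inner ℝ (y - p) (T y)) (closedBall p ε) volume := by
    refine Measure.integrableOn_of_bounded measure_closedBall_lt_top.ne
      ((measurable_id.sub_const p).inner hT).aestronglyMeasurable (M := ε * R) ?_
    rw [ae_restrict_iff' measurableSet_closedBall]
    refine ae_of_all _ fun y hy => ?_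
    have hy' : ‖y - p‖ ≤ ε := by
      rw [← dist_eq_norm]
      exact hy
    calc ‖inner ℝ (y - p) (T y)‖ ≤ ‖y - p‖ * ‖T y‖ := norm_inner_le_norm _ _
      _ ≤ ε * R := mul_le_mul hy' (hb y) (norm_nonneg _) hε'.le
  have hin1 : IntegrableOn (fun y => inner ℝ v (T y)) (closedBall p ε) volume :=
    hTint.const_inner v
  show inner ℝ v (⨍ y in closedBall p ε, T y) + _ = _
  unfold ballInt
  have e1 : ∫ y in closedBall p ε, inner ℝ (v + (y - p)) (T y) =
      (∫ y in closedBall p ε, inner ℝ v (T y)) + ∫ y in closedBall p ε, inner ℝ (y - p) (T y) := by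
    rw [← integral_add hin1 hin2]
    refine setIntegral_congr_fun measurableSet_closedBall fun y _ => ?_
    exact inner_add_left _ _ _
  rw [e1, setAverage_eq, inner_smul_right, integral_inner hTint, hvol, add_div]
  congr 1
  rw [div_eq_inv_mul]

section Main

variable {K : Set (E d)} {μ : Measure (E d)} {T : E d → E d} {R RK : ℝ}

theorem eventually_balls (ha : Function.Injective a) (haK : ∀ i, a i ∈ interior K) :
    ∀ᶠ ε in 𝓝[>] (0 : ℝ), Pairwise (Function.onFun Disjoint fun j => closedBall (a j) ε) ∧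
      ∀ i, closedBall (a i) ε ⊆ K := by
  have h1 : ∀ᶠ ε in 𝓝[>] (0 : ℝ), ∀ i, closedBall (a i) ε ⊆ K := by
    rw [eventually_all]
    intro i
    obtain ⟨ε₀, hε₀, hsub⟩ :=
      Metric.nhds_basis_closedBall.mem_iff.mp (mem_interior_iff_mem_nhds.mp (haK i))
    filter_upwards [Ioo_mem_nhdsGT hε₀] with ε hε
    exact (closedBall_subset_closedBall hε.2.le).trans hsub
  have h2 : ∀ᶠ ε in 𝓝[>] (0 : ℝ), ∀ i j, i ≠ j →
      Disjoint (closedBall (a i) ε) (closedBall (a j) ε) := by
    rw [eventually_all]
    intro i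
    rw [eventually_all]
    intro j
    by_cases hij : i = j
    · exact Eventually.of_forall fun ε h => absurd hij h
    · have hpos : 0 < dist (a i) (a j) := dist_pos.mpr (fun h => hij (ha h))
      filter_upwards [Ioo_mem_nhdsGT (half_pos hpos)] with ε hε _
      apply closedBall_disjoint_closedBall
      linarith [hε.2]
  filter_upwards [h1, h2] with ε h3 h4
  exact ⟨fun i j hij => h4 i j hij, h3⟩

/-- The cyclical inequality at Lebesgue points in the interior. -/
theorem cyc_ineq (hopt : IsOptimalMap K μ T) (hb : ∀ x, ‖T x‖ ≤ R) (hK : IsCompact K)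
    (hpos : volume K ≠ 0) (hRK : ∀ x ∈ K, ‖x‖ ≤ RK) (ha : Function.Injective a)
    (haK : ∀ i, a i ∈ interior K) (hleb : ∀ i, IsLeb T (a i)) (q : Equiv.Perm ι) :
    ∑ i, inner ℝ (a i) (T (a (q i))) ≤ ∑ i, inner ℝ (a i) (T (a i)) := by
  have hT := hopt.measurable
  have hlim : Tendsto (fun ε => ∑ i, (ballInt T (a (q i)) (a i) ε /
        (volume (closedBall (0 : E d) ε)).toReal -
        ballInt T (a i) (a i) ε / (volume (closedBall (0 : E d) ε)).toReal)) (𝓝[>] 0)
      (𝓝 (∑ i, (inner ℝ (a i) (T (a (q i))) - inner ℝ (a i) (T (a i))))) := by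
    refine tendsto_finsetSum _ fun i _ => ?_
    exact (tendsto_ballInt hT hb (hleb (q i)) (a i)).sub (tendsto_ballInt hT hb (hleb i) (a i))
  have hev : ∀ᶠ ε in 𝓝[>] (0 : ℝ), ∑ i, (ballInt T (a (q i)) (a i) ε /
        (volume (closedBall (0 : E d) ε)).toReal -
        ballInt T (a i) (a i) ε / (volume (closedBall (0 : E d) ε)).toReal) ≤ 0 := by
    filter_upwards [eventually_balls ha haK, self_mem_nhdsWithin] with ε hε hε0
    have hε' : (0 : ℝ) < ε := hε0
    have hvpos : 0 < (volume (closedBall (0 : E d) ε)).toReal :=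
      ENNReal.toReal_pos (measure_closedBall_pos volume _ hε').ne' measure_closedBall_lt_top.ne
    have := sum_ball_le (q := q) hopt hb hK hpos hRK hε.1 hε.2
    simp only [← sub_div]
    rw [← Finset.sum_div]
    exact div_nonpos_of_nonpos_of_nonneg this hvpos.le
  have := le_of_tendsto hlim hev
  rw [Finset.sum_sub_distrib] at this
  linarith

end Main

end Vale.Agent.P074
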