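import Vale.Agent.P074.Semi

/-!
# Simultaneous refinement of two measures into matched boxes
-/

open MeasureTheory Set Metric Filter Topology
open scoped ENNReal NNReal

set_option linter.unusedSectionVars false
set_option linter.unusedSimpArgs false
set_option linter.unusedVariables false

namespace Vale.Agent.P074

variable {d : ℕ}

/-- A coordinate box given by its lower and upper corners. -/
structure Bx (d : ℕ) where
  l : Fin d → ℝ
  u : Fin d → ℝ

namespace Bx

/-- The set of points of a box. -/
def toSet (b : Bx d) : Set (E d) := {x | ∀ j, x j ∈ Icc (b.l j) (b.u j)}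

/-- The corners are ordered. -/
def le (b : Bx d) : Prop := ∀ j, b.l j ≤ b.u j

/-- The part of a box below `t` in coordinate `j`. -/
def lo (b : Bx d) (j : Fin d) (t : ℝ) : Bx d := ⟨b.l, Function.update b.u j t⟩

/-- The part of a box above `t` in coordinate `j`. -/
def hi (b : Bx d) (j : Fin d) (t : ℝ) : Bx d := ⟨Function.update b.l j t, b.u⟩

theorem measurableSet_toSet (b : Bx d) : MeasurableSet b.toSet := measurableSet_box _ _

theorem mem_lo_iff (b : Bx d) {j : Fin d} {t : ℝ} {x : E d} (ht : t ≤ b.u j) :
    x ∈ (b.lo j t).toSet ↔ x ∈ b.toSet ∧ x j ≤ t := by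
  constructor
  · intro h
    have hj := h j
    simp only [lo, Function.update_self] at hj
    refine ⟨fun i => ?_, hj.2⟩
    by_cases hi : i = j
    · subst hi
      exact ⟨hj.1, hj.2.trans ht⟩
    · have := h i
      simpa [lo, Function.update_of_ne hi] using this
  · rintro ⟨h1, h2⟩ i
    by_cases hi : i = j
    · subst hi
      simp only [lo, Function.update_self]
      exact ⟨(h1 i).1, h2⟩
    · simpa [lo, Function.update_of_ne hi] using h1 i

theorem mem_hi_iff (b : Bx d) {j : Fin d} {t : ℝ} {x : E d} (ht : b.l j ≤ t) :
    x ∈ (b.hi j t).toSet ↔ x ∈ b.toSet ∧ t ≤ x j := by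
  constructor
  · intro h
    have hj := h j
    simp only [hi, Function.update_self] at hj
    refine ⟨fun i => ?_, hj.1⟩
    by_cases hi : i = j
    · subst hi
      exact ⟨ht.trans hj.1, hj.2⟩
    · have := h i
      simpa [Bx.hi, Function.update_of_ne hi] using this
  · rintro ⟨h1, h2⟩ i
    by_cases hi : i = j
    · subst hi
      simp only [Bx.hi, Function.update_self]
      exact ⟨h2, (h1 i).2⟩
    · simpa [Bx.hi, Function.update_of_ne hi] using h1 i

theorem union_lo_hi (b : Bx d) {j : Fin d} {t : ℝ} (htl : b.l j ≤ t) (htu : t ≤ b.u j) :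
    (b.lo j t).toSet ∪ (b.hi j t).toSet = b.toSet := by
  ext x
  simp only [mem_union, b.mem_lo_iff htu, b.mem_hi_iff htl]
  constructor
  · rintro (h | h) <;> exact h.1
  · intro h
    rcases le_total (x j) t with h1 | h1
    · exact Or.inl ⟨h, h1⟩
    · exact Or.inr ⟨h, h1⟩

theorem lo_le {b : Bx d} (hb : b.le) {j : Fin d} {t : ℝ} (htl : b.l j ≤ t) : (b.lo j t).le := by
  intro i
  by_cases hi : i = j
  · subst hi
    simpa [lo] using htl
  · simpa [lo, Function.update_of_ne hi] using hb i

theorem hi_le {b : Bx d} (hb : b.le) {j : Fin d} {t : ℝ} (htu : t ≤ b.u j) : (b.hi j t).le := by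
  intro i
  by_cases hi : i = j
  · subst hi
    simpa [Bx.hi] using htu
  · simpa [Bx.hi, Function.update_of_ne hi] using hb i

end Bx

/-- The hyperplanes of coordinate type are null. -/
def NoPlane (ν : Measure (E d)) : Prop := ∀ (j : Fin d) (t : ℝ), ν {x | x j = t} = 0

theorem split_integral {ν : Measure (E d)} (hν : NoPlane ν) (b : Bx d) {j : Fin d} {t : ℝ}
    (htl : b.l j ≤ t) (htu : t ≤ b.u j) {f : E d → ℝ} (hf : Integrable f ν) :
    ∫ x in b.toSet, f x ∂ν = (∫ x in (b.lo j t).toSet, f x ∂ν) + ∫ x in (b.hi j t).toSet, f x ∂ν := by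
  have hd : AEDisjoint ν (b.lo j t).toSet (b.hi j t).toSet := by
    refine measure_mono_null ?_ (hν j t)
    rintro x ⟨h1, h2⟩
    have h3 := ((b.mem_lo_iff htu).mp h1).2
    have h4 := ((b.mem_hi_iff htl).mp h2).2
    exact le_antisymm h3 h4
  conv_lhs => rw [← b.union_lo_hi htl htu]
  exact setIntegral_union₀ hd (b.hi j t).measurableSet_toSet.nullMeasurableSet
    hf.integrableOn hf.integrableOn

theorem real_eq_integral_one (ν : Measure (E d)) (s : Set (E d)) :
    ν.real s = ∫ x in s, (1 : ℝ) ∂ν := by
  simp [Measure.real]

/-- Two pieces are separated in some coordinate, in both boxes. -/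
def Sep (p q : Bx d × Bx d) : Prop :=
  ∃ (j : Fin d) (t t' : ℝ), p.1.u j ≤ t ∧ t ≤ q.1.l j ∧ p.2.u j ≤ t' ∧ t' ≤ q.2.l j

/-- The properties of a refinement. -/
structure RefData (ν₁ ν₂ : Measure (E d)) (h : ℝ) (A B : Bx d) (ι : Type) [Fintype ι]
    (P : ι → Bx d × Bx d) : Prop where
  le₁ : ∀ k, (P k).1.le
  le₂ : ∀ k, (P k).2.le
  width₁ : ∀ k j, (P k).1.u j - (P k).1.l j ≤ h
  width₂ : ∀ k j, (P k).2.u j - (P k).2.l j ≤ h
  mass : ∀ k, ν₁.real (P k).1.toSet = ν₂.real (P k).2.toSet
  sum₁ : ∀ f : E d → ℝ, Integrable f ν₁ →
    ∑ k, ∫ x in (P k).1.toSet, f x ∂ν₁ = ∫ x in A.toSet, f x ∂ν₁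
  sum₂ : ∀ f : E d → ℝ, Integrable f ν₂ →
    ∑ k, ∫ x in (P k).2.toSet, f x ∂ν₂ = ∫ x in B.toSet, f x ∂ν₂
  sep : ∀ k k', k ≠ k' → Sep (P k) (P k') ∨ Sep (P k') (P k)
  inA_l : ∀ k j, A.l j ≤ (P k).1.l j
  inA_u : ∀ k j, (P k).1.u j ≤ A.u j
  inB_l : ∀ k j, B.l j ≤ (P k).2.l j
  inB_u : ∀ k j, (P k).2.u j ≤ B.u j

/-- The existence of a refinement. -/
def Refinable (ν₁ ν₂ : Measure (E d)) (h : ℝ) (A B : Bx d) : Prop :=
  ∃ (ι : Type) (_ : Fintype ι) (P : ι → Bx d × Bx d), RefData ν₁ ν₂ h A B ι P

theorem Refinable.base {ν₁ ν₂ : Measure (E d)} {h : ℝ} {A B : Bx d} (hA : A.le) (hB : B.le)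
    (wA : ∀ j, A.u j - A.l j ≤ h) (wB : ∀ j, B.u j - B.l j ≤ h)
    (hm : ν₁.real A.toSet = ν₂.real B.toSet) : Refinable ν₁ ν₂ h A B := by
  refine ⟨Unit, inferInstance, fun _ => (A, B), ?_⟩
  constructor
  · exact fun _ => hA
  · exact fun _ => hB
  · exact fun _ => wA
  · exact fun _ => wB
  · exact fun _ => hm
  · intro f _; simp
  · intro f _; simp
  · intro k k' hk; exact absurd (Subsingleton.elim k k') hk
  · exact fun _ _ => le_rfl
  · exact fun _ _ => le_rfl
  · exact fun _ _ => le_rfl
  · exact fun _ _ => le_rfl

theorem Refinable.combine {ν₁ ν₂ : Measure (E d)} (h₁ : NoPlane ν₁) (h₂ : NoPlane ν₂) {h : ℝ}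
    {A B : Bx d} {j : Fin d} {t t' : ℝ} (htl : A.l j ≤ t) (htu : t ≤ A.u j)
    (htl' : B.l j ≤ t') (htu' : t' ≤ B.u j)
    (hlo : Refinable ν₁ ν₂ h (A.lo j t) (B.lo j t'))
    (hhi : Refinable ν₁ ν₂ h (A.hi j t) (B.hi j t')) : Refinable ν₁ ν₂ h A B := by
  obtain ⟨ι₁, _, P₁, d₁⟩ := hlo
  obtain ⟨ι₂, _, P₂, d₂⟩ := hhi
  refine ⟨ι₁ ⊕ ι₂, inferInstance, Sum.elim P₁ P₂, ?_⟩
  have up1 : ∀ k, (P₁ k).1.u j ≤ t := fun k => by
    have := d₁.inA_u k j
    simpa [Bx.lo] using this
  have up2 : ∀ k, (P₁ k).2.u j ≤ t' := fun k => by
    have := d₁.inB_u k j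
    simpa [Bx.lo] using this
  have lw1 : ∀ k, t ≤ (P₂ k).1.l j := fun k => by
    have := d₂.inA_l k j
    simpa [Bx.hi] using this
  have lw2 : ∀ k, t' ≤ (P₂ k).2.l j := fun k => by
    have := d₂.inB_l k j
    simpa [Bx.hi] using this
  constructor
  · rintro (k | k)
    · exact d₁.le₁ k
    · exact d₂.le₁ k
  · rintro (k | k)
    · exact d₁.le₂ k
    · exact d₂.le₂ k
  · rintro (k | k)
    · exact d₁.width₁ k
    · exact d₂.width₁ k
  · rintro (k | k)
    · exact d₁.width₂ k
    · exact d₂.width₂ k
  · rintro (k | k)
    · exact d₁.mass k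
    · exact d₂.mass k
  · intro f hf
    rw [Fintype.sum_sum_type, split_integral h₁ A htl htu hf]
    simp only [Sum.elim_inl, Sum.elim_inr]
    rw [d₁.sum₁ f hf, d₂.sum₁ f hf]
  · intro f hf
    rw [Fintype.sum_sum_type, split_integral h₂ B htl' htu' hf]
    simp only [Sum.elim_inl, Sum.elim_inr]
    rw [d₁.sum₂ f hf, d₂.sum₂ f hf]
  · rintro (k | k) (k' | k') hk
    · exact d₁.sep k k' (fun e => hk (by rw [e]))
    · exact Or.inl ⟨j, t, t', up1 k, lw1 k', up2 k, lw2 k'⟩
    · exact Or.inr ⟨j, t, t', up1 k', lw1 k, up2 k', lw2 k⟩
    · exact d₂.sep k k' (fun e => hk (by rw [e]))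
  · rintro (k | k) i
    · exact d₁.inA_l k i
    · have := d₂.inA_l k i
      by_cases hi : i = j
      · subst hi
        simp only [Bx.hi, Function.update_self] at this
        exact htl.trans this
      · simpa [Bx.hi, Function.update_of_ne hi] using this
  · rintro (k | k) i
    · have := d₁.inA_u k i
      by_cases hi : i = j
      · subst hi
        simp only [Bx.lo, Function.update_self] at this
        exact this.trans htu
      · simpa [Bx.lo, Function.update_of_ne hi] using this
    · exact d₂.inA_u k i
  · rintro (k | k) i
    · exact d₁.inB_l k i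
    · have := d₂.inB_l k i
      by_cases hi : i = j
      · subst hi
        simp only [Bx.hi, Function.update_self] at this
        exact htl'.trans this
      · simpa [Bx.hi, Function.update_of_ne hi] using this
  · rintro (k | k) i
    · have := d₁.inB_u k i
      by_cases hi : i = j
      · subst hi
        simp only [Bx.lo, Function.update_self] at this
        exact this.trans htu'
      · simpa [Bx.lo, Function.update_of_ne hi] using this
    · exact d₂.inB_u k i

/-- The mass below a level is continuous in the level. -/
theorem continuous_mass {ν : Measure (E d)} [IsFiniteMeasure ν] (hν : NoPlane ν) (b : Bx d)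
    (j : Fin d) : Continuous fun t : ℝ => ∫ x in b.toSet, ({x : E d | x j ≤ t}).indicator (1 : E d → ℝ) x ∂ν := by
  rw [continuous_iff_continuousAt]
  intro t₀
  refine continuousAt_of_dominated (bound := fun _ => (1 : ℝ)) ?_ ?_ (integrable_const _) ?_
  · refine Eventually.of_forall fun t => ?_
    refine Measurable.aestronglyMeasurable ?_
    exact measurable_one.indicator (measurableSet_le (measurable_coord j) measurable_const)
  · refine Eventually.of_forall fun t => Eventually.of_forall fun x => ?_
    by_cases hx : x j ≤ t
    · rw [indicator_of_mem (by exact hx)]; simp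
    · rw [indicator_of_notMem (by exact hx)]; simp
  · have h0 : ∀ᵐ x ∂ν, x j ≠ t₀ := by
      have := hν j t₀
      exact measure_eq_zero_iff_ae_notMem.mp this |>.mono fun x hx => hx
    refine ae_restrict_of_ae ?_
    filter_upwards [h0] with x hx
    rcases lt_or_gt_of_ne hx with h1 | h1
    · have : ∀ᶠ t in 𝓝 t₀, ({x : E d | x j ≤ t}).indicator (1 : E d → ℝ) x = 1 := by
        filter_upwards [lt_mem_nhds h1] with t ht
        rw [indicator_of_mem (by exact ht.le)]; rfl
      exact ContinuousAt.congr continuousAt_const (this.mono fun t ht => ht.symm)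
    · have : ∀ᶠ t in 𝓝 t₀, ({x : E d | x j ≤ t}).indicator (1 : E d → ℝ) x = 0 := by
        filter_upwards [gt_mem_nhds h1] with t ht
        rw [indicator_of_notMem (by exact not_le.mpr ht)]
      exact ContinuousAt.congr continuousAt_const (this.mono fun t ht => ht.symm)

theorem real_lo_eq {ν : Measure (E d)} [IsFiniteMeasure ν] (b : Bx d) {j : Fin d} {t : ℝ}
    (ht : t ≤ b.u j) :
    ν.real (b.lo j t).toSet = ∫ x in b.toSet, ({x : E d | x j ≤ t}).indicator (1 : E d → ℝ) x ∂ν := by
  have hm : MeasurableSet {x : E d | x j ≤ t} := measurableSet_le (measurable_coord j) measurable_const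
  rw [setIntegral_indicator hm, real_eq_integral_one]
  simp only [Pi.one_apply]
  congr 2
  ext x
  rw [b.mem_lo_iff ht]
  rfl

/-- A level of matching mass exists. -/
theorem exists_level {ν : Measure (E d)} [IsFiniteMeasure ν] (hν : NoPlane ν) {b : Bx d}
    (hb : b.le) (j : Fin d) {c : ℝ} (hc0 : 0 ≤ c) (hc1 : c ≤ ν.real b.toSet) :
    ∃ t, b.l j ≤ t ∧ t ≤ b.u j ∧ ν.real (b.lo j t).toSet = c := by
  have hcont := continuous_mass hν b j
  have hl : ∫ x in b.toSet, ({x : E d | x j ≤ b.l j}).indicator (1 : E d → ℝ) x ∂ν = 0 := by
    rw [← real_lo_eq b (hb j)]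
    have h0 : ν (b.lo j (b.l j)).toSet = 0 := by
      refine measure_mono_null ?_ (hν j (b.l j))
      intro x hx
      have h1 := (b.mem_lo_iff (hb j)).mp hx
      exact le_antisymm h1.2 (h1.1 j).1
    simp [Measure.real, h0]
  have hu : ∫ x in b.toSet, ({x : E d | x j ≤ b.u j}).indicator (1 : E d → ℝ) x ∂ν = ν.real b.toSet := by
    rw [← real_lo_eq b le_rfl]
    congr 1
    ext x
    rw [b.mem_lo_iff le_rfl]
    exact ⟨fun h => h.1, fun h => ⟨h, (h j).2⟩⟩
  have := intermediate_value_Icc (hb j) hcont.continuousOn
  simp only [hl, hu] at this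
  obtain ⟨t, ht, hte⟩ := this ⟨hc0, hc1⟩
  refine ⟨t, ht.1, ht.2, ?_⟩
  rw [real_lo_eq b ht.2]
  exact hte

theorem real_hi_eq {ν : Measure (E d)} [IsFiniteMeasure ν] (hν : NoPlane ν) (b : Bx d) {j : Fin d}
    {t : ℝ} (htl : b.l j ≤ t) (htu : t ≤ b.u j) :
    ν.real b.toSet = ν.real (b.lo j t).toSet + ν.real (b.hi j t).toSet := by
  simp only [real_eq_integral_one]
  exact split_integral hν b htl htu (integrable_const _)

/-- The recursion producing the refinement. -/
theorem refinable_aux {ν₁ ν₂ : Measure (E d)} [IsFiniteMeasure ν₁] [IsFiniteMeasure ν₂]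
    (h₁ : NoPlane ν₁) (h₂ : NoPlane ν₂) {h : ℝ} (hh : 0 < h) :
    ∀ (N : ℕ) (A B : Bx d) (p q : Fin d → ℕ), ∑ j, (p j + q j) ≤ N → A.le → B.le →
      (∀ j, A.u j - A.l j ≤ p j * h) → (∀ j, B.u j - B.l j ≤ q j * h) →
      ν₁.real A.toSet = ν₂.real B.toSet → Refinable ν₁ ν₂ h A B := by
  classical
  intro N
  induction N with
  | zero =>
    intro A B p q hN hA hB wA wB hm
    refine Refinable.base hA hB (fun j => ?_) (fun j => ?_) hm
    · have h1 : p j = 0 := by
        have h2 : p j + q j ≤ ∑ i, (p i + q i) :=
          Finset.single_le_sum (f := fun j => p j + q j) (fun _ _ => Nat.zero_le _)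
            (Finset.mem_univ j)
        omega
      have := wA j
      rw [h1] at this
      simp only [Nat.cast_zero, zero_mul] at this
      linarith
    · have h1 : q j = 0 := by
        have h2 : p j + q j ≤ ∑ i, (p i + q i) :=
          Finset.single_le_sum (f := fun j => p j + q j) (fun _ _ => Nat.zero_le _)
            (Finset.mem_univ j)
        omega
      have := wB j
      rw [h1] at this
      simp only [Nat.cast_zero, zero_mul] at this
      linarith
  | succ N ih =>
    intro A B p q hN hA hB wA wB hm
    by_cases hcA : ∃ j, h < A.u j - A.l j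
    · -- cut `A` in coordinate `j`
      obtain ⟨j, hj⟩ := hcA
      have hpj : 2 ≤ p j := by
        have h1 := wA j
        by_contra hcon
        have h2 : p j ≤ 1 := by omega
        have h3 : (p j : ℝ) ≤ 1 := by exact_mod_cast h2
        nlinarith
      set t := A.l j + h with ht
      have htl : A.l j ≤ t := by rw [ht]; linarith
      have htu : t ≤ A.u j := by rw [ht]; linarith
      have hm1 := real_hi_eq h₁ A htl htu
      have hc0 : 0 ≤ ν₁.real (A.lo j t).toSet := measureReal_nonneg
      have hc1 : ν₁.real (A.lo j t).toSet ≤ ν₂.real B.toSet := by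
        rw [← hm, hm1]
        linarith [measureReal_nonneg (μ := ν₁) (s := (A.hi j t).toSet)]
      obtain ⟨t', htl', htu', hte⟩ := exists_level h₂ hB j hc0 hc1
      have hm2 := real_hi_eq h₂ B htl' htu'
      refine Refinable.combine h₁ h₂ htl htu htl' htu' ?_ ?_
      · refine ih (A.lo j t) (B.lo j t') (Function.update p j 1) q ?_ (Bx.lo_le hA htl)
          (Bx.lo_le hB htl') ?_ ?_ hte.symm
        · -- the potential decreases
          have : ∑ i, (Function.update p j 1 i + q i) < ∑ i, (p i + q i) := by
            apply Finset.sum_lt_sum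
            · intro i _
              by_cases hi : i = j
              · subst hi
                simp only [Function.update_self]
                omega
              · simp [Function.update_of_ne hi]
            · refine ⟨j, Finset.mem_univ j, ?_⟩
              simp only [Function.update_self]
              omega
          omega
        · intro i
          by_cases hi : i = j
          · subst hi
            simp only [Bx.lo, Function.update_self]
            rw [ht]
            simp
          · simpa [Bx.lo, Function.update_of_ne hi] using wA i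
        · intro i
          by_cases hi : i = j
          · subst hi
            simp only [Bx.lo, Function.update_self]
            have := wB i
            linarith
          · simpa [Bx.lo, Function.update_of_ne hi] using wB i
      · refine ih (A.hi j t) (B.hi j t') (Function.update p j (p j - 1)) q ?_ (Bx.hi_le hA htu)
          (Bx.hi_le hB htu') ?_ ?_ (by linarith)
        · have : ∑ i, (Function.update p j (p j - 1) i + q i) < ∑ i, (p i + q i) := by
            apply Finset.sum_lt_sum
            · intro i _
              by_cases hi : i = j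
              · subst hi
                simp only [Function.update_self]
                omega
              · simp [Function.update_of_ne hi]
            · refine ⟨j, Finset.mem_univ j, ?_⟩
              simp only [Function.update_self]
              omega
          omega
        · intro i
          by_cases hi : i = j
          · subst hi
            simp only [Bx.hi, Function.update_self]
            have h1 := wA i
            have h2 : ((p i - 1 : ℕ) : ℝ) = (p i : ℝ) - 1 := by
              rw [Nat.cast_sub (by omega)]
              simp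
            rw [h2, ht]
            linarith
          · simpa [Bx.hi, Function.update_of_ne hi] using wA i
        · intro i
          by_cases hi : i = j
          · subst hi
            simp only [Bx.hi, Function.update_self]
            have := wB i
            linarith
          · simpa [Bx.hi, Function.update_of_ne hi] using wB i
    · by_cases hcB : ∃ j, h < B.u j - B.l j
      · -- cut `B` in coordinate `j`
        obtain ⟨j, hj⟩ := hcB
        have hqj : 2 ≤ q j := by
          have h1 := wB j
          by_contra hcon
          have h2 : q j ≤ 1 := by omega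
          have h3 : (q j : ℝ) ≤ 1 := by exact_mod_cast h2
          nlinarith
        set t' := B.l j + h with ht'
        have htl' : B.l j ≤ t' := by rw [ht']; linarith
        have htu' : t' ≤ B.u j := by rw [ht']; linarith
        have hm2 := real_hi_eq h₂ B htl' htu'
        have hc0 : 0 ≤ ν₂.real (B.lo j t').toSet := measureReal_nonneg
        have hc1 : ν₂.real (B.lo j t').toSet ≤ ν₁.real A.toSet := by
          rw [hm, hm2]
          linarith [measureReal_nonneg (μ := ν₂) (s := (B.hi j t').toSet)]
        obtain ⟨t, htl, htu, hte⟩ := exists_level h₁ hA j hc0 hc1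
        have hm1 := real_hi_eq h₁ A htl htu
        refine Refinable.combine h₁ h₂ htl htu htl' htu' ?_ ?_
        · refine ih (A.lo j t) (B.lo j t') p (Function.update q j 1) ?_ (Bx.lo_le hA htl)
            (Bx.lo_le hB htl') ?_ ?_ hte
          · have : ∑ i, (p i + Function.update q j 1 i) < ∑ i, (p i + q i) := by
              apply Finset.sum_lt_sum
              · intro i _
                by_cases hi : i = j
                · subst hi
                  simp only [Function.update_self]
                  omega
                · simp [Function.update_of_ne hi]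
              · refine ⟨j, Finset.mem_univ j, ?_⟩
                simp only [Function.update_self]
                omega
            omega
          · intro i
            by_cases hi : i = j
            · subst hi
              simp only [Bx.lo, Function.update_self]
              have := wA i
              linarith
            · simpa [Bx.lo, Function.update_of_ne hi] using wA i
          · intro i
            by_cases hi : i = j
            · subst hi
              simp only [Bx.lo, Function.update_self]
              rw [ht']
              simp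
            · simpa [Bx.lo, Function.update_of_ne hi] using wB i
        · refine ih (A.hi j t) (B.hi j t') p (Function.update q j (q j - 1)) ?_ (Bx.hi_le hA htu)
            (Bx.hi_le hB htu') ?_ ?_ (by linarith)
          · have : ∑ i, (p i + Function.update q j (q j - 1) i) < ∑ i, (p i + q i) := by
              apply Finset.sum_lt_sum
              · intro i _
                by_cases hi : i = j
                · subst hi
                  simp only [Function.update_self]
                  omega
                · simp [Function.update_of_ne hi]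
              · refine ⟨j, Finset.mem_univ j, ?_⟩
                simp only [Function.update_self]
                omega
            omega
          · intro i
            by_cases hi : i = j
            · subst hi
              simp only [Bx.hi, Function.update_self]
              have := wA i
              linarith
            · simpa [Bx.hi, Function.update_of_ne hi] using wA i
          · intro i
            by_cases hi : i = j
            · subst hi
              simp only [Bx.hi, Function.update_self]
              have h1 := wB i
              have h2 : ((q i - 1 : ℕ) : ℝ) = (q i : ℝ) - 1 := by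
                rw [Nat.cast_sub (by omega)]
                simp
              rw [h2, ht']
              linarith
            · simpa [Bx.hi, Function.update_of_ne hi] using wB i
      · push Not at hcA hcB
        exact Refinable.base hA hB hcA hcB hm

/-- Any two boxes of equal mass have a refinement into matched boxes of small size. -/
theorem refinable {ν₁ ν₂ : Measure (E d)} [IsFiniteMeasure ν₁] [IsFiniteMeasure ν₂]
    (h₁ : NoPlane ν₁) (h₂ : NoPlane ν₂) {h : ℝ} (hh : 0 < h) {A B : Bx d} (hA : A.le) (hB : B.le)
    (hm : ν₁.real A.toSet = ν₂.real B.toSet) : Refinable ν₁ ν₂ h A B := by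
  choose p hp using fun j => exists_nat_ge ((A.u j - A.l j) / h)
  choose q hq using fun j => exists_nat_ge ((B.u j - B.l j) / h)
  refine refinable_aux h₁ h₂ hh _ A B p q le_rfl hA hB (fun j => ?_) (fun j => ?_) hm
  · exact (div_le_iff₀ hh).mp (hp j)
  · exact (div_le_iff₀ hh).mp (hq j)

end Vale.Agent.P074
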