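import Vale.Agent.P074.Brenier

/-!
# Power cells and the existence of heights with prescribed masses
-/

open MeasureTheory Set Metric Filter Topology
open scoped ENNReal NNReal

set_option linter.unusedSectionVars false
set_option linter.unusedSimpArgs false
set_option linter.unusedVariables false

namespace Vale.Agent.P074

variable {d : ℕ} {I : Type} [Fintype I]

theorem hyperplane_null {n : E d} (hn : n ≠ 0) (c : ℝ) :
    volume {x : E d | inner ℝ x n = c} = 0 := by
  have hn2 : 0 < inner ℝ n n := by
    rw [real_inner_self_eq_norm_sq]; positivity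
  set x₀ : E d := (c / inner ℝ n n) • n with hx₀
  have hx₀c : inner ℝ x₀ n = c := by
    rw [hx₀, inner_smul_left]
    simp only [conj_trivial]
    field_simp
  set s : AffineSubspace ℝ (E d) := AffineSubspace.mk' x₀ (ℝ ∙ n)ᗮ with hs
  have hmem : ∀ x : E d, x ∈ s ↔ inner ℝ x n = c := by
    intro x
    rw [hs, AffineSubspace.mem_mk', vsub_eq_sub, Submodule.mem_orthogonal_singleton_iff_inner_left,
      inner_sub_left, hx₀c, sub_eq_zero]
  have hne : s ≠ ⊤ := by
    intro htop
    have h1 : x₀ + n ∈ s := by rw [htop]; trivial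
    rw [hmem, inner_add_left, hx₀c] at h1
    linarith
  have h := Measure.addHaar_affineSubspace (volume : Measure (E d)) s hne
  have e : {x : E d | inner ℝ x n = c} = (s : Set (E d)) := by
    ext x
    exact (hmem x).symm
  rw [e]
  exact h

/-- The upper envelope of the affine functions `x ↦ ⟪x, w i⟫ - a i`. -/
noncomputable def pw (w : I → E d) (a : I → ℝ) (x : E d) : ℝ := ⨆ i, (inner ℝ x (w i) - a i)

/-- The cell of index `i`: points of `K` where the `i`-th affine function is maximal. -/
def cell (K : Set (E d)) (w : I → E d) (a : I → ℝ) (i : I) : Set (E d) :=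
  {x | x ∈ K ∧ ∀ j, inner ℝ x (w j) - a j ≤ inner ℝ x (w i) - a i}

/-- The open part of the cell. -/
def ocell (K : Set (E d)) (w : I → E d) (a : I → ℝ) (i : I) : Set (E d) :=
  {x | x ∈ K ∧ ∀ j, j ≠ i → inner ℝ x (w j) - a j < inner ℝ x (w i) - a i}

variable {K : Set (E d)} {w w' : I → E d} {a b : I → ℝ} {i j : I} {x y : E d}

theorem le_pw (w : I → E d) (a : I → ℝ) (x : E d) (i : I) : inner ℝ x (w i) - a i ≤ pw w a x :=
  le_ciSup (f := fun i => inner ℝ x (w i) - a i) (Set.finite_range _).bddAbove i

theorem pw_le [Nonempty I] {c : ℝ} (h : ∀ i, inner ℝ x (w i) - a i ≤ c) : pw w a x ≤ c :=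
  ciSup_le h

theorem exists_pw_eq [Nonempty I] (w : I → E d) (a : I → ℝ) (x : E d) :
    ∃ i, pw w a x = inner ℝ x (w i) - a i := by
  obtain ⟨i, hi⟩ := exists_eq_ciSup_of_finite (f := fun i => inner ℝ x (w i) - a i)
  exact ⟨i, hi.symm⟩

theorem pw_eq_of_mem_cell [Nonempty I] (hx : x ∈ cell K w a i) :
    pw w a x = inner ℝ x (w i) - a i :=
  le_antisymm (pw_le hx.2) (le_pw w a x i)

theorem exists_mem_cell [Nonempty I] (w : I → E d) (a : I → ℝ) (hx : x ∈ K) :
    ∃ i, x ∈ cell K w a i := by
  obtain ⟨i, hi⟩ := exists_pw_eq w a x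
  exact ⟨i, hx, fun j => hi ▸ le_pw w a x j⟩

theorem cell_subset : cell K w a i ⊆ K := fun _ hx => hx.1

theorem iUnion_cell [Nonempty I] (w : I → E d) (a : I → ℝ) : ⋃ i, cell K w a i = K := by
  ext x
  simp only [mem_iUnion]
  exact ⟨fun ⟨_, hi⟩ => hi.1, fun hx => exists_mem_cell w a hx⟩

theorem isClosed_cell (hK : IsClosed K) (w : I → E d) (a : I → ℝ) (i : I) :
    IsClosed (cell K w a i) := by
  have : cell K w a i = K ∩ ⋂ j, {x | inner ℝ x (w j) - a j ≤ inner ℝ x (w i) - a i} := by
    ext x; simp [cell]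
  rw [this]
  refine hK.inter (isClosed_iInter fun j => ?_)
  exact isClosed_le (by fun_prop) (by fun_prop)

theorem measurableSet_cell (hK : IsClosed K) (w : I → E d) (a : I → ℝ) (i : I) :
    MeasurableSet (cell K w a i) := (isClosed_cell hK w a i).measurableSet

theorem convex_cell (hK : Convex ℝ K) (w : I → E d) (a : I → ℝ) (i : I) :
    Convex ℝ (cell K w a i) := by
  intro x hx y hy s t hs ht hst
  refine ⟨hK hx.1 hy.1 hs ht hst, fun j => ?_⟩
  have h1 := hx.2 j
  have h2 := hy.2 j
  simp only [inner_add_left, inner_smul_left, conj_trivial]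
  have e : a j = s * a j + t * a j := by
    rw [← add_mul, hst, one_mul]
  have e' : a i = s * a i + t * a i := by
    rw [← add_mul, hst, one_mul]
  nlinarith [mul_le_mul_of_nonneg_left h1 hs, mul_le_mul_of_nonneg_left h2 ht]

theorem measurableSet_ocell (hK : IsClosed K) (w : I → E d) (a : I → ℝ) (i : I) :
    MeasurableSet (ocell K w a i) := by
  have : ocell K w a i = K ∩ ⋂ j, ⋂ (_ : j ≠ i),
      {x | inner ℝ x (w j) - a j < inner ℝ x (w i) - a i} := by
    ext x; simp [ocell]
  rw [this]
  refine hK.measurableSet.inter (MeasurableSet.iInter fun j => MeasurableSet.iInter fun _ => ?_)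
  exact (isOpen_lt (by fun_prop) (by fun_prop)).measurableSet

theorem ocell_subset_cell : ocell K w a i ⊆ cell K w a i := by
  intro x hx
  refine ⟨hx.1, fun j => ?_⟩
  by_cases h : j = i
  · rw [h]
  · exact (hx.2 j h).le

theorem ocell_disjoint (hij : i ≠ j) : Disjoint (ocell K w a i) (ocell K w a j) := by
  rw [Set.disjoint_left]
  intro x hx hy
  exact lt_asymm (hx.2 j hij.symm) (hy.2 i hij)

theorem cell_sdiff_ocell_null (hw : Function.Injective w) :
    volume (cell K w a i \ ocell K w a i) = 0 := by
  have hsub : cell K w a i \ ocell K w a i ⊆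
      ⋃ j, ⋃ (_ : j ≠ i), {x | inner ℝ x (w j - w i) = a j - a i} := by
    rintro x ⟨hx, hxo⟩
    simp only [ocell, mem_ofPred_eq, not_and, not_forall, not_lt] at hxo
    obtain ⟨j, hj, hj2⟩ := hxo hx.1
    simp only [mem_iUnion, mem_ofPred_eq]
    refine ⟨j, hj, ?_⟩
    have := hx.2 j
    rw [inner_sub_right]
    linarith
  refine measure_mono_null hsub ?_
  refine measure_iUnion_null fun j => measure_iUnion_null fun hj' => ?_
  exact hyperplane_null (sub_ne_zero.mpr fun h => hj' (hw h)) _

theorem cell_ae_eq_ocell (hw : Function.Injective w) :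
    (cell K w a i : Set (E d)) =ᵐ[volume] ocell K w a i := by
  rw [ae_eq_set]
  refine ⟨cell_sdiff_ocell_null hw, ?_⟩
  exact measure_mono_null (t := ∅) (fun x hx => hx.2 (ocell_subset_cell hx.1)) measure_empty

theorem cell_aedisjoint (hw : Function.Injective w) (hij : i ≠ j) :
    AEDisjoint volume (cell K w a i) (cell K w a j) := by
  have h1 : AEDisjoint volume (ocell K w a i) (ocell K w a j) :=
    (ocell_disjoint hij).aedisjoint
  exact h1.congr (cell_ae_eq_ocell hw) (cell_ae_eq_ocell hw)

theorem integral_cells [Nonempty I] (hK : IsClosed K) (hw : Function.Injective w) (a : I → ℝ)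
    {f : E d → ℝ} (hf : IntegrableOn f K) : ∑ i, ∫ x in cell K w a i, f x = ∫ x in K, f x := by
  have h := integral_iUnion_ae (μ := volume) (s := fun i => cell K w a i) (f := f)
    (fun i => (measurableSet_cell hK w a i).nullMeasurableSet)
    (fun i j hij => cell_aedisjoint hw hij)
    (by rwa [iUnion_cell])
  rw [iUnion_cell, tsum_fintype] at h
  exact h.symm

theorem pw_lipschitz [Nonempty I] (w : I → E d) (a : I → ℝ) (x y : E d) :
    pw w a x ≤ pw w a y + (∑ i, ‖w i‖) * ‖x - y‖ := by
  refine pw_le fun i => ?_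
  have h1 := le_pw w a y i
  have h2 : inner ℝ (x - y) (w i) ≤ ‖x - y‖ * ‖w i‖ := real_inner_le_norm _ _
  have h3 : ‖w i‖ ≤ ∑ i, ‖w i‖ :=
    Finset.single_le_sum (f := fun i => ‖w i‖) (fun _ _ => norm_nonneg _) (Finset.mem_univ i)
  have h4 : ‖x - y‖ * ‖w i‖ ≤ ‖x - y‖ * ∑ i, ‖w i‖ :=
    mul_le_mul_of_nonneg_left h3 (norm_nonneg _)
  rw [inner_sub_left] at h2
  linarith

theorem pw_continuous [Nonempty I] (w : I → E d) (a : I → ℝ) : Continuous (pw w a) := by
  have h0 : 0 ≤ ∑ i, ‖w i‖ := Finset.sum_nonneg fun _ _ => norm_nonneg _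
  have : LipschitzWith (∑ i, ‖w i‖).toNNReal (pw w a) := by
    apply LipschitzWith.of_le_add_mul
    intro u v
    have := pw_lipschitz w a u v
    rw [Real.coe_toNNReal _ h0, dist_eq_norm]
    exact this
  exact this.continuous

theorem pw_heights_le [Nonempty I] (w : I → E d) (a b : I → ℝ) (x : E d) :
    pw w a x ≤ pw w b x + ‖a - b‖ := by
  refine pw_le fun i => ?_
  have h1 := le_pw w b x i
  have h2 : |a i - b i| ≤ ‖a - b‖ := by
    have := norm_le_pi_norm (a - b) i
    simpa [Real.norm_eq_abs] using this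
  have h3 := neg_abs_le (a i - b i)
  linarith

/-- Density bounds. -/
structure Dens (K : Set (E d)) (r : E d → ℝ) : Prop where
  meas : Measurable r
  lo : ∀ x ∈ K, 1 / 2 ≤ r x
  hi : ∀ x ∈ K, r x ≤ 3 / 2

theorem dens_one (K : Set (E d)) : Dens K (fun _ => 1) :=
  ⟨measurable_const, fun _ _ => by norm_num, fun _ _ => by norm_num⟩

section Int

variable {r : E d → ℝ}

theorem integrableOn_of_bdd (hK : IsCompact K) {f : E d → ℝ} (hf : Measurable f) {C : ℝ}
    (h : ∀ x ∈ K, |f x| ≤ C) : IntegrableOn f K volume :=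
  integrableOn_of_ae_bound hK hf (C := C) (Eventually.of_forall fun x hx => h x hx)

theorem Dens.integrableOn (hr : Dens K r) (hK : IsCompact K) : IntegrableOn r K volume :=
  integrableOn_of_bdd hK hr.meas (C := 3 / 2) fun x hx => by
    rw [abs_of_nonneg (by linarith [hr.lo x hx])]
    exact hr.hi x hx

theorem Dens.integrableOn_mul (hr : Dens K r) (hK : IsCompact K) {f : E d → ℝ}
    (hf : Continuous f) : IntegrableOn (fun x => f x * r x) K volume := by
  obtain ⟨C, hC⟩ := hK.exists_bound_of_continuousOn hf.continuousOn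
  refine integrableOn_of_bdd hK (hf.measurable.mul hr.meas) (C := C * (3 / 2)) fun x hx => ?_
  have h1 := hC x hx
  rw [abs_mul]
  have h2 : |r x| ≤ 3 / 2 := by
    rw [abs_of_nonneg (by linarith [hr.lo x hx])]
    exact hr.hi x hx
  exact mul_le_mul h1 h2 (abs_nonneg _) ((norm_nonneg _).trans h1)

/-- The Kantorovich functional. -/
noncomputable def kant (K : Set (E d)) (n : I → ℝ) (r : E d → ℝ) (w : I → E d) (a : I → ℝ) : ℝ :=
  (∫ x in K, pw w a x * r x) + ∑ i, n i * a i

theorem pw_sub_const [Nonempty I] (w : I → E d) (a : I → ℝ) (c : ℝ) (x : E d) :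
    pw w (fun i => a i - c) x = pw w a x + c := by
  apply le_antisymm
  · refine pw_le fun i => ?_
    have := le_pw w a x i
    linarith
  · have : pw w a x ≤ pw w (fun i => a i - c) x - c := by
      refine pw_le fun i => ?_
      have := le_pw w (fun i => a i - c) x i
      linarith
    linarith

theorem kant_sub_const [Nonempty I] (hK : IsCompact K) (hr : Dens K r) {n : I → ℝ}
    (hn : ∑ i, n i = ∫ x in K, r x) (w : I → E d) (a : I → ℝ) (c : ℝ) :
    kant K n r w (fun i => a i - c) = kant K n r w a := by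
  unfold kant
  simp only [pw_sub_const, add_mul]
  have hi := hr.integrableOn_mul hK (pw_continuous w a)
  have hi2 : IntegrableOn (fun x => c * r x) K volume := (hr.integrableOn hK).const_mul c
  have e1 := integral_add (μ := volume.restrict K) hi hi2
  rw [e1, integral_const_mul, ← hn]
  simp only [mul_sub, Finset.sum_sub_distrib, ← Finset.sum_mul]
  ring

theorem kant_le [Nonempty I] (hK : IsCompact K) (hr : Dens K r) {n : I → ℝ}
    (hn0 : ∀ i, 0 < n i) (w : I → E d) (a b : I → ℝ) :
    kant K n r w a ≤ kant K n r w b + ((∫ x in K, r x) + ∑ i, n i) * ‖a - b‖ := by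
  unfold kant
  have h1 : ∫ x in K, pw w a x * r x ≤ ∫ x in K, (pw w b x * r x + ‖a - b‖ * r x) := by
    refine setIntegral_mono_on (hr.integrableOn_mul hK (pw_continuous w a))
      ((hr.integrableOn_mul hK (pw_continuous w b)).add ((hr.integrableOn hK).const_mul _))
      hK.isClosed.measurableSet fun x hx => ?_
    have := pw_heights_le w a b x
    have h0 : 0 ≤ r x := by linarith [hr.lo x hx]
    nlinarith
  have e1 := integral_add (μ := volume.restrict K)
    (hr.integrableOn_mul hK (pw_continuous w b)) ((hr.integrableOn hK).const_mul ‖a - b‖)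
  rw [e1, integral_const_mul] at h1
  have h2 : ∑ i, n i * a i ≤ ∑ i, n i * b i + (∑ i, n i) * ‖a - b‖ := by
    rw [Finset.sum_mul, ← Finset.sum_add_distrib]
    refine Finset.sum_le_sum fun i _ => ?_
    have h3 : |a i - b i| ≤ ‖a - b‖ := by
      have := norm_le_pi_norm (a - b) i
      simpa [Real.norm_eq_abs] using this
    have h4 := le_abs_self (a i - b i)
    nlinarith [hn0 i]
  nlinarith

theorem kant_continuous [Nonempty I] (hK : IsCompact K) (hr : Dens K r) {n : I → ℝ}
    (hn0 : ∀ i, 0 < n i) (w : I → E d) : Continuous (kant K n r w) := by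
  have h0 : 0 ≤ (∫ x in K, r x) + ∑ i, n i := by
    have h1 : 0 ≤ ∫ x in K, r x :=
      setIntegral_nonneg hK.isClosed.measurableSet fun x hx => by linarith [hr.lo x hx]
    have h2 : 0 ≤ ∑ i, n i := Finset.sum_nonneg fun i _ => (hn0 i).le
    positivity
  have : LipschitzWith ((∫ x in K, r x) + ∑ i, n i).toNNReal (kant K n r w) := by
    apply LipschitzWith.of_le_add_mul
    intro u v
    have := kant_le hK hr hn0 w u v
    rw [Real.coe_toNNReal _ h0, dist_eq_norm]
    exact this
  exact this.continuous

/-- The constant bounding the minimizers. -/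
noncomputable def heightBound (RK : ℝ) (w : I → E d) (n : I → ℝ) (nm : ℝ) : ℝ :=
  2 * (RK * ∑ i, ‖w i‖) * (∑ i, n i) / nm

theorem abs_pw_zero_le [Nonempty I] {RK : ℝ} (hRK : ∀ x ∈ K, ‖x‖ ≤ RK) (w : I → E d)
    (hx : x ∈ K) : pw w (fun _ => 0) x ≤ RK * ∑ i, ‖w i‖ := by
  have hs0 : 0 ≤ ∑ i, ‖w i‖ := Finset.sum_nonneg fun _ _ => norm_nonneg _
  refine pw_le fun i => ?_
  have h1 : inner ℝ x (w i) ≤ ‖x‖ * ‖w i‖ := real_inner_le_norm _ _
  have h2 : ‖w i‖ ≤ ∑ i, ‖w i‖ :=
    Finset.single_le_sum (f := fun i => ‖w i‖) (fun _ _ => norm_nonneg _) (Finset.mem_univ i)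
  have h3 := hRK x hx
  have h4 : ‖x‖ * ‖w i‖ ≤ RK * ∑ i, ‖w i‖ :=
    mul_le_mul h3 h2 (norm_nonneg _) ((norm_nonneg _).trans h3)
  linarith

theorem pw_lower {RK : ℝ} (hRK : ∀ x ∈ K, ‖x‖ ≤ RK) (w : I → E d) {b : I → ℝ} {i₁ : I}
    (hb : b i₁ = 0) (hx : x ∈ K) : -(RK * ∑ i, ‖w i‖) ≤ pw w b x := by
  have h0 := le_pw w b x i₁
  have h1 : -(‖x‖ * ‖w i₁‖) ≤ inner ℝ x (w i₁) := by
    have := abs_real_inner_le_norm x (w i₁)
    exact (abs_le.mp this).1
  have h2 : ‖w i₁‖ ≤ ∑ i, ‖w i‖ :=
    Finset.single_le_sum (f := fun i => ‖w i‖) (fun _ _ => norm_nonneg _) (Finset.mem_univ i₁)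
  have h3 := hRK x hx
  have h4 : ‖x‖ * ‖w i₁‖ ≤ RK * ∑ i, ‖w i‖ :=
    mul_le_mul h3 h2 (norm_nonneg _) ((norm_nonneg _).trans h3)
  rw [hb] at h0
  linarith

/-- Existence of a minimizer of the Kantorovich functional in a box of uniform size. -/
theorem exists_min [Nonempty I] (hK : IsCompact K) {RK : ℝ} (hRK : ∀ x ∈ K, ‖x‖ ≤ RK)
    (hKne : K.Nonempty) (hr : Dens K r) {n : I → ℝ} (hn0 : ∀ i, 0 < n i)
    (hn : ∑ i, n i = ∫ x in K, r x) (w : I → E d) {nm : ℝ} (hnm : 0 < nm) (hnml : ∀ i, nm ≤ n i) :
    ∃ a : I → ℝ, (∀ i, a i ∈ Icc 0 (heightBound RK w n nm)) ∧ ∀ b, kant K n r w a ≤ kant K n r w b := by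
  have hRK0 : 0 ≤ RK := (norm_nonneg _).trans (hRK _ hKne.some_mem)
  have hs0 : 0 ≤ ∑ i, ‖w i‖ := Finset.sum_nonneg fun _ _ => norm_nonneg _
  have hT0 : 0 ≤ ∑ i, n i := Finset.sum_nonneg fun i _ => (hn0 i).le
  set L := heightBound RK w n nm with hL
  have hL0 : 0 ≤ L := by
    rw [hL, heightBound]
    positivity
  set box : Set (I → ℝ) := Set.pi univ fun _ => Icc 0 L with hbox
  have hboxc : IsCompact box := isCompact_univ_pi fun _ => isCompact_Icc
  have h0box : (fun _ => 0 : I → ℝ) ∈ box := fun _ _ => ⟨le_rfl, hL0⟩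
  obtain ⟨a, ha, hmin⟩ := hboxc.exists_isMinOn ⟨_, h0box⟩ (kant_continuous hK hr hn0 w).continuousOn
  have hKm := hK.isClosed.measurableSet
  -- the value at zero
  have hJ0 : kant K n r w (fun _ => 0) ≤ (RK * ∑ i, ‖w i‖) * ∑ i, n i := by
    unfold kant
    simp only [mul_zero, Finset.sum_const_zero, add_zero]
    have h1 : ∫ x in K, pw w (fun _ => 0) x * r x ≤ ∫ x in K, (RK * ∑ i, ‖w i‖) * r x := by
      refine setIntegral_mono_on (hr.integrableOn_mul hK (pw_continuous w _))
        ((hr.integrableOn hK).const_mul _) hKm fun x hx => ?_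
      have := abs_pw_zero_le hRK w hx
      have h0 : 0 ≤ r x := by linarith [hr.lo x hx]
      exact mul_le_mul_of_nonneg_right this h0
    rw [integral_const_mul, ← hn] at h1
    exact h1
  refine ⟨a, fun i => ha i (mem_univ i), fun b => ?_⟩
  -- normalize `b`
  obtain ⟨i₁, hi₁⟩ := Finite.exists_min b
  set c := b i₁ with hc
  set b' : I → ℝ := fun i => b i - c with hb'
  have e1 : kant K n r w b' = kant K n r w b := kant_sub_const hK hr hn w b c
  have hb'0 : ∀ i, 0 ≤ b' i := fun i => by
    simp only [hb']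
    linarith [hi₁ i]
  have hb'1 : b' i₁ = 0 := by simp [hb', hc]
  rw [← e1]
  by_cases hin : b' ∈ box
  · exact hmin hin
  · -- `b'` leaves the box: its value is large
    have hex : ∃ i₂, L < b' i₂ := by
      by_contra hcon
      push Not at hcon
      exact hin fun i _ => ⟨hb'0 i, hcon i⟩
    obtain ⟨i₂, hi₂⟩ := hex
    have h1 : kant K n r w a ≤ kant K n r w (fun _ => 0) := hmin h0box
    refine h1.trans (hJ0.trans ?_)
    unfold kant
    have h2 : -(RK * ∑ i, ‖w i‖) * ∑ i, n i ≤ ∫ x in K, pw w b' x * r x := by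
      have h3 : ∫ x in K, (-(RK * ∑ i, ‖w i‖)) * r x ≤ ∫ x in K, pw w b' x * r x := by
        refine setIntegral_mono_on ((hr.integrableOn hK).const_mul _)
          (hr.integrableOn_mul hK (pw_continuous w _)) hKm fun x hx => ?_
        have := pw_lower hRK w hb'1 hx
        have h0 : 0 ≤ r x := by linarith [hr.lo x hx]
        exact mul_le_mul_of_nonneg_right this h0
      rw [integral_const_mul, ← hn] at h3
      exact h3
    have h4 : nm * L ≤ ∑ i, n i * b' i := by
      have h5 : n i₂ * b' i₂ ≤ ∑ i, n i * b' i :=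
        Finset.single_le_sum (f := fun i => n i * b' i)
          (fun i _ => mul_nonneg (hn0 i).le (hb'0 i)) (Finset.mem_univ i₂)
      have h6 : nm * L ≤ n i₂ * b' i₂ :=
        mul_le_mul (hnml i₂) hi₂.le hL0 (hn0 i₂).le
      linarith
    have h7 : nm * L = 2 * (RK * ∑ i, ‖w i‖) * ∑ i, n i := by
      rw [hL, heightBound]
      field_simp
    have h8 : -(RK * ∑ i, ‖w i‖) * ∑ i, n i = -((RK * ∑ i, ‖w i‖) * ∑ i, n i) := by ring
    have h9 : 2 * (RK * ∑ i, ‖w i‖) * ∑ i, n i = 2 * ((RK * ∑ i, ‖w i‖) * ∑ i, n i) := by ring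
    linarith

/-- The first order condition at a minimizer: the mass of every cell is at most the prescribed
one. -/
theorem mass_le_of_min [Nonempty I] (hK : IsCompact K) (hr : Dens K r) {n : I → ℝ}
    (hw : Function.Injective w) (hmin : ∀ b, kant K n r w a ≤ kant K n r w b) (i : I) :
    ∫ x in cell K w a i, r x ≤ n i := by
  classical
  have hKc := hK.isClosed
  have hKm := hKc.measurableSet
  -- the sets where the `i`-th function wins by `ε`
  let U : ℝ → Set (E d) := fun ε =>
    {x | x ∈ K ∧ ∀ j, j ≠ i → inner ℝ x (w j) - a j ≤ inner ℝ x (w i) - a i - ε}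
  have hUm : ∀ ε, MeasurableSet (U ε) := by
    intro ε
    have : U ε = K ∩ ⋂ j, ⋂ (_ : j ≠ i),
        {x | inner ℝ x (w j) - a j ≤ inner ℝ x (w i) - a i - ε} := by
      ext x; simp [U]
    rw [this]
    refine hKm.inter (MeasurableSet.iInter fun j => MeasurableSet.iInter fun _ => ?_)
    exact (isClosed_le (by fun_prop) (by fun_prop)).measurableSet
  have hUK : ∀ ε, U ε ⊆ K := fun ε x hx => hx.1
  -- step one
  have step : ∀ ε, 0 < ε → ∫ x in U ε, r x ≤ n i := by
    intro ε hε
    set b : I → ℝ := fun j => a j + if j = i then ε else 0 with hb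
    have h1 := hmin b
    unfold kant at h1
    have hsum : ∑ j, n j * b j = ∑ j, n j * a j + n i * ε := by
      simp only [hb, mul_add, Finset.sum_add_distrib, mul_ite, mul_zero]
      simp
    have hle : ∫ x in K, pw w b x * r x ≤
        ∫ x in K, (pw w a x * r x - ε * (U ε).indicator r x) := by
      refine setIntegral_mono_on (hr.integrableOn_mul hK (pw_continuous w b)) ?_ hKm fun x hx => ?_
      · refine (hr.integrableOn_mul hK (pw_continuous w a)).sub (Integrable.const_mul ?_ ε)
        exact (hr.integrableOn hK).indicator (hUm ε)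
      · have h0 : 0 ≤ r x := by linarith [hr.lo x hx]
        by_cases hxU : x ∈ U ε
        · rw [indicator_of_mem hxU]
          have : pw w b x ≤ pw w a x - ε := by
            refine pw_le fun j => ?_
            have h2 := le_pw w a x i
            by_cases hj : j = i
            · subst hj
              simp only [hb, if_true]
              linarith
            · have h3 := hxU.2 j hj
              simp only [hb, if_neg hj, add_zero]
              linarith
          nlinarith
        · rw [indicator_of_notMem hxU]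
          have : pw w b x ≤ pw w a x := by
            refine pw_le fun j => ?_
            have h2 := le_pw w a x j
            have h3 : a j ≤ b j := by
              simp only [hb]
              split_ifs <;> linarith
            linarith
          nlinarith
    have hi1 : IntegrableOn (fun x => ε * (U ε).indicator r x) K volume :=
      Integrable.const_mul ((hr.integrableOn hK).indicator (hUm ε)) ε
    have e1 := integral_sub (μ := volume.restrict K)
      (hr.integrableOn_mul hK (pw_continuous w a)) hi1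
    rw [e1, integral_const_mul, setIntegral_indicator (hUm ε),
      inter_eq_right.mpr (hUK ε)] at hle
    rw [hsum] at h1
    have : ε * ∫ x in U ε, r x ≤ ε * n i := by linarith
    exact le_of_mul_le_mul_left this hε
  -- the limit
  let V : ℕ → Set (E d) := fun m => U (1 / ((m : ℝ) + 1))
  have hVmono : Monotone V := by
    intro m m' hmm x hx
    refine ⟨hx.1, fun j hj => ?_⟩
    have h1 := hx.2 j hj
    have h2 : 1 / ((m' : ℝ) + 1) ≤ 1 / ((m : ℝ) + 1) := by
      apply one_div_le_one_div_of_le (by positivity)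
      have : (m : ℝ) ≤ m' := by exact_mod_cast hmm
      linarith
    linarith
  have hVU : ⋃ m, V m = ocell K w a i := by
    ext x
    simp only [mem_iUnion]
    constructor
    · rintro ⟨m, hm⟩
      refine ⟨hm.1, fun j hj => ?_⟩
      have h1 := hm.2 j hj
      have h2 : 0 < 1 / ((m : ℝ) + 1) := by positivity
      linarith
    · intro hx
      -- a uniform gap
      let g : I → ℝ := fun j => if j = i then 1 else
        (inner ℝ x (w i) - a i) - (inner ℝ x (w j) - a j)
      obtain ⟨j₀, hj₀⟩ := Finite.exists_min g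
      have hg : 0 < g j₀ := by
        simp only [g]
        split_ifs with h
        · norm_num
        · linarith [hx.2 j₀ h]
      obtain ⟨m, hm⟩ := exists_nat_one_div_lt hg
      refine ⟨m, hx.1, fun j hj => ?_⟩
      have h1 := hj₀ j
      simp only [g, if_neg hj] at h1
      have h2 : g j₀ ≤ (inner ℝ x (w i) - a i) - (inner ℝ x (w j) - a j) := h1
      linarith
  have hlim := tendsto_setIntegral_of_monotone (μ := volume) (f := r) (s := V)
    (fun m => hUm _) hVmono (by
      rw [hVU]
      exact (hr.integrableOn hK).mono_set (fun x hx => hx.1))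
  rw [hVU] at hlim
  rw [setIntegral_congr_set (cell_ae_eq_ocell hw)]
  exact le_of_tendsto' hlim fun m => step _ (by positivity)

theorem mass_of_min [Nonempty I] (hK : IsCompact K) (hr : Dens K r) {n : I → ℝ}
    (hn : ∑ i, n i = ∫ x in K, r x)
    (hw : Function.Injective w) (hmin : ∀ b, kant K n r w a ≤ kant K n r w b) (i : I) :
    ∫ x in cell K w a i, r x = n i := by
  have h1 : ∑ i, ∫ x in cell K w a i, r x = ∑ i, n i := by
    rw [integral_cells hK.isClosed hw a (hr.integrableOn hK), hn]
  exact (Finset.sum_eq_sum_iff_of_le fun i _ => mass_le_of_min hK hr hw hmin i).mp h1 i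
    (Finset.mem_univ i)

/-- Existence of heights with prescribed masses, in a box independent of the density. -/
theorem exists_heights [Nonempty I] (hK : IsCompact K) {RK : ℝ} (hRK : ∀ x ∈ K, ‖x‖ ≤ RK)
    (hKne : K.Nonempty) (hr : Dens K r) {n : I → ℝ} (hn0 : ∀ i, 0 < n i)
    (hn : ∑ i, n i = ∫ x in K, r x) (hw : Function.Injective w) {nm : ℝ} (hnm : 0 < nm)
    (hnml : ∀ i, nm ≤ n i) :
    ∃ a : I → ℝ, (∀ i, a i ∈ Icc 0 (heightBound RK w n nm)) ∧
      ∀ i, ∫ x in cell K w a i, r x = n i := by
  obtain ⟨a, h1, h2⟩ := exists_min hK hRK hKne hr hn0 hn w hnm hnml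
  exact ⟨a, h1, mass_of_min hK hr hn hw h2⟩

theorem integrableOn_inner_mul (hK : IsCompact K) (hr : Dens K r) (v : E d) :
    IntegrableOn (fun x => inner ℝ x v * r x) K volume :=
  hr.integrableOn_mul hK (f := fun x => inner ℝ x v) (by fun_prop)

/-- Weak duality: the correlation of the cells of `(w, a)` with positions `w'` is bounded by the
functional at any heights for `w'`. -/
theorem prim_le_kant [Nonempty I] (hK : IsCompact K) (hr : Dens K r) {n : I → ℝ}
    (hw : Function.Injective w) (hmass : ∀ i, ∫ x in cell K w a i, r x = n i)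
    (w' : I → E d) (b : I → ℝ) :
    ∑ i, ∫ x in cell K w a i, inner ℝ x (w' i) * r x ≤ kant K n r w' b := by
  unfold kant
  rw [← integral_cells hK.isClosed hw a (hr.integrableOn_mul hK (pw_continuous w' b))]
  rw [← Finset.sum_add_distrib]
  refine Finset.sum_le_sum fun i _ => ?_
  have hm := measurableSet_cell hK.isClosed w a i
  rw [← hmass i, ← integral_mul_const]
  have i1 : IntegrableOn (fun x => pw w' b x * r x) (cell K w a i) volume :=
    (hr.integrableOn_mul hK (pw_continuous w' b)).mono_set cell_subset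
  have i2 : IntegrableOn (fun x => r x * b i) (cell K w a i) volume :=
    ((hr.integrableOn hK).mono_set cell_subset).mul_const _
  rw [← integral_add i1 i2]
  refine setIntegral_mono_on ((integrableOn_inner_mul hK hr _).mono_set cell_subset)
    (i1.add i2) hm fun x hx => ?_
  have h0 : 0 ≤ r x := by linarith [hr.lo x (cell_subset hx)]
  have h1 := le_pw w' b x i
  nlinarith

/-- At heights with the right masses the functional equals the correlation of the cells. -/
theorem kant_eq_prim [Nonempty I] (hK : IsCompact K) (hr : Dens K r) {n : I → ℝ}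
    (hw : Function.Injective w) (hmass : ∀ i, ∫ x in cell K w a i, r x = n i) :
    kant K n r w a = ∑ i, ∫ x in cell K w a i, inner ℝ x (w i) * r x := by
  unfold kant
  rw [← integral_cells hK.isClosed hw a (hr.integrableOn_mul hK (pw_continuous w a))]
  rw [← Finset.sum_add_distrib]
  refine Finset.sum_congr rfl fun i _ => ?_
  have hm := measurableSet_cell hK.isClosed w a i
  rw [← hmass i, ← integral_mul_const]
  have i1 : IntegrableOn (fun x => pw w a x * r x) (cell K w a i) volume :=
    (hr.integrableOn_mul hK (pw_continuous w a)).mono_set cell_subset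
  have i2 : IntegrableOn (fun x => r x * a i) (cell K w a i) volume :=
    ((hr.integrableOn hK).mono_set cell_subset).mul_const _
  rw [← integral_add i1 i2]
  refine setIntegral_congr_fun hm fun x hx => ?_
  show pw w a x * r x + r x * a i = inner ℝ x (w i) * r x
  rw [pw_eq_of_mem_cell hx]
  ring

theorem min_of_mass [Nonempty I] (hK : IsCompact K) (hr : Dens K r) {n : I → ℝ}
    (hw : Function.Injective w) (hmass : ∀ i, ∫ x in cell K w a i, r x = n i) (b : I → ℝ) :
    kant K n r w a ≤ kant K n r w b := by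
  rw [kant_eq_prim hK hr hw hmass]
  exact prim_le_kant hK hr hw hmass w b

/-- Uniqueness of the potential up to a constant. -/
theorem pw_sub_eq_const [Nonempty I] (hK : IsCompact K) (hconv : Convex ℝ K)
    (hi : (interior K).Nonempty) (hr : Dens K r) {n : I → ℝ}
    (hmina : ∀ c, kant K n r w a ≤ kant K n r w c) (hminb : ∀ c, kant K n r w b ≤ kant K n r w c) :
    ∃ c : ℝ, ∀ x ∈ K, pw w a x - pw w b x = c := by
  have hKm := hK.isClosed.measurableSet
  set m : I → ℝ := fun i => (a i + b i) / 2 with hm
  have hJ : kant K n r w a = kant K n r w b := le_antisymm (hmina b) (hminb a)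
  have h1 := hmina m
  set h : E d → ℝ := fun x => (pw w a x + pw w b x) / 2 - pw w m x with hh
  have hc : Continuous h := by
    have h1 := pw_continuous w a
    have h2 := pw_continuous w b
    have h3 := pw_continuous w m
    simp only [hh]
    fun_prop
  have hpos : ∀ x, 0 ≤ h x := by
    intro x
    have : pw w m x ≤ (pw w a x + pw w b x) / 2 := by
      refine pw_le fun i => ?_
      have h2 := le_pw w a x i
      have h3 := le_pw w b x i
      simp only [hm]
      linarith
    simp only [hh]
    linarith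
  have hirr : IntegrableOn (fun x => h x * r x) K volume := hr.integrableOn_mul hK hc
  -- the integral of `h r` vanishes
  have hint0 : ∫ x in K, h x * r x = 0 := by
    have e : ∫ x in K, h x * r x =
        ((∫ x in K, pw w a x * r x) + (∫ x in K, pw w b x * r x)) / 2 -
          ∫ x in K, pw w m x * r x := by
      have i1 := hr.integrableOn_mul hK (pw_continuous w a)
      have i2 := hr.integrableOn_mul hK (pw_continuous w b)
      have i3 := hr.integrableOn_mul hK (pw_continuous w m)
      have e1 := integral_add (μ := volume.restrict K) i1 i2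
      have e2 := integral_sub (μ := volume.restrict K) ((i1.add i2).div_const 2) i3
      rw [integral_div] at e2
      simp only [Pi.add_apply] at e2
      rw [← e1, ← e2]
      refine integral_congr_ae (Eventually.of_forall fun x => ?_)
      simp only [hh]
      ring
    have e2 : ∑ i, n i * m i = (∑ i, n i * a i + ∑ i, n i * b i) / 2 := by
      rw [← Finset.sum_add_distrib, Finset.sum_div]
      refine Finset.sum_congr rfl fun i _ => ?_
      simp only [hm]
      ring
    unfold kant at hJ h1
    rw [e2] at h1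
    have h5 : 0 ≤ ∫ x in K, h x * r x :=
      setIntegral_nonneg hKm fun x hx => mul_nonneg (hpos x) (by linarith [hr.lo x hx])
    linarith
  have hzero := (setIntegral_eq_zero_iff_of_nonneg_ae (μ := volume) (s := K)
    (f := fun x => h x * r x) ((ae_restrict_iff' hKm).mpr (Eventually.of_forall fun x hx =>
      mul_nonneg (hpos x) (by linarith [hr.lo x hx]))) hirr).mp hint0
  have hzero' : ∀ᵐ x ∂(volume : Measure (E d)), x ∈ K → h x = 0 := by
    have := (ae_restrict_iff' hKm).mp hzero
    filter_upwards [this] with x hx hxK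
    have h6 := hx hxK
    simp only [Pi.zero_apply] at h6
    have h7 : r x ≠ 0 := by linarith [hr.lo x hxK]
    exact (mul_eq_zero.mp h6).resolve_right h7
  -- so it vanishes on `K`
  have hzeroK : ∀ x ∈ K, h x = 0 := by
    intro x hx
    by_contra hne
    have hgt : 0 < h x := lt_of_le_of_ne (hpos x) (Ne.symm hne)
    set U := h ⁻¹' Ioi 0 with hU
    have hUo : IsOpen U := isOpen_Ioi.preimage hc
    have hcl : x ∈ closure (interior K) := by
      rw [hconv.closure_interior_eq_closure_of_nonempty_interior hi]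
      exact subset_closure hx
    obtain ⟨y, hyU, hyi⟩ := mem_closure_iff.mp hcl U hUo hgt
    have hpos2 : 0 < volume (U ∩ interior K) :=
      (hUo.inter isOpen_interior).measure_pos _ ⟨y, hyU, hyi⟩
    have hnull : volume (U ∩ interior K) = 0 := by
      refine measure_mono_null ?_ (ae_iff.mp hzero')
      rintro z ⟨hzU, hzi⟩
      simp only [mem_ofPred_eq, not_forall]
      exact ⟨interior_subset hzi, (ne_of_gt hzU : h z ≠ 0)⟩
    exact hpos2.ne' hnull
  -- finitely many values
  set f : E d → ℝ := fun x => pw w a x - pw w b x with hf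
  have hfc : Continuous f := (pw_continuous w a).sub (pw_continuous w b)
  have hmaps : MapsTo f K (range fun i => b i - a i) := by
    intro x hx
    obtain ⟨i, hi⟩ := exists_pw_eq w m x
    refine ⟨i, ?_⟩
    have h2 := le_pw w a x i
    have h3 := le_pw w b x i
    have h4 := hzeroK x hx
    have h5 : h x = (pw w a x + pw w b x) / 2 - pw w m x := rfl
    have h6 : m i = (a i + b i) / 2 := rfl
    rw [h5, hi, h6] at h4
    simp only [hf]
    linarith
  obtain ⟨c, _, hc2⟩ := hconv.isPreconnected.eqOn_const_of_mapsTo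
    (Set.finite_range _).isDiscrete hfc.continuousOn hmaps ⟨_, ⟨Classical.arbitrary I, rfl⟩⟩
  exact ⟨c, fun x hx => hc2 hx⟩

end Int

end Vale.Agent.P074
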